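import Crest.Agent.R264.Fol.Rf

/-! Block Fol (owner helper79): algebraicity. -/

set_option autoImplicit false
set_option linter.unusedSectionVars false
set_option linter.unusedVariables false
open Set Filter Topology MvPolynomial Complex

namespace Crest.Agent.R264.Fol

variable {A B : Type} [Fintype A] [Fintype B] [DecidableEq A] [DecidableEq B] {𝕜 : Subfield ℝ}

namespace Lv

variable {L : Lv 𝕜 A B} {z : Amb A B}

/-! ### part a: the equations -/

theorem Eh_pol' (L : Lv 𝕜 A B) {𝕜' : Subfield ℝ} (hk : 𝕜 ≤ 𝕜') {E κ : Type} {x : κ → E → ℂ} {φ ψ : E → Amb A B}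
    (h₁ : ∀ i, (fun e => fu (φ e) i) ∈ Pol 𝕜' x) (h₂ : ∀ i, (fun e => fu (star (φ e)) i) ∈ Pol 𝕜' x)
    (h₃ : ∀ i, (fun e => fu (ψ e) i) ∈ Pol 𝕜' x) (j : Option A) : (fun e => fv (L.Eh (φ e, ψ e)) j) ∈ Pol 𝕜' x := by
  have a1 : ∀ {f}, f ∈ Pol 𝕜 (xa A B) → (fun e => f (φ e, star (φ e))) ∈ Pol 𝕜' x :=
    fun hf => Pol.comp hf hk (fun e => (φ e, star (φ e))) (xa_pol h₁ h₂)
  have a2 : ∀ {f}, f ∈ Pol 𝕜 (xa A B) → (fun e => f (ψ e, star (φ e))) ∈ Pol 𝕜' x :=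
    fun hf => Pol.comp hf hk (fun e => (ψ e, star (φ e))) (xa_pol h₃ h₂)
  have hD := L.nn_pol (Sum.inl none)
  cases j with
  | none => exact Pol.sub (Pol.mul (a1 hD) (a2 L.RR_pol)) (Pol.mul (a2 hD) (a1 L.RR_pol))
  | some a =>
    have hN := L.nn_pol (Sum.inl (some a))
    exact Pol.sub (Pol.mul (a1 hD) (a2 hN)) (Pol.mul (a2 hD) (a1 hN))

theorem Eh_pol (L : Lv 𝕜 A B) (j : Option A) : (fun x => fv (L.Eh x) j) ∈ Pol 𝕜 (cf rb) := by
  have h1 := fu_pol (φ := fun x : Amb A B × Amb A B => x.1) (𝕜 := 𝕜) (x := cf rb)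
    fun k => Pol.coord (cf rb) (Sum.inl k)
  have h2 := fu_pol (φ := fun x : Amb A B × Amb A B => x.2) (𝕜 := 𝕜) (x := cf rb)
    fun k => Pol.coord (cf rb) (Sum.inr k)
  exact L.Eh_pol' le_rfl (fun i => (h1 i).1) (fun i => (h1 i).2) (fun i => (h2 i).1) j

theorem Eh_eq (L : Lv 𝕜 A B) {c q : Amb A B} (h : L.D (c, star c) ≠ 0) (h' : L.D (q, star c) ≠ 0) :
    L.Eh (c, q) = (L.D (c, star c) * L.D (q, star c)) • (L.Gm (q, star c) - L.Gm (c, star c)) := by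
  simp only [Eh, Gm, smul_sub, smul_smul]
  congr 2 <;> field_simp

theorem OK.Eh_S (h : L.OK) (hz : z ∈ L.S) : L.Eh (L.p, z) = 0 := by
  rw [L.Eh_eq h.hD hz.2.1, hz.1, ph, sub_self, smul_zero]

/-- `(c, q) ↦ (c, star c)` -/
noncomputable def Eh_u₁ (A B : Type) [Fintype A] [Fintype B] : Amb A B × Amb A B →L[ℝ] Amb A B × Amb A B :=
  (ContinuousLinearMap.fst ℝ _ _).prod
    ((starL' ℝ : Amb A B ≃L[ℝ] Amb A B).toContinuousLinearMap.comp (ContinuousLinearMap.fst ℝ _ _))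

/-- `(c, q) ↦ (q, star c)` -/
noncomputable def Eh_u₂ (A B : Type) [Fintype A] [Fintype B] : Amb A B × Amb A B →L[ℝ] Amb A B × Amb A B :=
  (ContinuousLinearMap.snd ℝ _ _).prod
    ((starL' ℝ : Amb A B ≃L[ℝ] Amb A B).toContinuousLinearMap.comp (ContinuousLinearMap.fst ℝ _ _))

theorem Eh_an (L : Lv 𝕜 A B) (x : Amb A B × Amb A B) : AnalyticAt ℝ L.Eh x := by
  have h : ∀ {F : Type} [NormedAddCommGroup F] [NormedSpace ℂ F] [NormedSpace ℝ F] [IsScalarTower ℝ ℂ F]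
      {f : Amb A B × Amb A B → F}, (∀ y, AnalyticAt ℂ f y) →
      AnalyticAt ℝ (fun y : Amb A B × Amb A B => f (y.1, star y.1)) x ∧
        AnalyticAt ℝ (fun y : Amb A B × Amb A B => f (y.2, star y.1)) x := fun hf =>
    ⟨((hf _).restrictScalars (𝕜 := ℝ)).comp ((Eh_u₁ A B).analyticAt x),
      ((hf _).restrictScalars (𝕜 := ℝ)).comp ((Eh_u₂ A B).analyticAt x)⟩
  exact ((h L.D_an).1.smul (h L.Pn_an).2).sub ((h L.D_an).2.smul (h L.Pn_an).1)

theorem OK.fderiv_Eh (h : L.OK) (hD : L.D (z, star L.p) ≠ 0) (hz : L.Gm (z, star L.p) = L.Gm L.ph) (w v : Amb A B) :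
    fderiv ℝ L.Eh (L.p, z) (w, v) = (L.D L.ph * L.D (z, star L.p)) •
      (fderiv ℂ L.Gm (z, star L.p) (v, star w) - fderiv ℂ L.Gm L.ph (w, star w)) := by
  have c1 : ∀ {F : Type} [NormedAddCommGroup F] [NormedSpace ℂ F] [NormedSpace ℝ F] [IsScalarTower ℝ ℂ F]
      {f : Amb A B × Amb A B → F} (u : Amb A B × Amb A B →L[ℝ] Amb A B × Amb A B), AnalyticAt ℂ f (u (L.p, z)) →
      HasFDerivAt (fun y => f (u y)) (((fderiv ℂ f (u (L.p, z))).restrictScalars ℝ).comp u) (L.p, z) :=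
    fun u hf => (hf.differentiableAt.hasFDerivAt.restrictScalars ℝ).comp _ u.hasFDerivAt
  have d1 := c1 (Eh_u₁ A B) (L.D_an _)
  have d2 := c1 (Eh_u₂ A B) (L.D_an _)
  have h1 := (d1.mul d2).smul ((c1 (Eh_u₂ A B) (L.Gm_an hD)).sub (c1 (Eh_u₁ A B) (L.Gm_an h.hD)))
  rw [(h1.congr_of_eventuallyEq (f₁ := L.Eh) (by
    filter_upwards [d1.continuousAt.eventually_ne h.hD, d2.continuousAt.eventually_ne hD] with y y1 y2
    exact L.Eh_eq y1 y2)).fderiv]
  have h3 : L.Gm (Eh_u₂ A B (L.p, z)) - L.Gm (Eh_u₁ A B (L.p, z)) = 0 := sub_eq_zero.2 hz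
  simp only [add_apply, ContinuousLinearMap.smulRight_apply, Pi.sub_apply, h3, smul_zero, add_zero]
  rfl

/-- the linearised equations -/
theorem OK.Eh_lin (h : L.OK) (hz : z ∈ L.S) (x : Vt A) (v : Amb A B) :
    (∀ j, fderiv ℝ (fun y => fv (L.Eh y) j) (L.p, z) (iv x, v) = 0) ↔ v = L.DF z (x, v.2.2) := by
  have h1 : ∀ j, fderiv ℝ (fun y => fv (L.Eh y) j) (L.p, z) (iv x, v) =
      fv (fderiv ℝ L.Eh (L.p, z) (iv x, v)) j := fun j => by
    obtain ⟨ℓ, hℓ⟩ := exists_fvL j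
    simp only [hℓ]
    exact DFunLike.congr_fun ((ℓ.restrictScalars ℝ).hasFDerivAt.comp (L.p, z)
      (L.Eh_an _).differentiableAt.hasFDerivAt).fderiv _
  simp only [h1]
  rw [← h.lin_iff hz, ← sub_eq_zero, ← star_iv, ← smul_eq_zero_iff_right (mul_ne_zero h.hD hz.2.1),
    ← h.fderiv_Eh hz.2.1 hz.1]
  refine ⟨fv_inj, fun h j => ?_⟩
  rw [h]
  cases j <;> rfl

theorem S_poly_an (F : MvPolynomial (Option A ⊕ B) ℂ) (q : Amb A B) :
    AnalyticAt ℂ (fun q : Amb A B => eval (fu q) F) q ∧ ∀ v : Vt A, fderiv ℂ (fun q : Amb A B => eval (fu q) F) q (iv v) =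
      ∑ j, eval (fu q) (pderiv (Sum.inl j) F) * fv v j := by
  obtain ⟨T, hT⟩ := exists_fuL A B
  have e : (fun q : Amb A B => eval (fu q) F) = (fun y => eval y F) ∘ T := by funext q; simp [hT]
  rw [e]
  refine ⟨(fderiv_eval F _ 0).1.comp (T.analyticAt q), fun v => ?_⟩
  rw [((fderiv_eval F (T q) 0).1.differentiableAt.hasFDerivAt.comp q T.hasFDerivAt).fderiv]
  change fderiv ℂ (fun y => eval y F) (T q) (T (iv v)) = _
  rw [(fderiv_eval F _ _).2, hT, hT, Fintype.sum_sum_type]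
  simp only [fu, iv_apply, Sum.elim_inr, Pi.zero_apply, mul_zero, Finset.sum_const_zero, add_zero, Sum.elim_inl]
  rfl

theorem OK.S_poly_deriv (h : L.OK) {q : Amb A B} (hD : L.D (q, star L.p) ≠ 0) (hG : L.Gm (q, star L.p) = L.Gm L.ph)
    (j : Option A) (v : Amb A B) : fderiv ℂ (fun q => fv (L.Eh (L.p, q)) j) q v =
      L.D L.ph * L.D (q, star L.p) * fv (fderiv ℂ L.Gm (q, star L.p) (v, 0)) j := by
  obtain ⟨ℓ, hℓ⟩ := exists_fvL j
  have hi : HasFDerivAt (fun q : Amb A B => (q, star L.p)) (ContinuousLinearMap.inl ℂ _ _) q :=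
    hasFDerivAt_prodMk_left _ _
  have h1 := (((L.D_an (q, star L.p)).differentiableAt.hasFDerivAt.comp q hi).const_mul (L.D L.ph)).mul
    (ℓ.hasFDerivAt.comp q (((L.Gm_an hD).differentiableAt.hasFDerivAt.comp q hi).sub_const (L.Gm L.ph)))
  have h2 : (fun q => fv (L.Eh (L.p, q)) j) =ᶠ[𝓝 q]
      fun q => L.D L.ph * L.D (q, star L.p) * ℓ (L.Gm (q, star L.p) - L.Gm L.ph) := by
    filter_upwards [hi.continuousAt.eventually ((L.D_an _).continuousAt.eventually_ne hD)] with q' hq'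
    rw [L.Eh_eq h.hD hq', hℓ, map_smul, smul_eq_mul]
    rfl
  rw [(h1.congr_of_eventuallyEq h2).fderiv, hℓ]
  simp [hG]

/-- `E j` from `Eh_pol'` (over `⊤`, `φ = p` constant) and `Pol.cpoly`, `g = D * Ds`; `fderiv_eval`, `fderiv_Eh` -/
theorem OK.S_poly (h : L.OK) : ∃ (E : Option A → MvPolynomial (Option A ⊕ B) ℂ) (g : MvPolynomial (Option A ⊕ B) ℂ),
    ∀ q, q ∈ L.S ↔ (∀ j, eval (fu q) (E j) = 0) ∧
      eval (fu q) (g * (Matrix.of fun i j => pderiv (Sum.inl j) (E i)).det) ≠ 0 := by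
  have hp : ∀ (c : Amb A B) (i : Option A ⊕ B), (fun _ : Amb A B => fu c i) ∈
      Pol ⊤ (fun k (q : Amb A B) => fu q k) := fun c i => Pol.const (cx_top _)
  have hq : ∀ i, (fun q : Amb A B => fu q i) ∈ Pol ⊤ (fun k (q : Amb A B) => fu q k) := fun i =>
    Pol.coord (fun k (q : Amb A B) => fu q k) i
  choose E hE using fun j => Pol.cpoly (L.Eh_pol' le_top (φ := fun _ => L.p) (ψ := fun q => q) (hp _) (hp _) hq j)
  obtain ⟨g, hg⟩ := Pol.cpoly (Pol.mul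
    (Pol.comp (L.nn_pol (Sum.inl none)) le_top (fun q => (q, star L.p)) (xa_pol hq (hp _)))
    (Pol.comp (L.mm_pol (Sum.inl none)) le_top (fun q => (q, star L.p)) (xa_pol hq (hp _))))
  replace hg : ∀ q, eval (fu q) g = L.D (q, star L.p) * L.Ds (q, star L.p) := fun q => (hg q).symm
  replace hE : ∀ j q, eval (fu q) (E j) = fv (L.Eh (L.p, q)) j := fun j q => (hE j q).symm
  refine ⟨E, g, fun q => ?_⟩
  have key : L.D (q, star L.p) ≠ 0 → L.Gm (q, star L.p) = L.Gm L.ph →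
      ((∀ v : Vt A, fderiv ℂ L.Gm (q, star L.p) (iv v, 0) = 0 → v = 0) ↔
        eval (fu q) (Matrix.of fun i j => pderiv (Sum.inl j) (E i)).det ≠ 0) := by
    intro hD hG
    rw [RingHom.map_det, Ne, ← Matrix.exists_mulVec_eq_zero_iff]
    have e : ∀ (v : Vt A) i, (((eval (fu q)).mapMatrix (Matrix.of fun i j => pderiv (Sum.inl j) (E i))).mulVec
        (fv v)) i = L.D L.ph * L.D (q, star L.p) * fv (fderiv ℂ L.Gm (q, star L.p) (iv v, 0)) i := by
      intro v i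
      rw [← h.S_poly_deriv hD hG, ← funext (hE i), (S_poly_an (E i) q).2]
      rfl
    constructor
    · rintro H ⟨w, hw, hw'⟩
      have e' : fv ((w none, fun a => w (some a)) : Vt A) = w := by funext j; rcases j with _ | j <;> rfl
      have := H (w none, fun a => w (some a)) (fv_inj fun j => by
        have := e (w none, fun a => w (some a)) j
        rw [e', hw'] at this
        exact (mul_eq_zero.1 this.symm).resolve_left (mul_ne_zero h.hD hD))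
      rw [this] at e'
      exact hw (e'.symm.trans (by funext j; rcases j with _ | j <;> rfl))
    · intro H v hv
      by_contra hne
      refine H ⟨fv v, fun h0 => hne (fv_inj (congrFun h0)), funext fun i => ?_⟩
      rw [e, hv]
      rcases i with _ | i <;> exact mul_zero _
  rw [map_mul, hg]
  simp only [hE]
  constructor
  · intro hq
    refine ⟨fun j => ?_, mul_ne_zero (mul_ne_zero hq.2.1 hq.2.2.1) ((key hq.2.1 hq.1).1 hq.2.2.2)⟩
    rw [h.Eh_S hq]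
    rcases j with _ | j <;> rfl
  · rintro ⟨h1, h2⟩
    have hD := left_ne_zero_of_mul (left_ne_zero_of_mul h2)
    have h3 := fv_inj h1
    rw [L.Eh_eq h.hD hD] at h3
    have hG : L.Gm (q, star L.p) = L.Gm L.ph :=
      sub_eq_zero.1 ((smul_eq_zero.1 h3).resolve_left (mul_ne_zero h.hD hD))
    exact ⟨hG, hD, right_ne_zero_of_mul (left_ne_zero_of_mul h2), (key hD hG).2 (right_ne_zero_of_mul h2)⟩

/-- the vanishing ideal of `fu '' Zs` is prime (`prop_entire`, `germ_zero`); `elim` -/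
theorem OK.exists_h0 (h : L.OK) : ∃ g : MvPolynomial B ℂ, g ≠ 0 ∧ ∀ q : Amb A B,
    (∀ f : Amb A B → ℂ, AnalyticOnNhd ℂ f univ → (∀ z ∈ L.Zs, f z = 0) → f q = 0) → eval q.2.2 g ≠ 0 → q ∈ L.S := by
  obtain ⟨E, g, hS⟩ := h.S_poly
  let 𝔭 : Ideal (MvPolynomial (Option A ⊕ B) ℂ) := ⨅ z ∈ L.Zs, RingHom.ker (eval (fu z))
  have mem : ∀ F, F ∈ 𝔭 ↔ ∀ z ∈ L.Zs, eval (fu z) F = 0 := fun F => by
    simp only [𝔭, Ideal.mem_iInf, RingHom.mem_ker]
  have hb := b_Zs h.p_Zs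
  have han : ∀ F : MvPolynomial (Option A ⊕ B) ℂ, AnalyticAt ℂ (fun τ => eval (fu (L.b L.p τ)) F) L.p.2.2 :=
    fun F => (S_poly_an F _).1.comp (f := L.b L.p) (b_an h.p_mem)
  have hp : 𝔭.IsPrime := by
    refine ⟨fun h1 => ?_, fun {F G} hFG => ?_⟩
    · have := (mem 1).1 (h1 ▸ Submodule.mem_top) _ h.p_Zs
      simp at this
    · by_cases hF : ∃ᶠ τ in 𝓝 L.p.2.2, (fun τ => eval (fu (L.b L.p τ)) F) =ᶠ[𝓝 τ] 0
      · exact Or.inl ((mem F).2 (h.prop_entire (fun q => (S_poly_an F q).1) (germ_zero (han F) hF)))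
      · refine Or.inr ((mem G).2 (h.prop_entire (fun q => (S_poly_an G q).1) ?_))
        filter_upwards [not_frequently.1 hF, hb.eventually_nhds, (han G).eventually_analyticAt] with τ h1 h2 h3
        by_contra hne
        refine h1 ?_
        filter_upwards [h2, h3.continuousAt.eventually_ne hne] with τ' a1 a2
        have := (mem _).1 hFG _ a1
        rw [map_mul] at this
        exact (mul_eq_zero.1 this).resolve_right a2
  have hg : g * (Matrix.of fun i j => pderiv (Sum.inl j) (E i)).det ∉ 𝔭 := fun h1 =>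
    ((hS _).1 h.p_mem).2 ((mem _).1 h1 _ h.p_Zs)
  have hren : ∀ (k : MvPolynomial B ℂ) (q : Amb A B), eval (fu q) (rename Sum.inr k) = eval q.2.2 k := fun k q => by
    rw [eval_rename]; rfl
  obtain ⟨k, k', hk, hk'⟩ := elim hp (fun j => (mem _).2 fun z hz => ((hS z).1 (Zs_sub hz)).1 j)
    (fun h1 => hg (𝔭.mul_mem_left _ h1)) (fun k hk => by
      have h1 : (fun τ => eval τ k) =ᶠ[𝓝 L.p.2.2] 0 := by
        filter_upwards [hb, b_mem h.p_mem] with τ a1 a2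
        have := (mem _).1 hk _ a1
        rwa [hren, a2.1] at this
      have h2 := AnalyticOnNhd.eqOn_zero_of_preconnected_of_eventuallyEq_zero (U := univ)
        (fun τ _ => (fderiv_eval k τ 0).1) isPreconnected_univ (mem_univ _) h1
      exact MvPolynomial.funext fun τ => (h2 (mem_univ τ)).trans (map_zero _).symm) hg
  refine ⟨k, hk, fun q hq hne => (hS q).2 ⟨fun j => hq _ (fun q _ => (S_poly_an (E j) q).1)
    fun z hz => ((hS z).1 (Zs_sub hz)).1 j, fun h0 => hne ?_⟩⟩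
  have := hq _ (fun q _ => (S_poly_an _ q).1) ((mem _).1 hk')
  rwa [map_sub, map_mul, h0, zero_mul, sub_zero, hren] at this

theorem OK.eqs_uniq (h : L.OK) (hz : z ∈ L.S) : ∀ᶠ q in 𝓝 z, L.Eh (L.p, q) = 0 → L.b z q.2.2 = q := by
  have d : ContinuousAt (fun q => L.D (q, star L.p)) z := (L.D_an _).continuousAt.comp (by fun_prop)
  filter_upwards [b_uniq hz, d.eventually_ne hz.2.1] with q h1 h2 h3
  rw [L.Eh_eq h.hD h2] at h3
  exact h1 (sub_eq_zero.1 ((smul_eq_zero_iff_right (mul_ne_zero h.hD h2)).1 h3))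

/-! ### part b: the fields of `AlgOK` -/

theorem Eh_pol₁ (L : Lv 𝕜 A B) (j : Option A) :
    (fun q => fv (L.Eh (L.p, q)) j) ∈ Pol (adj 𝕜 (ra L.p)) (cf ra) := by
  have h1 := fu_pol (φ := fun _ : Amb A B => L.p) (𝕜 := adj 𝕜 (ra L.p)) (x := cf ra)
    fun k => Pol.const (cx_ofReal (mem_adj 𝕜 (ra L.p) k))
  have h2 := fu_pol (φ := fun x : Amb A B => x) (𝕜 := adj 𝕜 (ra L.p)) (x := cf ra) fun k => Pol.coord (cf ra) k
  exact L.Eh_pol' (le_adj _ _) (fun i => (h1 i).1) (fun i => (h1 i).2) (fun i => (h2 i).1) j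

theorem OK.alg_uniq (h : L.OK) {Z : Set (Amb A B)} (hZ : Z ⊆ L.S) (hz : z ∈ L.S) :
    ∀ᶠ q in 𝓝 z, ra q ∈ ZS (IS (adj 𝕜 (ra L.p)) (ra '' Z)) → L.b z q.2.2 = q := by
  filter_upwards [h.eqs_uniq hz] with q h1 h2
  refine h1 (fv_inj fun j => Pol.zero_of_ZS (L.Eh_pol₁ j) (fun e he => ?_) h2)
  rw [h.Eh_S (hZ he)]
  cases j <;> rfl

theorem alg_t {w : Amb A B} (h : ∀ i, ra w (eB A B i) = 0) : w.2.2 = 0 :=
  funext fun b => Complex.ext (h (Sum.inl b)) (h (Sum.inr b))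

theorem alg_an (L : Lv 𝕜 A B) (j : Option A) (x : Amb A B × Amb A B) : AnalyticAt ℝ (fun y => fv (L.Eh y) j) x := by
  obtain ⟨ℓ, hℓ⟩ := exists_fvL j
  simp only [hℓ]
  exact ((ℓ.restrictScalars ℝ).analyticAt _).comp (L.Eh_an x)

theorem alg_ra (z : Amb A B) : ∃ T : Amb A B ≃L[ℝ] ((Option A ⊕ B) ⊕ (Option A ⊕ B) → ℝ), (∀ z, T z = ra z) ∧
    HasFDerivAt ra (T : Amb A B →L[ℝ] _) z := by
  obtain ⟨T, hT⟩ := exists_raL A B
  exact ⟨T, hT, (funext hT : ⇑T = ra) ▸ T.hasFDerivAt⟩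

/-- `td_le_of_tan`, `Pol.tan`, `Eh_lin` with `x = 0` -/
theorem OK.alg_alg (h : L.OK) (hz : z ∈ L.S) : td (adj 𝕜 (ra L.p)) (ra z) ≤ td (adj 𝕜 (ra L.p)) (rc z.2.2) := by
  obtain ⟨T, hT, hT'⟩ := alg_ra z
  rw [← ra_eB]
  refine td_le_of_tan _ fun v hv h0 => ?_
  obtain ⟨w, rfl⟩ := T.surjective v
  have hw : w.2.2 = 0 := alg_t (by rwa [hT] at h0)
  have := (h.Eh_lin hz 0 w).1 fun j => by
    have e1 := Pol.tan (L.Eh_pol₁ j) hT' (by rw [h.Eh_S hz]; cases j <;> rfl) hv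
    have e2 := (HasFDerivAt.comp z (f := fun q : Amb A B => (L.p, q)) (alg_an L j _).differentiableAt.hasFDerivAt
      (hasFDerivAt_prodMk_right L.p z)).fderiv
    rw [show fderiv ℝ (fun q => fv (L.Eh (L.p, q)) j) z = _ from e2] at e1
    rw [map_zero]
    exact e1
  rw [hw, Prod.mk_zero_zero, map_zero] at this
  rw [this, map_zero]

theorem alg_cx {𝕜' : Subfield ℝ} {w : Amb A B} (h : ∀ k, ra w k ∈ 𝕜') (i : Option A ⊕ B) : fu w i ∈ cx 𝕜' :=
  ⟨h (Sum.inl i), h (Sum.inr i)⟩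

theorem OK.alg_nd (h : L.OK) (hz : z ∈ L.S) : L.Nd z ↔ ∀ w : Amb A B,
    (∀ j, fderiv ℝ (fun y => fv (L.Eh y) j) (L.p, z) (w, 0) = 0) → w.2.2 = 0 → w = 0 := by
  refine ⟨fun hn w h1 h2 => ?_, fun H x hx => ?_⟩
  · rw [← iv_vt h2] at h1 ⊢
    have := (h.Eh_lin hz _ 0).1 h1
    rw [hn (vt w) (by rw [dF]; exact (congrArg vt this).symm.trans (map_zero _)), map_zero]
  · have := H (iv x) ((h.Eh_lin hz x 0).2 (by
      show 0 = L.DF z (x, 0)
      rw [h.DF_inl hz, hx, map_zero])) rfl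
    exact (congrArg vt this).trans (map_zero _)

theorem alg_rb (k : ((Option A ⊕ B) ⊕ (Option A ⊕ B)) ⊕ ((Option A ⊕ B) ⊕ (Option A ⊕ B))) :
    ∃ ℓ : Amb A B × Amb A B →L[ℝ] ℝ, ∀ e, rb e k = ℓ e := by
  obtain ⟨T, hT⟩ := exists_raL A B
  rcases k with k | k
  · exact ⟨(ContinuousLinearMap.proj (φ := fun _ => ℝ) k).comp (T.toContinuousLinearMap.comp (ContinuousLinearMap.fst ℝ _ _)),
      fun e => (congrFun (hT e.1) k).symm⟩
  · exact ⟨(ContinuousLinearMap.proj (φ := fun _ => ℝ) k).comp (T.toContinuousLinearMap.comp (ContinuousLinearMap.snd ℝ _ _)),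
      fun e => (congrFun (hT e.2) k).symm⟩

/-- `Pol.inj` for `w ↦ (fderiv Eh (p, z) (T.symm w, 0), (T.symm w).2.2)`, `T` from `exists_raL` -/
theorem OK.alg_deg (h : L.OK) : ∃ f : MvPolynomial _ (adj 𝕜 (ra L.p)), ∀ z ∈ L.S, (L.Nd z ↔ aeval (ra z) f ≠ 0) := by
  obtain ⟨T, hT⟩ := exists_raL A B
  let M : Amb A B → ((Option A ⊕ B) ⊕ (Option A ⊕ B) → ℝ) →ₗ[ℝ] (Option A ⊕ B → ℂ) := fun z =>
    (LinearMap.pi (Sum.elim
      (fun j => ((fderiv ℝ (fun y => fv (L.Eh y) j) (L.p, z)).comp (ContinuousLinearMap.inl ℝ _ _)).toLinearMap)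
      (fun b => (LinearMap.proj b).comp ((LinearMap.snd ℝ _ _).comp (LinearMap.snd ℝ _ _))))).comp
      T.symm.toLinearEquiv.toLinearMap
  have h1 : ∀ {𝕜' : Subfield ℝ} i k, ra (T.symm (Pi.single i 1)) k ∈ 𝕜' := by
    intro 𝕜' i k
    rw [← hT, T.apply_symm_apply, Pi.single_apply]
    split_ifs
    exacts [one_mem _, zero_mem _]
  obtain ⟨f, hf⟩ := Pol.inj (𝕜 := adj 𝕜 (ra L.p)) (ξ := ra) (M := M) (by
    rintro i (j | b)
    · have e1 := (Pol.fderiv (𝕃 := ℝ) (fun k => by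
        obtain ⟨ℓ, hℓ⟩ := alg_rb k
        exact ⟨Complex.ofRealCLM.comp ℓ, fun e => congrArg _ (hℓ e)⟩) (L.Eh_pol j)).2 (T.symm (Pi.single i 1), 0) (by
        rintro (k | k)
        · exact cx_ofReal (h1 i k)
        · refine cx_ofReal ?_
          show ra 0 k ∈ _
          rw [← hT, map_zero]
          exact zero_mem _)
      refine Pol.comp e1 (le_adj 𝕜 _) (fun q => (L.p, q)) ?_
      rintro (k | k)
      · exact Pol.const (cx_ofReal (mem_adj 𝕜 _ k))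
      · exact Pol.coord _ k
    · exact Pol.const (alg_cx (h1 i) (Sum.inr b)))
  refine ⟨f, fun z hz => ?_⟩
  rw [← hf, OK.alg_nd h hz]
  refine ⟨fun H v hv => ?_, fun H w g1 g2 => ?_⟩
  · have := H (T.symm v) (fun j => congrFun hv (Sum.inl j)) (funext fun b => congrFun hv (Sum.inr b))
    simpa using this
  · have := H (T w) (funext fun k => by
      rcases k with j | b
      · simpa [M] using g1 j
      · simpa [M] using congrFun g2 b)
    simpa using this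

/-- `td (adj 𝕜 (ra z)) (ra p) ≤ td _ (rc p.t) ≤ 2 card B` (`td_le_of_tan`, `Eh_lin` with `v = 0`), `td_tower` twice -/
theorem OK.alg_tsx (h : L.OK) (hz : z ∈ L.S) (hn : L.Nd z) :
    2 * Fintype.card A + 1 + td (adj 𝕜 (ra L.p)) (ra z) ≤ td 𝕜 (ra z) := by
  obtain ⟨T, hT, hT'⟩ := alg_ra L.p
  have e1 : td (adj 𝕜 (ra z)) (ra L.p) ≤ td (adj 𝕜 (ra z)) (ra L.p ∘ eB A B) := by
    refine td_le_of_tan _ fun v hv h0 => ?_
    obtain ⟨w, rfl⟩ := T.surjective v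
    have hw : w.2.2 = 0 := alg_t (by rwa [hT] at h0)
    have := (OK.alg_nd h hz).1 hn w (fun j => by
      have hp := fu_pol (𝕜 := adj 𝕜 (ra z)) (x := cf ra) (φ := fun e : Amb A B => e) (fun k => Pol.coord _ k)
      have e0 := L.Eh_pol' (le_adj 𝕜 (ra z)) (φ := fun e => e) (ψ := fun _ => z) (fun i => (hp i).1)
        (fun i => (hp i).2) (fun i => Pol.const (alg_cx (mem_adj 𝕜 _) i)) j
      have e1 := Pol.tan e0 hT' (by rw [h.Eh_S hz]; cases j <;> rfl) hv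
      have e2 := (HasFDerivAt.comp L.p (f := fun q : Amb A B => (q, z)) (alg_an L j _).differentiableAt.hasFDerivAt
        (hasFDerivAt_prodMk_left L.p z)).fderiv
      rw [show fderiv ℝ (fun q => fv (L.Eh (q, z)) j) L.p = _ from e2] at e1
      exact e1) hw
    rw [this, map_zero]
  have e2 := td_le_card (adj 𝕜 (ra z)) (ra L.p ∘ eB A B)
  have e3 := td_tower 𝕜 (ra L.p) (ra z)
  have e4 := td_tower 𝕜 (ra z) (ra L.p)
  have e5 := td_comp_le (𝕜 := 𝕜) (Sum.elim (ra z) (ra L.p)) Sum.swap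
  rw [show Sum.elim (ra z) (ra L.p) ∘ Sum.swap = Sum.elim (ra L.p) (ra z) from
    funext fun k => by rcases k with k | k <;> rfl] at e5
  have e6 := h.htd
  simp only [Fintype.card_sum, Fintype.card_option] at e2 e6
  omega

theorem alg_fd (y : MvPolynomial _ 𝕜) (z v : Amb A B) : DifferentiableAt ℝ (fun q => aeval (ra q) y) z ∧
    fderiv ℝ (fun q => aeval (ra q) y) z v = ∑ i, aeval (ra z) (pderiv i y) * ra v i := by
  obtain ⟨T, hT, hT'⟩ := alg_ra z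
  have := (analytic_aeval y (ra z) trivial).differentiableAt.hasFDerivAt.comp z hT'
  refine ⟨this.differentiableAt, ?_⟩
  rw [show fderiv ℝ (fun q => aeval (ra q) y) z = _ from this.fderiv, ContinuousLinearMap.comp_apply, fderiv_aeval]
  simp only [ContinuousLinearEquiv.coe_coe, hT]

theorem alg_ker {E : Type} [NormedAddCommGroup E] [NormedSpace ℝ E] {f g : E →L[ℝ] ℝ} (h : ∀ v, g v = 0 → f v = 0) :
    ∃ c : ℝ, f = c • g := by
  by_cases hg : ∀ v, g v = 0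
  · exact ⟨0, ContinuousLinearMap.ext fun v => by simp [h v (hg v)]⟩
  push Not at hg
  obtain ⟨u, hu⟩ := hg
  refine ⟨f u / g u, ContinuousLinearMap.ext fun v => ?_⟩
  have := h (g u • v - g v • u) (by simp [mul_comm])
  simp only [map_sub, map_smul, smul_eq_mul] at this
  rw [smul_apply, smul_eq_mul]
  field_simp
  linarith

/-- `tan_ext`, `Eh_lin`, `r_DF`, `DF_bij` -/
theorem OK.alg_trv (h : L.OK) (hz : z ∈ L.S) (hn : L.Nd z) (y : MvPolynomial _ 𝕜) (hy : aeval (ra z) y = 0)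
    (hd : fderiv ℝ (fun τ => aeval (ra (L.b z τ)) y) z.2.2 = 0) :
    ∃ c : ℝ, fderiv ℝ (fun q => aeval (ra q) y) z = c • fderiv ℝ (L.r z) z := by
  refine alg_ker fun v hv => ?_
  obtain ⟨⟨x, δ⟩, rfl⟩ := (h.DF_bij hz hn).2.1 v
  rw [h.r_DF hz hn] at hv
  obtain ⟨T, hT⟩ := exists_raL A B
  have hr : ∀ x : Vt A, fderiv ℝ L.rho L.s0 x = ∑ i, aeval (ra L.p) (pderiv i L.R) * ra (iv x : Amb A B) i := fun x => by
    rw [L.fderiv_rho, ← (alg_fd L.R L.p (iv x)).2]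
    exact (L.fderiv_Rr L.p _).symm
  obtain ⟨v₂, hv₂⟩ := tan_ext (v₁ := ra (iv x : Amb A B)) (ra z) (by rw [h.htd, two_mul, ← Fintype.card_sum]) h.h0 (by
    by_contra hc
    push Not at hc
    exact h.drho_ne (ContinuousLinearMap.ext fun x => by simp [hr, hc])) ((hr x).symm.trans hv)
  obtain ⟨w, rfl⟩ := T.surjective v₂
  rw [hT] at hv₂
  choose ℓ hℓ using alg_rb (A := A) (B := B)
  have hrb : HasFDerivAt rb (ContinuousLinearMap.pi ℓ) (L.p, z) :=
    (show ⇑(ContinuousLinearMap.pi ℓ) = rb from funext fun e => funext fun k => (hℓ k e).symm) ▸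
      (ContinuousLinearMap.pi ℓ).hasFDerivAt
  have e1 := (h.Eh_lin hz x w).1 fun j => Pol.tan (L.Eh_pol j) hrb (by rw [h.Eh_S hz]; cases j <;> rfl) (by
    rw [show ContinuousLinearMap.pi ℓ (iv x, w) = rb (iv x, w) from funext fun k => (hℓ k _).symm]
    exact hv₂)
  have e2 : fderiv ℝ (fun q => aeval (ra q) y) z w = 0 := (alg_fd y z w).2.trans (hv₂.right y hy)
  have e3 : ∀ δ, fderiv ℝ (fun q => aeval (ra q) y) z (L.DF z (0, δ)) = 0 := by
    intro δ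
    have := fderiv_comp z.2.2 (g := fun q => aeval (ra q) y) (alg_fd y _ 0).1
      ((b_an hz).differentiableAt.restrictScalars ℝ)
    rw [b_self hz] at this
    rw [h.DF_inr hz, ← ContinuousLinearMap.comp_apply, ← this]
    exact congrArg (fun f : (B → ℂ) →L[ℝ] ℝ => f δ) hd
  have e4 : ((x, δ) : Vt A × (B → ℂ)) = (x, w.2.2) + (0, δ - w.2.2) := by simp
  rw [e4, map_add, ← e1, map_add, e2, e3, add_zero]

end Lv

end Crest.Agent.R264.Fol
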