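import Crest.Agent.R264.Fol.Defs

/-! Block Fol (owner helper79): the polarisation and its derivatives. -/

set_option autoImplicit false
set_option linter.unusedSectionVars false
set_option linter.unusedVariables false
open Set Filter Topology MvPolynomial Complex

namespace Crest.Agent.R264.Fol

variable {A B : Type} [Fintype A] [Fintype B] [DecidableEq A] [DecidableEq B] {𝕜 : Subfield ℝ}

/-! ### part a: coordinates, polarisation -/

theorem fu_star (z : Amb A B) : fu (star z) = star (fu z) := by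
  funext i; rcases i with (_ | i) | i <;> rfl

theorem fu_bs (j : Option A ⊕ B) : fu (bs j : Amb A B) = Pi.single j 1 := by
  funext i
  rcases j with (_ | j) | j <;> rcases i with (_ | i) | i <;> simp [fu, bs, Pi.single_apply]

theorem sum_bs (v : Amb A B) : ∑ k, fu v k • (bs k : Amb A B) = v := by
  obtain ⟨T, hT⟩ := exists_fuL A B
  apply T.injective
  rw [map_sum, hT]
  simp only [map_smul]
  simp only [hT, fu_bs]
  exact (pi_eq_sum_univ' (fu v)).symm

theorem fu_inj {v : Amb A B} (h : fu v = 0) : v = 0 := by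
  obtain ⟨T, hT⟩ := exists_fuL A B
  exact T.injective (by rw [hT, h, map_zero])

theorem fv_inj {v : Vt A} (h : ∀ j, fv v j = 0) : v = 0 := by
  exact Prod.ext (h none) (funext fun a => h (some a))

theorem exists_fvL (j : Option A) : ∃ ℓ : Vt A →L[ℂ] ℂ, ∀ v, fv v j = ℓ v := by
  rcases j with _ | j
  · exact ⟨ContinuousLinearMap.fst ℂ _ _, fun v => rfl⟩
  · exact ⟨(ContinuousLinearMap.proj j).comp (ContinuousLinearMap.snd ℂ _ _), fun v => rfl⟩

theorem exists_raL (A B : Type) [Fintype A] [Fintype B] [DecidableEq A] [DecidableEq B] :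
    ∃ T : Amb A B ≃L[ℝ] ((Option A ⊕ B) ⊕ (Option A ⊕ B) → ℝ), ∀ z, T z = ra z := by
  obtain ⟨T, hT⟩ := exists_fuL A B
  obtain ⟨S, hS⟩ := exists_rcL (Option A ⊕ B)
  exact ⟨(T.toLinearEquiv.restrictScalars ℝ).toContinuousLinearEquiv.trans S, fun z =>
    (hS (T z)).trans (congrArg rc (hT z))⟩

theorem xy_lin {ι : Type} [Fintype ι] (k : ι ⊕ ι) : ∃ ℓ : (ι → ℂ) × (ι → ℂ) →L[ℂ] ℂ, ∀ p, xy p k = ℓ p := by
  rcases k with i | i
  · exact ⟨(2⁻¹ : ℂ) • ((ContinuousLinearMap.proj i).comp (ContinuousLinearMap.fst ℂ _ _) +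
      (ContinuousLinearMap.proj i).comp (ContinuousLinearMap.snd ℂ _ _)), fun p => rfl⟩
  · exact ⟨(-I) • (2⁻¹ : ℂ) • ((ContinuousLinearMap.proj i).comp (ContinuousLinearMap.fst ℂ _ _) -
      (ContinuousLinearMap.proj i).comp (ContinuousLinearMap.snd ℂ _ _)), fun p => rfl⟩

theorem xy_diag {ι : Type} (z : ι → ℂ) (k : ι ⊕ ι) : xy (z, star z) k = (rc z k : ℝ) := by
  rcases k with i | i
  · show 2⁻¹ * (z i + (starRingEnd ℂ) (z i)) = ((z i).re : ℂ)
    rw [Complex.add_conj]; push_cast; ring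
  · show -I * (2⁻¹ * (z i - (starRingEnd ℂ) (z i))) = ((z i).im : ℂ)
    rw [Complex.sub_conj]; push_cast
    linear_combination (-(z i).im : ℂ) * Complex.I_mul_I

theorem RRi_an {ι : Type} [Fintype ι] (R : MvPolynomial (ι ⊕ ι) 𝕜) (p : (ι → ℂ) × (ι → ℂ)) :
    AnalyticAt ℂ (RRi R) p := by
  exact (Pol.fderiv (𝕃 := ℂ) (x := fun k p => xy p k) xy_lin (Pol.aeval R)).1 p

theorem RRi_diag {ι : Type} (R : MvPolynomial (ι ⊕ ι) 𝕜) (z : ι → ℂ) :
    RRi R (z, star z) = ((aeval (rc z) R : ℝ) : ℂ) := by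
  rw [← aeval_ofReal, RRi]
  exact congrArg (fun q => aeval q R) (funext (xy_diag z))

/-- `xy (star ω, star z) k = conj (xy (z, ω) k)`; induction on `R` -/
theorem RRi_sym {ι : Type} (R : MvPolynomial (ι ⊕ ι) 𝕜) (z ω : ι → ℂ) :
    RRi R (star ω, star z) = (starRingEnd ℂ) (RRi R (z, ω)) := by
  have h : ∀ k, xy (star ω, star z) k = (starRingEnd ℂ) (xy (z, ω) k) := by
    intro k
    rcases k with i | i <;> simp [xy, map_ofNat] <;> ring
  unfold RRi
  induction R using MvPolynomial.induction_on with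
  | C a =>
    simp only [aeval_C]
    exact (Complex.conj_ofReal (a : ℝ)).symm
  | add f g hf hg => simp only [map_add, hf, hg]
  | mul_X f j hf => simp only [map_mul, aeval_X, hf, h]

theorem xa_lin (k : (Option A ⊕ B) ⊕ (Option A ⊕ B)) : ∃ ℓ : Amb A B × Amb A B →L[ℂ] ℂ, ∀ p, xa A B k p = ℓ p := by
  obtain ⟨T, hT⟩ := exists_fuL A B
  obtain ⟨ℓ, hℓ⟩ := xy_lin k
  refine ⟨ℓ.comp ((T : Amb A B →L[ℂ] _).prodMap (T : Amb A B →L[ℂ] _)), fun p => ?_⟩
  rw [xa, hℓ, ← hT, ← hT]; rfl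

theorem xa_diag (z : Amb A B) (k : (Option A ⊕ B) ⊕ (Option A ⊕ B)) : xa A B k (z, star z) = (ra z k : ℝ) := by
  rw [xa, fu_star]; exact xy_diag _ k

theorem xa_mem {v w : Amb A B} (hv : ∀ i, fu v i ∈ cx 𝕜) (hw : ∀ i, fu w i ∈ cx 𝕜)
    (k : (Option A ⊕ B) ⊕ (Option A ⊕ B)) : xa A B k (v, w) ∈ cx 𝕜 := by
  rcases k with i | i
  · exact mul_mem cx_half (add_mem (hv i) (hw i))
  · exact mul_mem (neg_mem cx_I) (mul_mem cx_half (sub_mem (hv i) (hw i)))

/-- substitution into `xa` -/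
theorem xa_pol {E κ : Type} {x : κ → E → ℂ} {φ ψ : E → Amb A B} (hφ : ∀ i, (fun e => fu (φ e) i) ∈ Pol 𝕜 x)
    (hψ : ∀ i, (fun e => fu (ψ e) i) ∈ Pol 𝕜 x) (k : (Option A ⊕ B) ⊕ (Option A ⊕ B)) :
    (fun e => xa A B k (φ e, ψ e)) ∈ Pol 𝕜 x := by
  rcases k with i | i
  · exact Pol.mul (Pol.const cx_half) (Pol.add (hφ i) (hψ i))
  · exact Pol.mul (Pol.const (neg_mem cx_I)) (Pol.mul (Pol.const cx_half) (Pol.sub (hφ i) (hψ i)))

/-- `fu z i = ra z (inl i) + I * ra z (inr i)`, `fu (star z) i = ra z (inl i) - I * ra z (inr i)` -/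
theorem fu_pol {E κ : Type} {x : κ → E → ℂ} {φ : E → Amb A B} (hφ : ∀ k, (fun e => (ra (φ e) k : ℂ)) ∈ Pol 𝕜 x)
    (i : Option A ⊕ B) : (fun e => fu (φ e) i) ∈ Pol 𝕜 x ∧ (fun e => fu (star (φ e)) i) ∈ Pol 𝕜 x := by
  constructor
  · convert Pol.add (hφ (Sum.inl i)) (Pol.mul (Pol.const cx_I) (hφ (Sum.inr i))) using 2 with e
    show _ = ((fu (φ e) i).re : ℂ) + I * ((fu (φ e) i).im : ℂ)
    rw [mul_comm, Complex.re_add_im]
  · convert Pol.sub (hφ (Sum.inl i)) (Pol.mul (Pol.const cx_I) (hφ (Sum.inr i))) using 2 with e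
    rw [fu_star]
    show (starRingEnd ℂ) (fu (φ e) i) = ((fu (φ e) i).re : ℂ) - I * ((fu (φ e) i).im : ℂ)
    apply Complex.ext <;> simp

namespace Lv

variable (L : Lv 𝕜 A B)

theorem RR_pol : L.RR ∈ Pol 𝕜 (xa A B) := by
  exact Pol.aeval L.R

theorem RR_an (x : Amb A B × Amb A B) : AnalyticAt ℂ L.RR x := by
  exact (Pol.fderiv (𝕃 := ℂ) xa_lin L.RR_pol).1 x

theorem RR_diag (z : Amb A B) : L.RR (z, star z) = L.Rr z := by
  rw [RR, fu_star]; exact RRi_diag _ _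

theorem RR_sym (z ω : Amb A B) : L.RR (star ω, star z) = (starRingEnd ℂ) (L.RR (z, ω)) := by
  rw [RR, RR, fu_star, fu_star]; exact RRi_sym _ _ _

theorem mm_pol_bs (j i : Option A ⊕ B) : fu (bs j : Amb A B) i ∈ cx 𝕜 := by
  rw [fu_bs, Pi.single_apply]
  split_ifs
  · exact one_mem _
  · exact zero_mem _

theorem mm_pol_zero (i : Option A ⊕ B) : fu (0 : Amb A B) i ∈ cx 𝕜 := by
  rcases i with (_ | i) | i <;> exact zero_mem _

theorem mm_pol (k : Option A ⊕ B) : (fun x => L.mm x (bs k)) ∈ Pol 𝕜 (xa A B) := by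
  exact (Pol.fderiv (𝕃 := ℂ) xa_lin L.RR_pol).2 (bs k, 0) (xa_mem (mm_pol_bs k) mm_pol_zero)

theorem nn_pol (k : Option A ⊕ B) : (fun x => L.nn x (bs k)) ∈ Pol 𝕜 (xa A B) := by
  exact (Pol.fderiv (𝕃 := ℂ) xa_lin L.RR_pol).2 (0, bs k) (xa_mem mm_pol_zero (mm_pol_bs k))

theorem HH_pol (j k : Option A ⊕ B) : (fun x => L.HH x (bs j, 0) (0, bs k)) ∈ Pol 𝕜 (xa A B) := by
  have h := (Pol.fderiv (𝕃 := ℂ) xa_lin (L.nn_pol k)).2 (bs j, 0) (xa_mem (mm_pol_bs j) mm_pol_zero)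
  convert h using 2 with x
  have hd : DifferentiableAt ℂ (fderiv ℂ L.RR) x := (L.RR_an x).fderiv.differentiableAt
  show _ = fderiv ℂ (fun x => fderiv ℂ L.RR x (0, bs k)) x (bs j, 0)
  rw [fderiv_clm_apply hd (differentiableAt_const _)]
  simp [HH]

/-! ### part b: derivatives -/

theorem mm_apply (x : Amb A B × Amb A B) (v : Amb A B) : L.mm x v = fderiv ℂ L.RR x (v, 0) := rfl

theorem nn_apply (x : Amb A B × Amb A B) (v : Amb A B) : L.nn x v = fderiv ℂ L.RR x (0, v) := rfl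

theorem fderiv_RR (x : Amb A B × Amb A B) (v w : Amb A B) : fderiv ℂ L.RR x (v, w) = L.mm x v + L.nn x w := by
  rw [mm_apply, nn_apply, ← map_add, Prod.mk_add_mk, add_zero, zero_add]

theorem mm_sym_gen {f g : Amb A B × Amb A B → ℂ}
    (h : ∀ x : Amb A B × Amb A B, f (star x.2, star x.1) = (starRingEnd ℂ) (g x)) {x : Amb A B × Amb A B}
    (hf : DifferentiableAt ℂ f (star x.2, star x.1)) (hg : DifferentiableAt ℂ g x) (v : Amb A B × Amb A B) :
    fderiv ℂ f (star x.2, star x.1) (star v.2, star v.1) = (starRingEnd ℂ) (fderiv ℂ g x v) := by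
  let σ : Amb A B × Amb A B →L[ℝ] Amb A B × Amb A B :=
    ((starL' ℝ : Amb A B ≃L[ℝ] Amb A B).toContinuousLinearMap.comp (ContinuousLinearMap.snd ℝ _ _)).prod
      ((starL' ℝ : Amb A B ≃L[ℝ] Amb A B).toContinuousLinearMap.comp (ContinuousLinearMap.fst ℝ _ _))
  have h1 : HasFDerivAt f ((fderiv ℂ f (star x.2, star x.1)).restrictScalars ℝ) (σ x) :=
    hf.hasFDerivAt.restrictScalars ℝ
  have h2 := h1.comp x σ.hasFDerivAt
  have h3 := Complex.conjCLE.toContinuousLinearMap.hasFDerivAt.comp x (hg.hasFDerivAt.restrictScalars ℝ)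
  have h4 : f ∘ σ = Complex.conjCLE.toContinuousLinearMap ∘ g := funext h
  rw [h4] at h2
  exact DFunLike.congr_fun (h2.unique h3) v

theorem mm_sym_RR (x v : Amb A B × Amb A B) :
    fderiv ℂ L.RR (star x.2, star x.1) (star v.2, star v.1) = (starRingEnd ℂ) (fderiv ℂ L.RR x v) :=
  mm_sym_gen (fun x => L.RR_sym x.1 x.2) (L.RR_an _).differentiableAt (L.RR_an _).differentiableAt v

theorem mm_sym (z ω v : Amb A B) : L.mm (star ω, star z) (star v) = (starRingEnd ℂ) (L.nn (z, ω) v) := by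
  have h := L.mm_sym_RR (z, ω) (0, v)
  rwa [star_zero] at h

theorem nn_diag (z v : Amb A B) : L.nn (z, star z) (star v) = (starRingEnd ℂ) (L.mm (z, star z) v) := by
  have h := L.mm_sym z (star z) (star v)
  rw [star_star, star_star] at h
  rw [h, Complex.conj_conj]

theorem Ds_sym (z ω : Amb A B) : L.Ds (star ω, star z) = (starRingEnd ℂ) (L.D (z, ω)) := by
  have h := L.mm_sym z ω (1, 0, 0)
  rwa [show star ((1, 0, 0) : Amb A B) = (1, 0, 0) by simp [Prod.star_def]] at h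

theorem Gs_sym (z ω : Amb A B) : L.Gs (star ω, star z) = star (L.Gm (z, ω)) := by
  rw [Gs, Gm, star_smul, Ds_sym, star_inv₀]
  congr 1
  refine Prod.ext (L.RR_sym z ω) (funext fun a => ?_)
  have h := L.mm_sym z ω (0, Pi.single a 1, 0)
  rwa [show star ((0, Pi.single a 1, 0) : Amb A B) = (0, Pi.single a 1, 0) by
    simp [Prod.star_def, Pi.star_single]] at h

theorem HH_symm (x v w : Amb A B × Amb A B) : L.HH x v w = L.HH x w v := by
  exact ((L.RR_an x).contDiffAt.isSymmSndFDerivAt (n := ⊤) (by simp)).eq v w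

theorem HH_diag (z v v' w w' : Amb A B) : L.HH (z, star z) (star v', star v) (star w', star w) =
    (starRingEnd ℂ) (L.HH (z, star z) (v, v') (w, w')) := by
  have hd : ∀ y u : Amb A B × Amb A B, DifferentiableAt ℂ (fun y => fderiv ℂ L.RR y u) y := fun y u =>
    (legendre_aux (L.RR_an y) u).differentiableAt
  have h := mm_sym_gen (f := fun y => fderiv ℂ L.RR y (star w', star w)) (g := fun y => fderiv ℂ L.RR y (w, w'))
    (fun x => L.mm_sym_RR x (w, w')) (x := (z, star z)) (hd _ _) (hd _ _) (v, v')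
  rw [fderiv_apply_const (L.RR_an _), fderiv_apply_const (L.RR_an _)] at h
  simp only [star_star] at h
  exact h

theorem mm_an (x : Amb A B × Amb A B) : AnalyticAt ℂ L.mm x := by
  exact (((ContinuousLinearMap.compL ℂ (Amb A B) (Amb A B × Amb A B) ℂ).flip
    (ContinuousLinearMap.inl ℂ _ _)).analyticAt _).comp (L.RR_an x).fderiv

theorem nn_an (x : Amb A B × Amb A B) : AnalyticAt ℂ L.nn x := by
  exact (((ContinuousLinearMap.compL ℂ (Amb A B) (Amb A B × Amb A B) ℂ).flip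
    (ContinuousLinearMap.inr ℂ _ _)).analyticAt _).comp (L.RR_an x).fderiv

theorem HH_an (x : Amb A B × Amb A B) : AnalyticAt ℂ L.HH x := by
  exact (L.RR_an x).fderiv.fderiv

theorem D_an_nn (x : Amb A B × Amb A B) (y : Amb A B) : AnalyticAt ℂ (fun x => L.nn x y) x :=
  ((ContinuousLinearMap.apply ℂ ℂ y).analyticAt _).comp (L.nn_an x)

theorem D_an_mm (x : Amb A B × Amb A B) (y : Amb A B) : AnalyticAt ℂ (fun x => L.mm x y) x :=
  ((ContinuousLinearMap.apply ℂ ℂ y).analyticAt _).comp (L.mm_an x)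

theorem D_an (x : Amb A B × Amb A B) : AnalyticAt ℂ L.D x := by
  exact L.D_an_nn x _

theorem Ds_an (x : Amb A B × Amb A B) : AnalyticAt ℂ L.Ds x := by
  exact L.D_an_mm x _

theorem Pn_an (x : Amb A B × Amb A B) : AnalyticAt ℂ L.Pn x := by
  exact (L.RR_an x).prod (AnalyticAt.pi fun a => L.D_an_nn x _)

theorem Gm_an {x : Amb A B × Amb A B} (h : L.D x ≠ 0) : AnalyticAt ℂ L.Gm x := by
  exact ((L.D_an x).inv h).smul (L.Pn_an x)

theorem Gs_an {x : Amb A B × Amb A B} (h : L.Ds x ≠ 0) : AnalyticAt ℂ L.Gs x := by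
  exact ((L.Ds_an x).inv h).smul ((L.RR_an x).prod (AnalyticAt.pi fun a => L.D_an_mm x _))

theorem fderiv_nn (x v : Amb A B × Amb A B) (y : Amb A B) : fderiv ℂ (fun x => L.nn x y) x v = L.HH x v (0, y) := by
  exact fderiv_apply_const (L.RR_an x) v (0, y)

theorem nn_iv_eq (y : Vt A) :
    (iv y : Amb A B) = y.1 • (1, 0, 0) + ∑ a, y.2 a • ((0, Pi.single a 1, 0) : Amb A B) := by
  rw [iv_apply]
  refine Prod.ext ?_ (Prod.ext ?_ ?_)
  · simp [Prod.fst_sum]
  · simp only [Prod.snd_add, Prod.fst_add, Prod.fst_sum, Prod.snd_sum, Prod.smul_mk, smul_zero, zero_add]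
    exact pi_eq_sum_univ' y.2
  · simp [Prod.snd_sum]

theorem nn_iv {x : Amb A B × Amb A B} (h : L.D x ≠ 0) (y : Vt A) :
    L.nn x (iv y) = L.D x * (y.1 + ∑ a, (L.Gm x).2 a * y.2 a) := by
  rw [nn_iv_eq, map_add, map_sum, map_smul, mul_add, Finset.mul_sum]
  congr 1
  · exact mul_comm _ _
  · refine Finset.sum_congr rfl fun a _ => ?_
    rw [map_smul]
    show y.2 a * _ = L.D x * ((L.D x)⁻¹ * L.nn x (0, Pi.single a 1, 0) * y.2 a)
    field_simp

theorem mm_iv {x : Amb A B × Amb A B} (h : L.Ds x ≠ 0) (y : Vt A) :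
    L.mm x (iv y) = L.Ds x * (y.1 + ∑ a, (L.Gs x).2 a * y.2 a) := by
  rw [nn_iv_eq, map_add, map_sum, map_smul, mul_add, Finset.mul_sum]
  congr 1
  · exact mul_comm _ _
  · refine Finset.sum_congr rfl fun a _ => ?_
    rw [map_smul]
    show y.2 a * _ = L.Ds x * ((L.Ds x)⁻¹ * L.mm x (0, Pi.single a 1, 0) * y.2 a)
    field_simp

theorem Gm_fst {x : Amb A B × Amb A B} (h : L.D x ≠ 0) : (L.Gm x).1 = 0 ↔ L.RR x = 0 := by
  show (L.D x)⁻¹ * L.RR x = 0 ↔ _
  simp [h]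

theorem Gs_fst {x : Amb A B × Amb A B} (h : L.Ds x ≠ 0) : (L.Gs x).1 = 0 ↔ L.RR x = 0 := by
  show (L.Ds x)⁻¹ * L.RR x = 0 ↔ _
  simp [h]

theorem fderiv_Gm_fst_aux {x : Amb A B × Amb A B} (h : L.D x ≠ 0) {g : Amb A B × Amb A B → ℂ}
    (hg : DifferentiableAt ℂ g x) (v : Amb A B × Amb A B) : fderiv ℂ (fun x => (L.D x)⁻¹ * g x) x v =
      (L.D x * fderiv ℂ g x v - g x * L.HH x v (0, (1, 0, 0))) / L.D x ^ 2 := by
  have h1 := (hasDerivAt_inv h).comp_hasFDerivAt x (L.D_an x).differentiableAt.hasFDerivAt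
  have h2 : HasFDerivAt (fun x => (L.D x)⁻¹ * g x) _ x := h1.mul hg.hasFDerivAt
  have h3 : fderiv ℂ L.D x v = L.HH x v (0, (1, 0, 0)) := L.fderiv_nn x v _
  rw [h2.fderiv, ← h3]
  simp only [add_apply, smul_apply, smul_eq_mul, Function.comp]
  field_simp
  ring

theorem fderiv_Gm_fst {x : Amb A B × Amb A B} (h : L.D x ≠ 0) (h0 : L.RR x = 0) (v : Amb A B × Amb A B) :
    (fderiv ℂ L.Gm x v).1 = fderiv ℂ L.RR x v / L.D x := by
  have h1 : HasFDerivAt (fun x => (L.D x)⁻¹ * L.RR x) _ x := (L.Gm_an h).differentiableAt.hasFDerivAt.fst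
  have h2 := L.fderiv_Gm_fst_aux h (L.RR_an x).differentiableAt v
  rw [h1.fderiv, h0] at h2
  refine Eq.trans h2 ?_
  field_simp
  ring

/-- quotient rule -/
theorem fderiv_quot {x : Amb A B × Amb A B} (h : L.D x ≠ 0) (y : Amb A B) (v : Amb A B × Amb A B) :
    AnalyticAt ℂ (fun x => (L.D x)⁻¹ * L.nn x y) x ∧ fderiv ℂ (fun x => (L.D x)⁻¹ * L.nn x y) x v =
      (L.D x * L.HH x v (0, y) - L.nn x y * L.HH x v (0, (1, 0, 0))) / L.D x ^ 2 := by
  refine ⟨((L.D_an x).inv h).mul (L.D_an_nn x y), ?_⟩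
  rw [L.fderiv_Gm_fst_aux h (L.D_an_nn x y).differentiableAt v, fderiv_nn]

theorem fderiv_Gm_snd {x : Amb A B × Amb A B} (h : L.D x ≠ 0) (v : Amb A B × Amb A B) (a : A) :
    (fderiv ℂ L.Gm x v).2 a = (L.D x * L.HH x v (0, (0, Pi.single a 1, 0)) -
      L.nn x (0, Pi.single a 1, 0) * L.HH x v (0, (1, 0, 0))) / L.D x ^ 2 := by
  have h1 : HasFDerivAt (fun x => (L.D x)⁻¹ * L.nn x (0, Pi.single a 1, 0)) _ x :=
    hasFDerivAt_pi'.1 (L.Gm_an h).differentiableAt.hasFDerivAt.snd a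
  have h2 := (L.fderiv_quot h (0, Pi.single a 1, 0) v).2
  rw [h1.fderiv] at h2
  exact h2

theorem Rr_an (z : Amb A B) : AnalyticAt ℝ L.Rr z := by
  obtain ⟨T, hT⟩ := exists_raL A B
  have h : L.Rr = (fun q => aeval q L.R) ∘ T := funext fun z => by rw [Function.comp, hT]; rfl
  rw [h]
  exact (analytic_aeval L.R _ (mem_univ _)).comp (T.toContinuousLinearMap.analyticAt z)

theorem fderiv_Rr_aux {E : Type} [NormedAddCommGroup E] [NormedSpace ℝ E] {f : Amb A B × Amb A B → ℂ}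
    (T : E →L[ℝ] Amb A B × Amb A B) (k : Amb A B × Amb A B) {s : E} (hf : DifferentiableAt ℂ f (T s + k)) (v : E) :
    fderiv ℝ (fun s => (f (T s + k)).re) s v = (fderiv ℂ f (T s + k) (T v)).re := by
  have h1 : HasFDerivAt (fun s => (f (T s + k)).re) _ s :=
    Complex.reCLM.hasFDerivAt.comp s ((hf.hasFDerivAt.restrictScalars ℝ).comp s (T.hasFDerivAt.add_const k))
  rw [h1.fderiv]
  rfl

theorem fderiv_Rr (z v : Amb A B) : fderiv ℝ L.Rr z v = 2 * (L.mm (z, star z) v).re := by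
  let T : Amb A B →L[ℝ] Amb A B × Amb A B :=
    (ContinuousLinearMap.id ℝ _).prod (starL' ℝ : Amb A B ≃L[ℝ] Amb A B).toContinuousLinearMap
  have hT : ∀ z, T z = (z, star z) := fun z => rfl
  have h1 : L.Rr = fun z => (L.RR (T z + 0)).re := funext fun z => by
    rw [add_zero, hT, RR_diag, Complex.ofReal_re]
  rw [h1, fderiv_Rr_aux T 0 (L.RR_an _).differentiableAt, add_zero, hT, hT, fderiv_RR, nn_diag, Complex.add_conj,
    Complex.ofReal_re]

theorem c_eq (s : Vt A) : L.c s = iv s + (0, 0, L.p.2.2) := by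
  simp [c, iv_apply]

theorem c_s0 : L.c L.s0 = L.p := rfl

theorem c_an (s : Vt A) : AnalyticAt ℝ L.c s := by
  have h : L.c = fun s => (iv : Vt A →L[ℂ] Amb A B).restrictScalars ℝ s + (0, 0, L.p.2.2) := funext L.c_eq
  rw [h]
  exact (ContinuousLinearMap.analyticAt _ s).add analyticAt_const

/-- the diagonal over the slice -/
theorem hasFDerivAt_diag (s : Vt A) : ∃ T : Vt A →L[ℝ] Amb A B × Amb A B, (∀ x, T x = (iv x, iv (star x))) ∧
    ∀ s, (L.c s, star (L.c s)) = T s + ((0, 0, L.p.2.2), star (0, 0, L.p.2.2)) := by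
  refine ⟨((iv : Vt A →L[ℂ] Amb A B).restrictScalars ℝ).prod (((iv : Vt A →L[ℂ] Amb A B).restrictScalars ℝ).comp
    (starL' ℝ : Vt A ≃L[ℝ] Vt A).toContinuousLinearMap), fun x => rfl, fun s => ?_⟩
  rw [c_eq, star_add, star_iv]
  rfl

theorem rho_an (s : Vt A) : AnalyticAt ℝ L.rho s := by
  exact (L.Rr_an _).comp (L.c_an s)

theorem fderiv_rho (x : Vt A) : fderiv ℝ L.rho L.s0 x = 2 * (L.mm L.ph (iv x)).re := by
  have h : L.c = fun s => (iv : Vt A →L[ℂ] Amb A B).restrictScalars ℝ s + (0, 0, L.p.2.2) := funext L.c_eq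
  have h1 : HasFDerivAt L.c ((iv : Vt A →L[ℂ] Amb A B).restrictScalars ℝ) L.s0 := by
    rw [h]; exact (ContinuousLinearMap.hasFDerivAt _).add_const _
  have h2 : HasFDerivAt L.rho _ L.s0 := (L.Rr_an (L.c L.s0)).differentiableAt.hasFDerivAt.comp L.s0 h1
  rw [h2.fderiv]
  exact L.fderiv_Rr _ _

theorem fderiv2_rho (x y : Vt A) :
    fderiv ℝ (fderiv ℝ L.rho) L.s0 x y = (L.HH L.ph (iv x, iv (star x)) (iv y, iv (star y))).re := by
  obtain ⟨T, hT, hc⟩ := L.hasFDerivAt_diag L.s0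
  have h1 : L.rho = fun s => (L.RR (T s + ((0, 0, L.p.2.2), star (0, 0, L.p.2.2)))).re := funext fun s => by
    rw [← hc, RR_diag, Complex.ofReal_re]; rfl
  have h2 : (fun s => fderiv ℝ L.rho s y) =
      fun s => (fderiv ℂ L.RR (T s + ((0, 0, L.p.2.2), star (0, 0, L.p.2.2))) (T y)).re := funext fun s => by
    rw [h1, fderiv_Rr_aux T _ (L.RR_an _).differentiableAt]
  rw [← fderiv_apply_const (L.rho_an _), h2,
    fderiv_Rr_aux (f := fun q => fderiv ℂ L.RR q (T y)) T _ (legendre_aux (L.RR_an _) _).differentiableAt,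
    fderiv_apply_const (L.RR_an _), ← hc, hT, hT]
  rfl

end Lv

end Crest.Agent.R264.Fol
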