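import Crest.Agent.R264.Fol.Basic

/-! Block Fol (owner helper79): branches and the family of leaves. -/

set_option autoImplicit false
set_option linter.unusedSectionVars false
set_option linter.unusedVariables false
open Set Filter Topology MvPolynomial Complex

namespace Crest.Agent.R264.Fol

variable {A B : Type} [Fintype A] [Fintype B] [DecidableEq A] [DecidableEq B] {𝕜 : Subfield ℝ}

namespace Lv

variable {L : Lv 𝕜 A B} {z : Amb A B}

theorem OK.RR_ph (h : L.OK) : L.RR L.ph = 0 := by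
  rw [ph, RR_diag, show L.Rr L.p = 0 from h.h0, ofReal_zero]

theorem OK.rho_s0 (h : L.OK) : L.rho L.s0 = 0 := h.h0

theorem OK.Ds_ph (h : L.OK) : L.Ds L.ph ≠ 0 := by
  have h1 := L.Ds_sym L.p (star L.p)
  rw [star_star] at h1
  exact h1 ▸ (map_ne_zero _).2 h.hD

theorem OK.drho_ne (h : L.OK) : fderiv ℝ L.rho L.s0 ≠ 0 := by
  intro h0
  have h1 := L.fderiv_rho ((L.Ds L.ph)⁻¹, 0)
  rw [h0, L.mm_iv h.Ds_ph] at h1
  simp [mul_inv_cancel₀ h.Ds_ph] at h1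

theorem OK.p_mem (h : L.OK) : L.p ∈ L.S := by
  refine ⟨rfl, h.hD, h.Ds_ph, fun v hv => ?_⟩
  change fderiv ℂ L.Gm L.ph (iv v, 0) = 0 at hv
  have h1 := L.fderiv_Gm_fst h.hD h.RR_ph (iv v, 0)
  rw [hv] at h1
  have h2 := (h.hK (iv v) ((div_eq_zero_iff.1 h1.symm).resolve_right h.hD) fun a => ?_).1 rfl
  · rw [← vt_iv (B := B) v, h2, map_zero]
  · have h3 := L.fderiv_Gm_snd h.hD (iv v, 0) a
    rw [hv] at h3
    exact (div_eq_zero_iff.1 h3.symm).resolve_right (pow_ne_zero 2 h.hD)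

theorem OK.RR_S (h : L.OK) (hz : z ∈ L.S) : L.RR (z, star L.p) = 0 := by
  exact (L.Gm_fst hz.2.1).1 (hz.1 ▸ (L.Gm_fst h.hD).2 h.RR_ph)

theorem zf_spec (hz : z ∈ L.S) : L.IsZf z (L.Zf z) := by
  obtain ⟨Z, h1, h2, h3⟩ := amb_ift (L.Gm_an hz.2.1) hz.2.2.2
  rw [hz.1] at h1 h2
  exact Classical.epsilon_spec ⟨Z, (⟨h1, h2, h3⟩ : L.IsZf z Z)⟩

theorem lam_s0 (τ : B → ℂ) : L.lam (L.s0, τ) = (star L.p, L.Gm L.ph, τ) := rfl

theorem lam_an_diag (s : Vt A) : AnalyticAt ℝ (fun s => (L.c s, star (L.c s))) s :=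
  (L.c_an s).prod (((starL' ℝ : Amb A B ≃L[ℝ] Amb A B).analyticAt _).comp (L.c_an s))

theorem OK.lam_an (h : L.OK) (τ : B → ℂ) : AnalyticAt ℝ L.lam (L.s0, τ) := by
  have h1 : AnalyticAt ℝ (fun x : Vt A × (B → ℂ) => (L.c x.1, star (L.c x.1))) (L.s0, τ) :=
    (lam_an_diag L.s0).comp_of_eq analyticAt_fst rfl
  exact (analyticAt_snd.comp h1).prod ((((L.Gm_an h.hD).restrictScalars).comp_of_eq h1 rfl).prod analyticAt_snd)

theorem OK.Fm_an (h : L.OK) (hz : z ∈ L.S) : AnalyticAt ℝ (L.Fm z) (L.s0, z.2.2) := by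
  exact ((zf_spec hz).an.restrictScalars).comp_of_eq (h.lam_an _) rfl

theorem b_self (hz : z ∈ L.S) : L.b z z.2.2 = z := by
  have h1 := (zf_spec hz).left.self_of_nhds
  rwa [hz.1] at h1

theorem Fm_self (hz : z ∈ L.S) : L.Fm z (L.s0, z.2.2) = z := b_self hz

theorem OK.Fm_eq (h : L.OK) (hz : z ∈ L.S) : ∀ᶠ x in 𝓝 (L.s0, z.2.2),
    L.Gm (L.Fm z x, star (L.c x.1)) = L.Gm (L.c x.1, star (L.c x.1)) ∧ (L.Fm z x).2.2 = x.2 := by
  exact (h.lam_an z.2.2).continuousAt.tendsto.eventually (zf_spec hz).right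

theorem OK.Fm_uniq (h : L.OK) (hz : z ∈ L.S) : ∀ᶠ y : Amb A B × Vt A in 𝓝 (z, L.s0),
    L.Gm (y.1, star (L.c y.2)) = L.Gm (L.c y.2, star (L.c y.2)) → L.Fm z (y.2, y.1.2.2) = y.1 := by
  have h1 : ContinuousAt (fun y : Amb A B × Vt A => (y.1, star (L.c y.2))) (z, L.s0) :=
    continuousAt_fst.prodMk ((L.c_an L.s0).continuousAt.comp_of_eq continuousAt_snd rfl).star
  filter_upwards [h1.tendsto.eventually (zf_spec hz).left] with y h2 h3
  rwa [h3] at h2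

theorem b_an (hz : z ∈ L.S) : AnalyticAt ℂ (L.b z) z.2.2 := by
  have h0 : AnalyticAt ℂ (fun τ : B → ℂ => (star L.p, L.Gm L.ph, τ)) z.2.2 :=
    analyticAt_const.prod (analyticAt_const.prod analyticAt_id)
  exact (zf_spec hz).an.comp_of_eq h0 rfl

theorem b_uniq (hz : z ∈ L.S) : ∀ᶠ q in 𝓝 z, L.Gm (q, star L.p) = L.Gm L.ph → L.b z q.2.2 = q := by
  filter_upwards [(Continuous.prodMk_left (star L.p)).continuousAt.tendsto.eventually (zf_spec hz).left] with q h2 h3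
  rwa [h3] at h2

theorem S_near (hz : z ∈ L.S) : ∀ᶠ q in 𝓝 z, L.Gm (q, star L.p) = L.Gm L.ph → q ∈ L.S := by
  have h0 : ContinuousAt (fun q : Amb A B => (q, star L.p)) z := (Continuous.prodMk_left (star L.p)).continuousAt
  have h1 : ContinuousAt (fun q : Amb A B => (fderiv ℂ L.Gm (q, star L.p)).comp
      ((ContinuousLinearMap.inl ℂ _ _).comp (iv : Vt A →L[ℂ] Amb A B))) z :=
    ((L.Gm_an hz.2.1).fderiv.continuousAt.comp_of_eq h0 rfl).clm_comp continuousAt_const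
  filter_upwards [((L.D_an _).continuousAt.comp h0).eventually_ne hz.2.1,
    ((L.Ds_an _).continuousAt.comp h0).eventually_ne hz.2.2.1,
    h1.eventually (ContinuousLinearMap.isOpen_injective.mem_nhds ((injective_iff_map_eq_zero _).2 hz.2.2.2))]
    with q h2 h3 h4 h5
  exact ⟨h5, h2, h3, (injective_iff_map_eq_zero _).1 h4⟩

theorem b_mem (hz : z ∈ L.S) : ∀ᶠ τ in 𝓝 z.2.2, (L.b z τ).2.2 = τ ∧ L.b z τ ∈ L.S := by
  have h0 : ContinuousAt (fun τ : B → ℂ => (star L.p, L.Gm L.ph, τ)) z.2.2 := by fun_prop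
  have h1 := (b_an hz).continuousAt.tendsto
  rw [b_self hz] at h1
  filter_upwards [h0.tendsto.eventually (zf_spec hz).right, h1.eventually (S_near hz)] with τ h2 h3
  exact ⟨h2.2, h3 h2.1⟩

theorem Zf_germ (hz : z ∈ L.S) : ∀ᶠ τ in 𝓝 z.2.2, L.Zf (L.b z τ) =ᶠ[𝓝 (star L.p, L.Gm L.ph, τ)] L.Zf z := by
  have ht : ContinuousAt (fun τ : B → ℂ => (star L.p, L.Gm L.ph, τ)) z.2.2 := by fun_prop
  filter_upwards [b_mem hz, ht.eventually (zf_spec hz).right.eventually_nhds,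
    ht.eventually (zf_spec hz).an.eventually_analyticAt] with τ h1 h2 h3
  have h4 : ContinuousAt (fun x : Amb A B × Vt A × (B → ℂ) => (L.Zf z x, x.1)) (star L.p, L.Gm L.ph, τ) :=
    h3.continuousAt.prodMk continuousAt_fst
  filter_upwards [h2, h4.eventually (zf_spec h1.2).left] with x h5 h6
  rwa [h5.1, h5.2] at h6

theorem OK.Fm_germ (h : L.OK) (hz : z ∈ L.S) : ∀ᶠ τ in 𝓝 z.2.2, L.Fm (L.b z τ) =ᶠ[𝓝 (L.s0, τ)] L.Fm z := by
  filter_upwards [Zf_germ hz] with τ hτ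
  exact hτ.comp_tendsto (h.lam_an τ).continuousAt

theorem OK.Fm_p (h : L.OK) : ∀ᶠ s in 𝓝 L.s0, L.Fm L.p (s, L.p.2.2) = L.c s := by
  have ht : ContinuousAt (fun s : Vt A => (L.c s, s)) L.s0 := (L.c_an _).continuousAt.prodMk continuousAt_id
  filter_upwards [ht.eventually (h.Fm_uniq h.p_mem)] with s hs
  exact hs rfl

theorem Zs_sub : L.Zs ⊆ L.S := connectedComponentIn_subset _ _

theorem OK.p_Zs (h : L.OK) : L.p ∈ L.Zs := mem_connectedComponentIn h.p_mem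

theorem b_Zs (hz : z ∈ L.Zs) : ∀ᶠ τ in 𝓝 z.2.2, L.b z τ ∈ L.Zs := by
  refine comp_near (by rwa [b_self (Zs_sub hz)]) ?_
  filter_upwards [b_mem (Zs_sub hz), (b_an (Zs_sub hz)).eventually_analyticAt] with τ h1 h2
  exact ⟨h2.continuousAt, h1.2⟩

/-- continuation along the leaf (`clopen_ind`, `germ_zero`) -/
theorem OK.propagate (h : L.OK) {X H : Type} [NormedAddCommGroup X] [NormedSpace ℝ X] [NormedAddCommGroup H]
    [NormedSpace ℝ H] [CompleteSpace H] {f : Amb A B → X × (B → ℂ) → H} {x₀ : X}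
    (hf : ∀ z ∈ L.S, AnalyticAt ℝ (f z) (x₀, z.2.2))
    (hc : ∀ z ∈ L.S, ∀ᶠ τ in 𝓝 z.2.2, f (L.b z τ) =ᶠ[𝓝 (x₀, τ)] f z) (h0 : f L.p =ᶠ[𝓝 (x₀, L.p.2.2)] 0) :
    ∀ z ∈ L.Zs, f z =ᶠ[𝓝 (x₀, z.2.2)] 0 := by
  have ht : ∀ z : Amb A B, Tendsto (fun y : Amb A B => (x₀, y.2.2)) (𝓝[L.Zs] z) (𝓝 (x₀, z.2.2)) := fun z =>
    (show ContinuousAt (fun y : Amb A B => (x₀, y.2.2)) z by fun_prop).tendsto.mono_left nhdsWithin_le_nhds
  have key : ∀ z ∈ L.Zs, ∀ᶠ y in 𝓝[L.Zs] z, f y =ᶠ[𝓝 (x₀, y.2.2)] f z := fun z hz => by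
    have h1 : ContinuousAt (fun y : Amb A B => y.2.2) z := by fun_prop
    filter_upwards [self_mem_nhdsWithin, mem_nhdsWithin_of_mem_nhds (b_uniq (Zs_sub hz)),
      mem_nhdsWithin_of_mem_nhds (h1.eventually (hc z (Zs_sub hz)))] with y h2 h3 h4
    have h5 : f (L.b z y.2.2) =ᶠ[𝓝 (x₀, y.2.2)] f z := h4
    rwa [h3 (Zs_sub h2).1] at h5
  refine clopen_ind (A := {z : Amb A B | f z =ᶠ[𝓝 (x₀, z.2.2)] 0}) isPreconnected_connectedComponentIn ⟨L.p, h.p_Zs, h0⟩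
    (fun z hz hA => ?_) fun z hz hA => ?_
  · filter_upwards [key z hz, (ht z).eventually (Eventually.eventually_nhds hA)] with y h1 h2
    exact h1.trans h2
  · exact germ_zero (hf z (Zs_sub hz)) ((ht z).frequently
      ((hA.and_eventually (key z hz)).mono fun y hy => hy.2.symm.trans hy.1))

theorem OK.prop_entire (h : L.OK) {g : Amb A B → ℂ} (hg : ∀ q, AnalyticAt ℂ g q)
    (h0 : ∀ᶠ τ in 𝓝 L.p.2.2, g (L.b L.p τ) = 0) : ∀ z ∈ L.Zs, g z = 0 := by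
  intro z hz
  have key := h.propagate (f := fun z (x : ℝ × (B → ℂ)) => g (L.b z x.2)) (x₀ := 0) (fun z hz => ?_)
    (fun z hz => ?_) ((continuousAt_snd (p := ((0 : ℝ), L.p.2.2))).eventually h0) z hz
  · have : g (L.b z z.2.2) = 0 := key.self_of_nhds
    rwa [b_self (Zs_sub hz)] at this
  · exact ((hg _).restrictScalars (𝕜 := ℝ)).comp
      (AnalyticAt.comp (f := Prod.snd) (x := ((0 : ℝ), z.2.2)) ((b_an hz).restrictScalars (𝕜 := ℝ)) analyticAt_snd)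
  · filter_upwards [h.Fm_germ hz] with τ hτ
    have ht : ContinuousAt (fun x : ℝ × (B → ℂ) => (L.s0, x.2)) (0, τ) := by fun_prop
    filter_upwards [ht.eventually hτ] with x hx
    exact congrArg g hx

end Lv

end Crest.Agent.R264.Fol
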