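import Crest.Agent.R264.Lie.Flow

/-! Characteristics: the two null foliations of the complexified hypersurface `{ρ (z, ω) = 0}` commute. -/

set_option autoImplicit false
set_option linter.unusedSectionVars false
open Set Filter Topology

namespace Crest.Agent.R264

variable {A B : Type} [Fintype A] [Fintype B]

/-- `∂_z ρ` -/
noncomputable def dz (ρ : Amb A B × Amb A B → ℂ) (Q : Amb A B × Amb A B) (v : Amb A B) : ℂ := fderiv ℂ ρ Q (v, 0)

/-- `∂_ω ρ` -/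
noncomputable def dw (ρ : Amb A B × Amb A B → ℂ) (Q : Amb A B × Amb A B) (V : Amb A B) : ℂ := fderiv ℂ ρ Q (0, V)

/-- the mixed Hessian -/
noncomputable def lev (ρ : Amb A B × Amb A B → ℂ) (Q : Amb A B × Amb A B) (v V : Amb A B) : ℂ :=
  fderiv ℂ (fderiv ℂ ρ) Q (v, 0) (0, V)

namespace Chr

theorem an_inv {E : Type} [NormedAddCommGroup E] [NormedSpace ℂ E] [FiniteDimensional ℂ E] {Φ : E → E} {p : E}
    (h : AnalyticAt ℂ Φ p) (hi : ∀ v, fderiv ℂ Φ p v = 0 → v = 0) :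
    ∃ Ψ : E → E, AnalyticAt ℂ Ψ (Φ p) ∧ (∀ᶠ q in 𝓝 p, Ψ (Φ q) = q) ∧ ∀ᶠ y in 𝓝 (Φ p), Φ (Ψ y) = y := by
  have hinj : Function.Injective (fderiv ℂ Φ p : E →ₗ[ℂ] E) := by
    rw [← LinearMap.ker_eq_bot]; exact LinearMap.ker_eq_bot'.2 hi
  let L : E ≃L[ℂ] E := (LinearEquiv.ofBijective (fderiv ℂ Φ p : E →ₗ[ℂ] E)
    ⟨hinj, LinearMap.injective_iff_surjective.1 hinj⟩).toContinuousLinearEquiv
  have h2 : HasStrictFDerivAt Φ (L : E →L[ℂ] E) p := by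
    refine h.hasStrictFDerivAt.congr_fderiv ?_
    ext v; rfl
  exact ⟨(h2.toOpenPartialHomeomorph _).symm,
    (h2.toOpenPartialHomeomorph _).analyticAt_symm' h2.mem_toOpenPartialHomeomorph_source h h2.hasFDerivAt.fderiv,
    h2.eventually_left_inverse, h2.eventually_right_inverse⟩

/-- a function vanishing on a level hypersurface has derivative vanishing on its tangent space -/
theorem level_deriv {E F : Type} [NormedAddCommGroup E] [NormedSpace ℂ E] [FiniteDimensional ℂ E]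
    [NormedAddCommGroup F] [NormedSpace ℂ F] {ρ : E → ℂ} {g : E → F} {Q : E} (hρ : AnalyticAt ℂ ρ Q) (h0 : ρ Q = 0)
    {e : E} (he : fderiv ℂ ρ Q e ≠ 0) (hg : DifferentiableAt ℂ g Q) (h : ∀ᶠ x in 𝓝 Q, ρ x = 0 → g x = 0) {X : E}
    (hX : fderiv ℂ ρ Q X = 0) : fderiv ℂ g Q X = 0 := by
  have hs := hρ.hasStrictFDerivAt
  have hr : (fderiv ℂ ρ Q).range = ⊤ := by
    rw [eq_top_iff]; intro c _
    exact ⟨(c / fderiv ℂ ρ Q e) • e, by simp [he]⟩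
  have h1 := hs.to_implicitFunction hr
  have h2 := hs.implicitFunction_apply_image hr
  have h3 : ∀ᶠ k in 𝓝 (0 : (fderiv ℂ ρ Q).ker), ρ (hs.implicitFunction ρ _ hr (ρ Q) k) = ρ Q :=
    ((continuousAt_const.prodMk continuousAt_id :
      ContinuousAt (fun k : (fderiv ℂ ρ Q).ker => (ρ Q, k)) 0)).tendsto.eventually (hs.map_implicitFunction_eq hr)
  have h4 : Tendsto (hs.implicitFunction ρ _ hr (ρ Q)) (𝓝 0) (𝓝 Q) := by
    have := h1.continuousAt.tendsto; rwa [h2] at this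
  have h5 : (fun k => g (hs.implicitFunction ρ _ hr (ρ Q) k)) =ᶠ[𝓝 0] fun _ => 0 := by
    filter_upwards [h3, h4.eventually h] with k a b using b (a.trans h0)
  have h6 : HasFDerivAt (fun k => g (hs.implicitFunction ρ _ hr (ρ Q) k))
      ((fderiv ℂ g Q).comp (fderiv ℂ ρ Q).ker.subtypeL) 0 := by
    refine HasFDerivAt.comp (g := g) 0 ?_ h1.hasFDerivAt
    rw [h2]; exact hg.hasFDerivAt
  have h7 := h6.unique ((hasFDerivAt_const (0 : F) _).congr_of_eventuallyEq h5)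
  exact congrArg (fun L => L ⟨X, hX⟩) h7

abbrev e0 : Amb A B := (1, 0, 0)

/-- the normalised conormal -/
noncomputable def al (ρ : Amb A B × Amb A B → ℂ) (Q : Amb A B × Amb A B) : Amb A B →L[ℂ] ℂ :=
  (dw ρ Q e0)⁻¹ • (fderiv ℂ ρ Q).comp (ContinuousLinearMap.inr ℂ _ _)

open Classical in
noncomputable def eu (a : A) : Amb A B := (0, Pi.single a 1, 0)

noncomputable def cc (ρ : Amb A B × Amb A B → ℂ) (Q : Amb A B × Amb A B) : A → ℂ := fun a => al ρ Q (eu a)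

variable {ρ : Amb A B × Amb A B → ℂ} {Q : Amb A B × Amb A B}

theorem al_apply (V : Amb A B) : al ρ Q V = (dw ρ Q e0)⁻¹ * dw ρ Q V := rfl

theorem dw_an (ha : AnalyticAt ℂ ρ Q) (V : Amb A B) : AnalyticAt ℂ (fun Q => dw ρ Q V) Q :=
  ((ContinuousLinearMap.apply ℂ ℂ ((0 : Amb A B), V)).analyticAt _).comp ha.fderiv

theorem al_an (ha : AnalyticAt ℂ ρ Q) (hw : dw ρ Q e0 ≠ 0) : AnalyticAt ℂ (al ρ) Q := by
  refine ((dw_an ha e0).inv hw).smul ?_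
  exact (((ContinuousLinearMap.compL ℂ (Amb A B) (Amb A B × Amb A B) ℂ).flip
    (ContinuousLinearMap.inr ℂ _ _)).analyticAt _).comp ha.fderiv

theorem cc_an (ha : AnalyticAt ℂ ρ Q) (hw : dw ρ Q e0 ≠ 0) : AnalyticAt ℂ (cc ρ) Q :=
  analyticAt_pi_iff.2 fun a =>
    ((ContinuousLinearMap.apply ℂ ℂ (eu a : Amb A B)).analyticAt _).comp (al_an ha hw)

theorem dw_has (ha : AnalyticAt ℂ ρ Q) (V : Amb A B) :
    HasFDerivAt (fun Q => dw ρ Q V) ((fderiv ℂ (fderiv ℂ ρ) Q).flip (0, V)) Q := by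
  have := ha.fderiv.differentiableAt.hasFDerivAt.clm_apply (hasFDerivAt_const ((0 : Amb A B), V) Q)
  simpa [dw] using this

theorem fderiv_apply_al (ha : AnalyticAt ℂ ρ Q) (hw : dw ρ Q e0 ≠ 0) (X : Amb A B × Amb A B) (V : Amb A B) :
    fderiv ℂ (fun Q => al ρ Q V) Q X = fderiv ℂ (al ρ) Q X V := by
  rw [fderiv_clm_apply (al_an ha hw).differentiableAt (differentiableAt_const V)]
  simp

theorem al_deriv (ha : AnalyticAt ℂ ρ Q) (hw : dw ρ Q e0 ≠ 0) (X : Amb A B × Amb A B) (V : Amb A B) :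
    fderiv ℂ (al ρ) Q X V = (dw ρ Q e0)⁻¹ * fderiv ℂ (fderiv ℂ ρ) Q X (0, V) -
      (dw ρ Q e0)⁻¹ ^ 2 * fderiv ℂ (fderiv ℂ ρ) Q X (0, e0) * dw ρ Q V := by
  rw [← fderiv_apply_al ha hw]
  have h1 := (hasDerivAt_inv hw).comp_hasFDerivAt Q (dw_has ha e0)
  have h2 := h1.mul (dw_has ha V)
  have h3 : fderiv ℂ (fun Q => al ρ Q V) Q = _ := h2.fderiv
  rw [h3]
  simp only [ContinuousLinearMap.add_apply, ContinuousLinearMap.smul_apply, ContinuousLinearMap.flip_apply,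
    Function.comp, smul_eq_mul]
  field_simp
  ring

theorem cc_deriv (ha : AnalyticAt ℂ ρ Q) (hw : dw ρ Q e0 ≠ 0) (X : Amb A B × Amb A B) (a : A) :
    fderiv ℂ (cc ρ) Q X a = fderiv ℂ (al ρ) Q X (eu a) := by
  rw [← fderiv_apply_al ha hw]
  have h := (cc_an ha hw).differentiableAt
  have := fderiv_pi (𝕜 := ℂ) (φ := fun a Q => al ρ Q (eu a)) (x := Q) (differentiableAt_pi.1 h)
  exact congrArg (fun L => L X a) this

theorem dw_add (V V' : Amb A B) : dw ρ Q (V + V') = dw ρ Q V + dw ρ Q V' := by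
  rw [dw, dw, dw, ← map_add]; simp

theorem dw_smul (c : ℂ) (V : Amb A B) : dw ρ Q (c • V) = c * dw ρ Q V := by
  rw [dw, dw, ← smul_eq_mul, ← map_smul]; simp

theorem al_e0 (hw : dw ρ Q e0 ≠ 0) : al ρ Q e0 = 1 := by rw [al_apply, inv_mul_cancel₀ hw]

theorem al_deriv_e0 (ha : AnalyticAt ℂ ρ Q) (hw : dw ρ Q e0 ≠ 0) (X : Amb A B × Amb A B) :
    fderiv ℂ (al ρ) Q X e0 = 0 := by
  rw [al_deriv ha hw]; field_simp; ring

theorem al_deriv_ker (ha : AnalyticAt ℂ ρ Q) (hw : dw ρ Q e0 ≠ 0) (X : Amb A B × Amb A B) {V : Amb A B}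
    (hV : dw ρ Q V = 0) : fderiv ℂ (al ρ) Q X V = (dw ρ Q e0)⁻¹ * fderiv ℂ (fderiv ℂ ρ) Q X (0, V) := by
  rw [al_deriv ha hw, hV]; ring

theorem decomp (V : Amb A B) : V = V.1 • e0 + ∑ a, V.2.1 a • eu a + (0, 0, V.2.2) := by
  classical
  refine Prod.ext ?_ (Prod.ext ?_ ?_)
  · simp [eu, Prod.fst_sum]
  · funext i
    simp [eu, Prod.fst_sum, Prod.snd_sum, Finset.sum_apply, Pi.single_apply]
  · simp [eu, Prod.snd_sum]

theorem clm_decomp (L : Amb A B →L[ℂ] ℂ) (V : Amb A B) :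
    L V = V.1 * L e0 + ∑ a, V.2.1 a * L (eu a) + L (0, 0, V.2.2) := by
  conv_lhs => rw [decomp V]
  simp only [map_add, map_smul, map_sum, smul_eq_mul]

/-- `∂ cc X = 0` means that the Hessian pairing of `X` with the `A`-part of the tangent space vanishes -/
theorem cc_deriv_zero_iff (ha : AnalyticAt ℂ ρ Q) (hw : dw ρ Q e0 ≠ 0) (X : Amb A B × Amb A B) :
    fderiv ℂ (cc ρ) Q X = 0 ↔
      ∀ V : Amb A B, V.2.2 = 0 → dw ρ Q V = 0 → fderiv ℂ (fderiv ℂ ρ) Q X (0, V) = 0 := by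
  constructor
  · intro h V h1 h2
    have h3 := al_deriv_ker ha hw X h2
    rw [clm_decomp, al_deriv_e0 ha hw, h1] at h3
    have h4 : ∀ a, fderiv ℂ (al ρ) Q X (eu a) = 0 := fun a => by rw [← cc_deriv ha hw, h]; rfl
    simp only [h4, mul_zero, Finset.sum_const_zero, add_zero, zero_add] at h3
    have h5 : ((0, 0, 0) : Amb A B) = 0 := rfl
    rw [h5, map_zero] at h3
    exact (mul_eq_zero.1 h3.symm).resolve_left (inv_ne_zero hw)
  · intro h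
    funext a
    rw [cc_deriv ha hw]
    have h2 : dw ρ Q (eu a + (-cc ρ Q a) • e0) = 0 := by
      rw [dw_add, dw_smul, cc, al_apply]; field_simp; ring
    have h3 := al_deriv_ker ha hw X h2
    rw [h _ (by simp [eu]) h2, map_add, map_smul, al_deriv_e0 ha hw] at h3
    simpa using h3

/-- if `X` pairs to zero with the whole tangent space then `∂ al X = 0` -/
theorem al_deriv_zero (ha : AnalyticAt ℂ ρ Q) (hw : dw ρ Q e0 ≠ 0) {X : Amb A B × Amb A B}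
    (h : ∀ V : Amb A B, dw ρ Q V = 0 → fderiv ℂ (fderiv ℂ ρ) Q X (0, V) = 0) : fderiv ℂ (al ρ) Q X = 0 := by
  refine ContinuousLinearMap.ext fun V => ?_
  have h2 : dw ρ Q (V + (-al ρ Q V) • e0) = 0 := by
    rw [dw_add, dw_smul, al_apply]; field_simp; ring
  have h3 := al_deriv_ker ha hw X h2
  rw [h _ h2, map_add, map_smul, al_deriv_e0 ha hw] at h3
  simpa using h3

/-- the parametrisation of the leaves -/
theorem param {p p' : Amb A B} (ha : AnalyticAt ℂ ρ (p, p')) (h0 : ρ (p, p') = 0)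
    (hw : dw ρ (p, p') e0 ≠ 0)
    (hJ : ∀ v : Amb A B, v.2.2 = 0 → dz ρ (p, p') v = 0 →
      (∀ V : Amb A B, V.2.2 = 0 → dw ρ (p, p') V = 0 → lev ρ (p, p') v V = 0) → v = 0) :
    ∃ Zf : Amb A B × (A → ℂ) × (B → ℂ) → Amb A B, AnalyticAt ℂ Zf (p', cc ρ (p, p'), p.2.2) ∧
      (∀ᶠ y in 𝓝 (p', cc ρ (p, p'), p.2.2), ρ (Zf y, y.1) = 0 ∧ cc ρ (Zf y, y.1) = y.2.1 ∧ (Zf y).2.2 = y.2.2) ∧
      (∀ᶠ Q in 𝓝 (p, p'), ρ Q = 0 → Zf (Q.2, cc ρ Q, Q.1.2.2) = Q.1) ∧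
      ∀ᶠ Q in 𝓝 (p, p'), ∀ c : A → ℂ, ∃ U : Amb A B, U.2.2 = 0 ∧ dz ρ Q U = 0 ∧ fderiv ℂ (cc ρ) Q (U, 0) = c := by
  let Φ : Amb A B × Amb A B → Amb A B × Amb A B := fun Q => ((ρ Q, cc ρ Q, Q.1.2.2), Q.2)
  have hD : ∀ Q, AnalyticAt ℂ ρ Q → dw ρ Q e0 ≠ 0 → AnalyticAt ℂ Φ Q ∧ ∀ X, fderiv ℂ Φ Q X =
      ((fderiv ℂ ρ Q X, fderiv ℂ (cc ρ) Q X, X.1.2.2), X.2) := by
    intro Q h1 h2
    have h3 : AnalyticAt ℂ (fun Q : Amb A B × Amb A B => Q.1.2.2) Q := analyticAt_snd.comp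
      (analyticAt_snd.comp analyticAt_fst)
    refine ⟨(h1.prod ((cc_an h1 h2).prod h3)).prod analyticAt_snd, fun X => ?_⟩
    have h4 := (hasFDerivAt_fst (𝕜 := ℂ) (p := Q)).snd.snd
    have := ((h1.differentiableAt.hasFDerivAt.prodMk ((cc_an h1 h2).differentiableAt.hasFDerivAt.prodMk h4)).prodMk
      hasFDerivAt_snd).fderiv
    exact congrArg (fun L => L X) this
  obtain ⟨hΦ, hd⟩ := hD _ ha hw
  obtain ⟨Ψ, hΨ, hl, hr⟩ := an_inv hΦ (by
    rintro ⟨v, V⟩ h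
    rw [hd] at h
    obtain ⟨h1, rfl⟩ := Prod.ext_iff.1 h
    obtain ⟨h2, h3⟩ := Prod.ext_iff.1 h1
    obtain ⟨h3, h4⟩ := Prod.ext_iff.1 h3
    have := hJ v h4 h2 ((cc_deriv_zero_iff ha hw _).1 h3)
    rw [this]; rfl)
  have hΦp : Φ (p, p') = ((0, cc ρ (p, p'), p.2.2), p') := by simp [Φ, h0]
  let j : Amb A B × (A → ℂ) × (B → ℂ) → Amb A B × Amb A B := fun y => ((0, y.2.1, y.2.2), y.1)
  have hj : AnalyticAt ℂ j (p', cc ρ (p, p'), p.2.2) :=
    (analyticAt_const.prod ((analyticAt_fst.comp analyticAt_snd).prod (analyticAt_snd.comp analyticAt_snd))).prod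
      analyticAt_fst
  have hjt : Tendsto j (𝓝 (p', cc ρ (p, p'), p.2.2)) (𝓝 (Φ (p, p'))) := by
    rw [hΦp]; exact hj.continuousAt.tendsto
  refine ⟨fun y => (Ψ (j y)).1, analyticAt_fst.comp (hΨ.comp_of_eq hj hΦp.symm), ?_, ?_, ?_⟩
  · filter_upwards [hjt.eventually hr] with y hy
    obtain ⟨h1, h2⟩ := Prod.ext_iff.1 hy
    have h3 : ((Ψ (j y)).1, y.1) = Ψ (j y) := Prod.ext rfl h2.symm
    rw [h3]
    exact ⟨congrArg (·.1) h1, congrArg (·.2.1) h1, congrArg (·.2.2) h1⟩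
  · filter_upwards [hl] with Q hQ h
    have : j (Q.2, cc ρ Q, Q.1.2.2) = Φ Q := by simp [j, Φ, h]
    rw [this, hQ]
  · have hwn : ∀ᶠ Q in 𝓝 (p, p'), dw ρ Q e0 ≠ 0 := (dw_an ha e0).continuousAt.eventually_ne hw
    filter_upwards [hl, ha.eventually_analyticAt, hwn, hΦ.continuousAt.tendsto.eventually hΨ.eventually_analyticAt,
      hΦ.continuousAt.tendsto.eventually hr.eventually_nhds] with Q h1 h2 h3 h4 h5 c
    obtain ⟨h6, h7⟩ := hD Q h2 h3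
    have h8 : HasFDerivAt (fun y => Φ (Ψ y)) ((fderiv ℂ Φ Q).comp (fderiv ℂ Ψ (Φ Q))) (Φ Q) := by
      refine HasFDerivAt.comp (g := Φ) _ ?_ h4.differentiableAt.hasFDerivAt
      rw [h1]; exact h6.differentiableAt.hasFDerivAt
    have h9 := h8.unique ((hasFDerivAt_id (Φ Q)).congr_of_eventuallyEq h5)
    have h10 : fderiv ℂ Φ Q (fderiv ℂ Ψ (Φ Q) ((0, c, 0), 0)) = ((0, c, 0), 0) :=
      congrArg (fun L => L ((0, c, 0), 0)) h9
    generalize fderiv ℂ Ψ (Φ Q) ((0, c, 0), 0) = X at h10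
    obtain ⟨U, V⟩ := X
    rw [h7] at h10
    obtain ⟨h11, rfl⟩ := Prod.ext_iff.1 h10
    exact ⟨U, congrArg (·.2.2) h11, congrArg (·.1) h11, congrArg (·.2.1) h11⟩

/-- on the hypersurface the conormal is a function of `(ω, cc)` -/
theorem exists_a {p p' : Amb A B} (ha : AnalyticAt ℂ ρ (p, p')) (h0 : ρ (p, p') = 0)
    (hw : dw ρ (p, p') e0 ≠ 0)
    (hJ : ∀ v : Amb A B, v.2.2 = 0 → dz ρ (p, p') v = 0 →
      (∀ V : Amb A B, V.2.2 = 0 → dw ρ (p, p') V = 0 → lev ρ (p, p') v V = 0) → v = 0)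
    (hR : ∀ᶠ Q in 𝓝 (p, p'), ρ Q = 0 → ∀ v : Amb A B, dz ρ Q v = 0 →
      (∀ V : Amb A B, V.2.2 = 0 → dw ρ Q V = 0 → lev ρ Q v V = 0) → ∀ V, dw ρ Q V = 0 → lev ρ Q v V = 0) :
    ∃ a : Amb A B × (A → ℂ) → Amb A B →L[ℂ] ℂ, AnalyticAt ℂ a (p', cc ρ (p, p')) ∧
      ∀ᶠ Q in 𝓝 (p, p'), ρ Q = 0 → al ρ Q = a (Q.2, cc ρ Q) := by
  obtain ⟨Zf, hZ, h1, h2, -⟩ := param ha h0 hw hJ
  set y₀ : Amb A B × (A → ℂ) × (B → ℂ) := (p', cc ρ (p, p'), p.2.2) with hy₀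
  have hZ0 : Zf y₀ = p := h2.self_of_nhds h0
  let k : Amb A B × (A → ℂ) × (B → ℂ) → Amb A B × Amb A B := fun y => (Zf y, y.1)
  have hk : AnalyticAt ℂ k y₀ := hZ.prod analyticAt_fst
  have hk0 : k y₀ = (p, p') := Prod.ext hZ0 rfl
  have hkt : Tendsto k (𝓝 y₀) (𝓝 (p, p')) := by rw [← hk0]; exact hk.continuousAt.tendsto
  have hwn : ∀ᶠ Q in 𝓝 (p, p'), dw ρ Q e0 ≠ 0 := (dw_an ha e0).continuousAt.eventually_ne hw
  let g : Amb A B × (A → ℂ) × (B → ℂ) → Amb A B →L[ℂ] ℂ := fun y => al ρ (k y)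
  have hg : AnalyticAt ℂ g y₀ := (al_an ha hw).comp_of_eq hk hk0
  have hder : ∀ᶠ y in 𝓝 y₀, DifferentiableAt ℂ g y ∧ ∀ e : B → ℂ, fderiv ℂ g y (0, 0, e) = 0 := by
    filter_upwards [hk.eventually_analyticAt, h1.eventually_nhds, hkt.eventually ha.eventually_analyticAt,
      hkt.eventually hwn, hkt.eventually hR] with y a1 a2 a3 a4 a5
    have b1 := a1.differentiableAt.hasFDerivAt
    have b2 : HasFDerivAt g ((fderiv ℂ (al ρ) (k y)).comp (fderiv ℂ k y)) y :=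
      (al_an a3 a4).differentiableAt.hasFDerivAt.comp y b1
    refine ⟨b2.differentiableAt, fun e => ?_⟩
    have b3 := b1.snd.unique (hasFDerivAt_fst (𝕜 := ℂ) (p := y))
    have b4 : (fderiv ℂ k y (0, 0, e)).2 = 0 := congrArg (fun L => L (0, 0, e)) b3
    have b5 := (a3.differentiableAt.hasFDerivAt.comp y b1).unique
      ((hasFDerivAt_const (0 : ℂ) y).congr_of_eventuallyEq (a2.mono fun y hy => hy.1))
    have b6 : fderiv ℂ ρ (k y) (fderiv ℂ k y (0, 0, e)) = 0 := congrArg (fun L => L (0, 0, e)) b5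
    have b7 := ((cc_an a3 a4).differentiableAt.hasFDerivAt.comp y b1).unique
      ((hasFDerivAt_fst.comp y (hasFDerivAt_snd (𝕜 := ℂ) (p := y))).congr_of_eventuallyEq
        (a2.mono fun y hy => hy.2.1))
    have b8 : fderiv ℂ (cc ρ) (k y) (fderiv ℂ k y (0, 0, e)) = 0 := congrArg (fun L => L (0, 0, e)) b7
    rw [b2.fderiv, ContinuousLinearMap.comp_apply]
    generalize fderiv ℂ k y (0, 0, e) = X at b4 b6 b8
    obtain ⟨v, V⟩ := X
    obtain rfl : V = 0 := b4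
    exact al_deriv_zero a3 a4 (a5 a2.self_of_nhds.1 v b6 ((cc_deriv_zero_iff a3 a4 _).1 b8))
  obtain ⟨δ, hδ, hb⟩ := Metric.eventually_nhds_iff_ball.1 hder
  have hconst : ∀ y ∈ Metric.ball y₀ δ, g y = g (y.1, y.2.1, p.2.2) := by
    intro y hy
    have hm : ∀ τ ∈ Metric.ball p.2.2 δ, (y.1, y.2.1, τ) ∈ Metric.ball y₀ δ := by
      intro τ hτ
      simp only [Metric.mem_ball, Prod.dist_eq, max_lt_iff, hy₀] at hy hτ ⊢
      exact ⟨hy.1, hy.2.1, hτ⟩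
    have hs : ∀ τ ∈ Metric.ball p.2.2 δ, HasFDerivAt (fun τ : B → ℂ => g (y.1, y.2.1, τ))
        (0 : (B → ℂ) →L[ℂ] _) τ := by
      intro τ hτ
      obtain ⟨c1, c2⟩ := hb _ (hm τ hτ)
      have c3 := (hasFDerivAt_const (𝕜 := ℂ) y.1 τ).prodMk
        ((hasFDerivAt_const (𝕜 := ℂ) y.2.1 τ).prodMk (hasFDerivAt_id τ))
      refine (c1.hasFDerivAt.comp τ c3).congr_fderiv ?_
      refine ContinuousLinearMap.ext fun e => ?_
      exact c2 e
    have hy2 : y.2.2 ∈ Metric.ball p.2.2 δ := by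
      simp only [Metric.mem_ball, Prod.dist_eq, max_lt_iff, hy₀] at hy ⊢
      exact hy.2.2
    exact (convex_ball p.2.2 δ).is_const_of_fderivWithin_eq_zero (𝕜 := ℂ)
      (fun τ hτ => (hs τ hτ).differentiableAt.differentiableWithinAt)
      (fun τ hτ => by rw [fderivWithin_of_isOpen Metric.isOpen_ball hτ, (hs τ hτ).fderiv]) hy2
      (Metric.mem_ball_self hδ)
  refine ⟨fun x => g (x.1, x.2, p.2.2), hg.comp_of_eq (analyticAt_fst.prod (analyticAt_snd.prod analyticAt_const))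
    rfl, ?_⟩
  have hm : ContinuousAt (fun Q : Amb A B × Amb A B => (Q.2, cc ρ Q, Q.1.2.2)) (p, p') :=
    continuousAt_snd.prodMk ((cc_an ha hw).continuousAt.prodMk (by fun_prop))
  filter_upwards [h2, hm.tendsto.eventually (Metric.ball_mem_nhds y₀ hδ)] with Q c1 c2 c3
  have := hconst _ c2
  simp only at this
  rw [← this]
  simp only [g, k, c1 c3]

/-- the swapped function -/
def sw (ρ : Amb A B × Amb A B → ℂ) : Amb A B × Amb A B → ℂ := fun Q => ρ Q.swap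

noncomputable def swL (A B : Type) [Fintype A] [Fintype B] : (Amb A B × Amb A B) →L[ℂ] (Amb A B × Amb A B) :=
  (ContinuousLinearMap.snd ℂ _ _).prod (ContinuousLinearMap.fst ℂ _ _)

theorem sw_an (ha : AnalyticAt ℂ ρ Q) : AnalyticAt ℂ (sw ρ) Q.swap :=
  ha.comp_of_eq ((swL A B).analyticAt Q.swap) rfl

theorem sw_fderiv (ha : AnalyticAt ℂ ρ Q) : fderiv ℂ (sw ρ) Q.swap = (fderiv ℂ ρ Q).comp (swL A B) :=
  (HasFDerivAt.comp (g := ρ) (f := swL A B) Q.swap ha.differentiableAt.hasFDerivAt (swL A B).hasFDerivAt).fderiv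

theorem sw_dw (ha : AnalyticAt ℂ ρ Q) (v : Amb A B) : dw (sw ρ) Q.swap v = dz ρ Q v := by
  rw [dw, sw_fderiv ha]; rfl

theorem sw_dz (ha : AnalyticAt ℂ ρ Q) (v : Amb A B) : dz (sw ρ) Q.swap v = dw ρ Q v := by
  rw [dz, sw_fderiv ha]; rfl

theorem sw_snd (ha : AnalyticAt ℂ ρ Q) (X Y : Amb A B × Amb A B) :
    fderiv ℂ (fderiv ℂ (sw ρ)) Q.swap X Y = fderiv ℂ (fderiv ℂ ρ) Q X.swap Y.swap := by
  have h1 : fderiv ℂ (sw ρ) =ᶠ[𝓝 Q.swap] fun x => (fderiv ℂ ρ (swL A B x)).comp (swL A B) := by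
    have : Tendsto (swL A B) (𝓝 Q.swap) (𝓝 Q) := (swL A B).continuous.tendsto Q.swap
    filter_upwards [this.eventually ha.eventually_analyticAt] with x hx
    exact sw_fderiv (Q := swL A B x) hx
  rw [h1.fderiv_eq]
  have h2 : HasFDerivAt (fun x => fderiv ℂ ρ (swL A B x)) ((fderiv ℂ (fderiv ℂ ρ) Q).comp (swL A B)) Q.swap :=
    HasFDerivAt.comp (g := fderiv ℂ ρ) (f := swL A B) Q.swap ha.fderiv.differentiableAt.hasFDerivAt
      (swL A B).hasFDerivAt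
  rw [(h2.clm_comp (hasFDerivAt_const (swL A B) Q.swap)).fderiv]
  simp [swL, Prod.swap]

theorem symm2 (ha : AnalyticAt ℂ ρ Q) (X Y : Amb A B × Amb A B) :
    fderiv ℂ (fderiv ℂ ρ) Q X Y = fderiv ℂ (fderiv ℂ ρ) Q Y X :=
  (ha.contDiffAt (n := ⊤)).isSymmSndFDerivAt_of_omega X Y

theorem sw_lev (ha : AnalyticAt ℂ ρ Q) (V v : Amb A B) : lev (sw ρ) Q.swap V v = lev ρ Q v V := by
  rw [lev, sw_snd ha, lev, symm2 ha]; rfl

/-- nondegeneracy on the other side -/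
theorem dual_J (hz : dz ρ Q e0 ≠ 0) (hw : dw ρ Q e0 ≠ 0)
    (hJ : ∀ v : Amb A B, v.2.2 = 0 → dz ρ Q v = 0 →
      (∀ V : Amb A B, V.2.2 = 0 → dw ρ Q V = 0 → lev ρ Q v V = 0) → v = 0) (V : Amb A B) (h1 : V.2.2 = 0)
    (h2 : dw ρ Q V = 0) (h3 : ∀ v : Amb A B, v.2.2 = 0 → dz ρ Q v = 0 → lev ρ Q v V = 0) : V = 0 := by
  let iu : (A → ℂ) →L[ℂ] Amb A B := (ContinuousLinearMap.inr ℂ _ _).comp (ContinuousLinearMap.inl ℂ _ _)
  let lift : (Amb A B →L[ℂ] ℂ) → (A → ℂ) →L[ℂ] Amb A B := fun L =>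
    iu - ((L e0)⁻¹ • L.comp iu).smulRight e0
  have hl : ∀ (L : Amb A B →L[ℂ] ℂ), L e0 ≠ 0 → (∀ u, (lift L u).2.2 = 0 ∧ L (lift L u) = 0 ∧ (lift L u).2.1 = u) ∧
      ∀ v : Amb A B, v.2.2 = 0 → L v = 0 → lift L v.2.1 = v := by
    intro L hL
    refine ⟨fun u => ⟨by simp [lift, iu], ?_, by simp [lift, iu]⟩, fun v g1 g2 => ?_⟩
    · simp only [lift, sub_apply, ContinuousLinearMap.smulRight_apply, smul_apply,
        ContinuousLinearMap.comp_apply, map_sub, map_smul, smul_eq_mul]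
      field_simp; ring
    · have g3 : v = v.1 • e0 + iu v.2.1 := by
        refine Prod.ext (by simp [iu]) (Prod.ext (by simp [iu]) (by simp [iu, g1]))
      have g4 : L (iu v.2.1) = -(v.1 * L e0) := by
        rw [g3, map_add, map_smul, smul_eq_mul] at g2
        linear_combination g2
      simp only [lift, sub_apply, ContinuousLinearMap.smulRight_apply, smul_apply,
        ContinuousLinearMap.comp_apply, smul_eq_mul, g4]
      conv_rhs => rw [g3]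
      have : (L e0)⁻¹ * -(v.1 * L e0) = -v.1 := by field_simp
      rw [this, neg_smul, sub_neg_eq_add, add_comm]
  let Lz : Amb A B →L[ℂ] ℂ := (fderiv ℂ ρ Q).comp (ContinuousLinearMap.inl ℂ _ _)
  let Lw : Amb A B →L[ℂ] ℂ := (fderiv ℂ ρ Q).comp (ContinuousLinearMap.inr ℂ _ _)
  obtain ⟨z1, z2⟩ := hl Lz hz
  obtain ⟨w1, w2⟩ := hl Lw hw
  let M : (A → ℂ) →ₗ[ℂ] Module.Dual ℂ (A → ℂ) :=
    { toFun := fun u => (((fderiv ℂ (fderiv ℂ ρ) Q (lift Lz u, 0)).comp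
        ((ContinuousLinearMap.inr ℂ _ _).comp (lift Lw)) : (A → ℂ) →L[ℂ] ℂ) : (A → ℂ) →ₗ[ℂ] ℂ)
      map_add' := fun u u' => by
        have : (lift Lz (u + u'), (0 : Amb A B)) = (lift Lz u, 0) + (lift Lz u', 0) := by simp
        rw [this, map_add]; rfl
      map_smul' := fun c u => by
        have : (lift Lz (c • u), (0 : Amb A B)) = c • (lift Lz u, 0) := by simp
        rw [this, map_smul]; rfl }
  have hM : ∀ u u', M u u' = lev ρ Q (lift Lz u) (lift Lw u') := fun _ _ => rfl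
  have hinj : Function.Injective M := by
    rw [← LinearMap.ker_eq_bot]
    refine LinearMap.ker_eq_bot'.2 fun u hu => ?_
    have := hJ _ (z1 u).1 (z1 u).2.1 fun V g1 g2 => by
      rw [← w2 V g1 g2, ← hM, hu]; rfl
    rw [← (z1 u).2.2, this]; rfl
  have hsurj : Function.Surjective M :=
    (LinearMap.injective_iff_surjective_of_finrank_eq_finrank Subspace.dual_finrank_eq.symm).1 hinj
  have h4 : V.2.1 = 0 := by
    funext a
    obtain ⟨u, hu⟩ := hsurj (LinearMap.proj a)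
    have := hM u V.2.1
    rw [w2 V h1 h2, h3 _ (z1 u).1 (z1 u).2.1, hu] at this
    exact this
  rw [← w2 V h1 h2, h4, map_zero]

open Classical in
/-- the characteristic vector -/
noncomputable def cv (a : Amb A B × (A → ℂ) → Amb A B →L[ℂ] ℂ) (e : B → ℂ) (x : Amb A B × (A → ℂ)) : Amb A B :=
  (-(∑ i, -(fderiv ℂ a x (0, Pi.single i 1) (0, 0, e)) * x.2 i) - a x (0, 0, e),
    fun i => -(fderiv ℂ a x (0, Pi.single i 1) (0, 0, e)), e)

/-- the characteristic field -/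
noncomputable def cf (a : Amb A B × (A → ℂ) → Amb A B →L[ℂ] ℂ) (e : B → ℂ) (x : Amb A B × (A → ℂ)) :
    Amb A B × (A → ℂ) :=
  (cv a e x, fun i => fderiv ℂ a x (eu i + (-x.2 i) • e0, 0) (cv a e x))

theorem an_app {E F G : Type} [NormedAddCommGroup E] [NormedSpace ℂ E] [NormedAddCommGroup F] [NormedSpace ℂ F]
    [NormedAddCommGroup G] [NormedSpace ℂ G] {f : E → F →L[ℂ] G} {g : E → F} {x : E} (hf : AnalyticAt ℂ f x)
    (hg : AnalyticAt ℂ g x) : AnalyticAt ℂ (fun y => f y (g y)) x :=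
  (ContinuousLinearMap.id ℂ (F →L[ℂ] G)).analyticAt_bilinear _ |>.comp₂ hf hg

theorem cf_an {a : Amb A B × (A → ℂ) → Amb A B →L[ℂ] ℂ} {x : Amb A B × (A → ℂ)} (h : AnalyticAt ℂ a x)
    (e : B → ℂ) : AnalyticAt ℂ (cf a e) x := by
  classical
  have h1 : ∀ i, AnalyticAt ℂ (fun x : Amb A B × (A → ℂ) => x.2 i) x := fun i =>
    analyticAt_pi_iff.1 analyticAt_snd i
  have h2 : ∀ i : A, AnalyticAt ℂ (fun x => -(fderiv ℂ a x (0, Pi.single i 1) (0, 0, e))) x := fun i =>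
    (an_app (an_app h.fderiv analyticAt_const) analyticAt_const).neg
  have h3 : AnalyticAt ℂ (cv a e) x := by
    refine AnalyticAt.prod ?_ (AnalyticAt.prod (analyticAt_pi_iff.2 fun i => ?_) analyticAt_const)
    · refine AnalyticAt.sub (AnalyticAt.neg ?_) (an_app h analyticAt_const)
      refine Finset.analyticAt_fun_sum _ fun i _ => AnalyticAt.mul ?_ (h1 i)
      convert h2 i
    · convert h2 i
  refine h3.prod (analyticAt_pi_iff.2 fun i => an_app (an_app h.fderiv ?_) h3)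
  exact (analyticAt_const.add ((h1 i).neg.smul analyticAt_const)).prod analyticAt_const

theorem vel {a : Amb A B × (A → ℂ) → Amb A B →L[ℂ] ℂ} (ha : AnalyticAt ℂ ρ Q) (h0 : ρ Q = 0) (hw : dw ρ Q e0 ≠ 0)
    (hA : AnalyticAt ℂ a (Q.2, cc ρ Q)) (hI : ∀ᶠ Q' in 𝓝 Q, ρ Q' = 0 → al ρ Q' = a (Q'.2, cc ρ Q'))
    (hS : ∀ c : A → ℂ, ∃ U : Amb A B, U.2.2 = 0 ∧ dz ρ Q U = 0 ∧ fderiv ℂ (cc ρ) Q (U, 0) = c) {V : Amb A B}
    (h1 : dw ρ Q V = 0) (h2 : ∀ U : Amb A B, U.2.2 = 0 → dz ρ Q U = 0 → lev ρ Q U V = 0) :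
    (V, fderiv ℂ (cc ρ) Q (0, V)) = cf a V.2.2 (Q.2, cc ρ Q) := by
  classical
  have hD : ∀ X, fderiv ℂ ρ Q X = 0 →
      fderiv ℂ (al ρ) Q X = fderiv ℂ a (Q.2, cc ρ Q) (X.2, fderiv ℂ (cc ρ) Q X) := by
    intro X hX
    have b1 := (hasFDerivAt_snd (𝕜 := ℂ) (p := Q)).prodMk (cc_an ha hw).differentiableAt.hasFDerivAt
    have b2 := (al_an ha hw).differentiableAt.hasFDerivAt.sub (hA.differentiableAt.hasFDerivAt.comp Q b1)
    have b3 := level_deriv ha h0 (e := (0, e0)) hw b2.differentiableAt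
      (hI.mono fun Q' h h' => sub_eq_zero.2 (h h')) hX
    rw [b2.fderiv] at b3
    exact sub_eq_zero.1 b3
  have hc : ∀ c : A → ℂ, fderiv ℂ a (Q.2, cc ρ Q) (0, c) V = 0 ∧ fderiv ℂ a (Q.2, cc ρ Q) (0, c) e0 = 0 ∧
      ∀ i, fderiv ℂ a (Q.2, cc ρ Q) (0, c) (eu i) = c i := by
    intro c
    obtain ⟨U, u1, u2, u3⟩ := hS c
    have b1 := hD (U, 0) u2
    rw [u3] at b1
    simp only at b1
    rw [← b1]
    refine ⟨?_, al_deriv_e0 ha hw _, fun i => by rw [← cc_deriv ha hw, u3]⟩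
    rw [al_deriv_ker ha hw _ h1]
    exact mul_eq_zero_of_right _ (h2 U u1 u2)
  have hu : ∀ j, V.2.1 j = -(fderiv ℂ a (Q.2, cc ρ Q) (0, Pi.single j 1) (0, 0, V.2.2)) := by
    intro j
    obtain ⟨b1, b2, b3⟩ := hc (Pi.single j 1)
    rw [clm_decomp, b2] at b1
    simp only [b3, Pi.single_apply, mul_ite, mul_one, mul_zero, Finset.sum_ite_eq', Finset.mem_univ, if_true,
      zero_add] at b1
    linear_combination b1
  have hV : V = cv a V.2.2 (Q.2, cc ρ Q) := by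
    refine Prod.ext ?_ (Prod.ext (funext fun j => ?_) rfl)
    · have b1 : al ρ Q V = 0 := by rw [al_apply, h1, mul_zero]
      rw [clm_decomp, al_e0 hw] at b1
      have b2 : al ρ Q (0, 0, V.2.2) = a (Q.2, cc ρ Q) (0, 0, V.2.2) := by rw [← hI.self_of_nhds h0]
      have b3 : ∑ i, V.2.1 i * al ρ Q (eu i) = ∑ i, -(fderiv ℂ a (Q.2, cc ρ Q) (0, Pi.single i 1) (0, 0, V.2.2)) *
          cc ρ Q i := Finset.sum_congr rfl fun i _ => by rw [hu i]; rfl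
      rw [b2, b3] at b1
      simp only [cv]
      linear_combination b1
    · simp only [cv]
      convert hu j
  refine Prod.ext hV (funext fun i => ?_)
  simp only [cf]
  rw [← hV, cc_deriv ha hw]
  have b1 : dw ρ Q (eu i + (-cc ρ Q i) • e0) = 0 := by
    rw [dw_add, dw_smul, cc, al_apply]; field_simp; ring
  have b2 := al_deriv_ker ha hw (0, V) b1
  rw [map_add, map_smul, al_deriv_e0 ha hw, smul_zero, add_zero, symm2 ha, ← al_deriv_ker ha hw _ h1,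
    hD _ b1] at b2
  rw [b2]
  have b3 : ((eu i + (-cc ρ Q i) • e0 : Amb A B), fderiv ℂ (cc ρ) Q (0, eu i + (-cc ρ Q i) • e0)) =
      (eu i + (-cc ρ Q i) • e0, 0) + (0, fderiv ℂ (cc ρ) Q (0, eu i + (-cc ρ Q i) • e0)) := by simp
  simp only
  rw [b3, map_add, add_apply, (hc _).1, add_zero]

/-- the good points of the parameter space of the conjugate leaves -/
def Good (ρ : Amb A B × Amb A B → ℂ) (a : Amb A B × (A → ℂ) → Amb A B →L[ℂ] ℂ)
    (Zs : Amb A B × (A → ℂ) × (B → ℂ) → Amb A B) (y : Amb A B × (A → ℂ) × (B → ℂ)) : Prop :=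
  AnalyticAt ℂ Zs y ∧
    (∀ᶠ y in 𝓝 y, sw ρ (Zs y, y.1) = 0 ∧ cc (sw ρ) (Zs y, y.1) = y.2.1 ∧ (Zs y).2.2 = y.2.2) ∧
    AnalyticAt ℂ ρ (y.1, Zs y) ∧ dw ρ (y.1, Zs y) e0 ≠ 0 ∧ dz ρ (y.1, Zs y) e0 ≠ 0 ∧
    AnalyticAt ℂ a (Zs y, cc ρ (y.1, Zs y)) ∧
    (∀ᶠ Q' in 𝓝 (y.1, Zs y), ρ Q' = 0 → al ρ Q' = a (Q'.2, cc ρ Q')) ∧
    ∀ c : A → ℂ, ∃ U : Amb A B, U.2.2 = 0 ∧ dz ρ (y.1, Zs y) U = 0 ∧ fderiv ℂ (cc ρ) (y.1, Zs y) (U, 0) = c

theorem curve {a : Amb A B × (A → ℂ) → Amb A B →L[ℂ] ℂ} {Zs : Amb A B × (A → ℂ) × (B → ℂ) → Amb A B}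
    {z : Amb A B} {c : A → ℂ} {t e : B → ℂ} {s : ℝ} (h : Good ρ a Zs (z, c, t + s • e)) :
    HasDerivAt (fun s : ℝ => (Zs (z, c, t + s • e), cc ρ (z, Zs (z, c, t + s • e))))
      (cf a e (Zs (z, c, t + s • e), cc ρ (z, Zs (z, c, t + s • e)))) s := by
  obtain ⟨a1, a2, a3, a4, a5, a6, a7, a8⟩ := h
  set y : Amb A B × (A → ℂ) × (B → ℂ) := (z, c, t + s • e) with hy
  have b1 := a1.differentiableAt.hasFDerivAt
  have b2 := b1.snd.snd.unique ((hasFDerivAt_snd (𝕜 := ℂ) (p := y)).snd.congr_of_eventuallyEq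
    (a2.mono fun y hy => hy.2.2))
  have b3 : (fderiv ℂ Zs y (0, 0, e)).2.2 = e := congrArg (fun L => L (0, 0, e)) b2
  have b4 := (hasFDerivAt_fst (𝕜 := ℂ) (p := y)).prodMk b1
  have b5 := (a3.differentiableAt.hasFDerivAt.comp y b4).unique
    ((hasFDerivAt_const (0 : ℂ) y).congr_of_eventuallyEq (a2.mono fun y hy => hy.1))
  have b6 : dw ρ (z, Zs y) (fderiv ℂ Zs y (0, 0, e)) = 0 := congrArg (fun L => L (0, 0, e)) b5
  have s1 := sw_an a3
  have s2 : dw (sw ρ) (Zs y, z) e0 ≠ 0 := by rw [← sw_dw a3] at a5; exact a5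
  have b7 := b1.prodMk (hasFDerivAt_fst (𝕜 := ℂ) (p := y))
  have b8 := (HasFDerivAt.comp (g := cc (sw ρ)) y (cc_an s1 s2).differentiableAt.hasFDerivAt b7).unique
    ((hasFDerivAt_snd (𝕜 := ℂ) (p := y)).fst.congr_of_eventuallyEq (a2.mono fun y hy => hy.2.1))
  have b9 : fderiv ℂ (cc (sw ρ)) (Zs y, z) (fderiv ℂ Zs y (0, 0, e), 0) = 0 := congrArg (fun L => L (0, 0, e)) b8
  have b10 := vel a3 a2.self_of_nhds.1 a4 a6 a7 a8 b6 fun U u1 u2 => by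
    rw [← sw_lev a3]
    exact (cc_deriv_zero_iff s1 s2 _).1 b9 U u1 ((sw_dw a3 U).trans u2)
  rw [b3] at b10
  rw [← b10]
  have c1 : HasDerivAt (fun s : ℝ => (z, c, t + s • e)) ((0, 0, e) : Amb A B × (A → ℂ) × (B → ℂ)) s := by
    refine (hasDerivAt_const s z).prodMk ((hasDerivAt_const s c).prodMk ?_)
    simpa using ((hasDerivAt_id s).smul_const e).const_add t
  have c2 := (b1.restrictScalars ℝ).comp_hasDerivAt s c1
  have c3 := (((cc_an a3 a4).differentiableAt.hasFDerivAt.comp y b4).restrictScalars ℝ).comp_hasDerivAt s c1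
  exact c2.prodMk c3

end Chr

open Chr in
/-- FOL.  For `z` on the leaf through `(z₁, ω₁)` and `ω` on the conjugate leaf, `ρ (z, ω) = 0`.  (Apply it with
`ω₁ = conj z₁`, `ω = conj z`.) -/
theorem fol_char {ρ : Amb A B × Amb A B → ℂ} {p p' : Amb A B} (ha : AnalyticAt ℂ ρ (p, p')) (h0 : ρ (p, p') = 0)
    (hz : dz ρ (p, p') (1, 0, 0) ≠ 0) (hw : dw ρ (p, p') (1, 0, 0) ≠ 0)
    (hJ : ∀ v : Amb A B, v.2.2 = 0 → dz ρ (p, p') v = 0 →
      (∀ V : Amb A B, V.2.2 = 0 → dw ρ (p, p') V = 0 → lev ρ (p, p') v V = 0) → v = 0)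
    (hR : ∀ᶠ Q in 𝓝 (p, p'), ρ Q = 0 → ∀ v : Amb A B, dz ρ Q v = 0 →
      (∀ V : Amb A B, V.2.2 = 0 → dw ρ Q V = 0 → lev ρ Q v V = 0) → ∀ V, dw ρ Q V = 0 → lev ρ Q v V = 0) :
    ∀ᶠ x : (Amb A B × Amb A B) × (Amb A B × Amb A B) in 𝓝 ((p, p'), (p, p')), ρ x.1 = 0 → ρ (x.2.1, x.1.2) = 0 →
      (∀ u, dw ρ (x.2.1, x.1.2) (0, u, 0) * dw ρ x.1 (1, 0, 0) = dw ρ (x.2.1, x.1.2) (1, 0, 0) * dw ρ x.1 (0, u, 0)) →
      ρ (x.1.1, x.2.2) = 0 →
      (∀ u, dz ρ (x.1.1, x.2.2) (0, u, 0) * dz ρ x.1 (1, 0, 0) = dz ρ (x.1.1, x.2.2) (1, 0, 0) * dz ρ x.1 (0, u, 0)) →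
      ρ x.2 = 0 := by
  classical
  obtain ⟨a, hA, hI⟩ := exists_a ha h0 hw hJ hR
  obtain ⟨-, -, -, -, hS⟩ := param ha h0 hw hJ
  have s1 : AnalyticAt ℂ (sw ρ) (p', p) := sw_an ha
  have s2 : dw (sw ρ) (p', p) e0 ≠ 0 := by rw [← sw_dw ha] at hz; exact hz
  obtain ⟨Zs, hZ, z1, z2, -⟩ := param s1 h0 s2 fun V v1 v2 v3 =>
    dual_J hz hw hJ V v1 ((sw_dz ha V).symm.trans v2) fun v w1 w2 =>
      (sw_lev ha V v).symm.trans (v3 v w1 ((sw_dw ha v).trans w2))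
  set y₀ : Amb A B × (A → ℂ) × (B → ℂ) := (p, cc (sw ρ) (p', p), p'.2.2) with hy₀
  have hZ0 : Zs y₀ = p' := z2.self_of_nhds h0
  have hwn : ∀ᶠ Q in 𝓝 (p, p'), dw ρ Q e0 ≠ 0 := (dw_an ha e0).continuousAt.eventually_ne hw
  have hsw : Tendsto Prod.swap (𝓝 (p, p')) (𝓝 (p', p)) := continuous_swap.tendsto _
  have hzn : ∀ᶠ Q in 𝓝 (p, p'), dz ρ Q e0 ≠ 0 := by
    filter_upwards [hsw.eventually ((dw_an s1 e0).continuousAt.eventually_ne s2), ha.eventually_analyticAt]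
      with Q b1 b2
    rwa [sw_dw b2] at b1
  have hk : Tendsto (fun y : Amb A B × (A → ℂ) × (B → ℂ) => (y.1, Zs y)) (𝓝 y₀) (𝓝 (p, p')) := by
    have := (continuousAt_fst.prodMk hZ.continuousAt).tendsto
    rwa [hZ0] at this
  have hcc : Tendsto (fun Q => (Q.2, cc ρ Q)) (𝓝 (p, p')) (𝓝 (p', cc ρ (p, p'))) :=
    (continuousAt_snd.prodMk (cc_an ha hw).continuousAt).tendsto
  have hG : ∀ᶠ y in 𝓝 y₀, Good ρ a Zs y := by
    filter_upwards [hZ.eventually_analyticAt, z1.eventually_nhds, hk.eventually ha.eventually_analyticAt,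
      hk.eventually hwn, hk.eventually hzn, hk.eventually (hcc.eventually hA.eventually_analyticAt),
      hk.eventually hI.eventually_nhds, hk.eventually hS] with y b1 b2 b3 b4 b5 b6 b7 b8
    exact ⟨b1, b2, b3, b4, b5, b6, b7, b8⟩
  -- uniform version along segments
  have hU : ∀ᶠ x : (Amb A B × Amb A B) × (B → ℂ) in 𝓝 ((p, p'), p'.2.2), ∀ s ∈ Icc (-1 : ℝ) 2,
      Good ρ a Zs (x.1.1, cc (sw ρ) x.1.swap, x.1.2.2.2 + s • (x.2 - x.1.2.2.2)) := by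
    refine isCompact_Icc.eventually_forall_of_forall_eventually fun s _ => ?_
    have c1 : ContinuousAt (fun q : ((Amb A B × Amb A B) × (B → ℂ)) × ℝ => cc (sw ρ) q.1.1.swap)
        (((p, p'), p'.2.2), s) :=
      ContinuousAt.comp_of_eq (cc_an s1 s2).continuousAt (by fun_prop) rfl
    have c2 : ContinuousAt (fun q : ((Amb A B × Amb A B) × (B → ℂ)) × ℝ =>
        (q.1.1.1, cc (sw ρ) q.1.1.swap, q.1.1.2.2.2 + q.2 • (q.1.2 - q.1.1.2.2.2))) (((p, p'), p'.2.2), s) :=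
      ContinuousAt.prodMk (by fun_prop) (c1.prodMk (by fun_prop))
    have c3 := c2.tendsto
    simp only [sub_self, smul_zero, add_zero] at c3
    exact c3.eventually hG
  have t1 : Tendsto (fun x : (Amb A B × Amb A B) × (Amb A B × Amb A B) => x.1) (𝓝 ((p, p'), (p, p')))
      (𝓝 (p, p')) := continuous_fst.tendsto _
  have t2 : Tendsto (fun x : (Amb A B × Amb A B) × (Amb A B × Amb A B) => (x.2.1, x.1.2)) (𝓝 ((p, p'), (p, p')))
      (𝓝 (p, p')) := (by fun_prop : Continuous _).tendsto _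
  have t3 : Tendsto (fun x : (Amb A B × Amb A B) × (Amb A B × Amb A B) => (x.1.1, x.2.2)) (𝓝 ((p, p'), (p, p')))
      (𝓝 (p, p')) := (by fun_prop : Continuous _).tendsto _
  have t4 : Tendsto (fun x : (Amb A B × Amb A B) × (Amb A B × Amb A B) => x.2.2.2.2) (𝓝 ((p, p'), (p, p')))
      (𝓝 p'.2.2) := (by fun_prop : Continuous _).tendsto _
  filter_upwards [(t1.prodMk_nhds t4).eventually hU, (t2.prodMk_nhds t4).eventually hU,
    t1.eventually (hsw.eventually z2), t2.eventually (hsw.eventually z2), t3.eventually (hsw.eventually z2),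
    t1.eventually hwn, t2.eventually hwn, t1.eventually hzn, t3.eventually hzn,
    t1.eventually ha.eventually_analyticAt, t3.eventually ha.eventually_analyticAt]
  rintro ⟨⟨z₁, ω₁⟩, z, ω⟩ g1 g2 l1 l2 l3 w1 w2 w3 w4 n1 n3 r1 r2 e1 r3 e2
  simp only [Prod.swap] at g1 g2 l1 l2 l3 w1 w2 w3 w4 n1 n3 r1 r2 e1 r3 e2 ⊢
  have q1 : cc ρ (z, ω₁) = cc ρ (z₁, ω₁) := by
    funext i
    have := e1 (Pi.single i 1)
    simp only [cc, al_apply]
    field_simp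
    simpa [eu, mul_comm] using this
  have q2 : cc (sw ρ) (ω, z₁) = cc (sw ρ) (ω₁, z₁) := by
    funext i
    have := e2 (Pi.single i 1)
    simp only [cc, al_apply]
    have f1 := sw_dw n1
    have f3 := sw_dw n3
    simp only [Prod.swap] at f1 f3
    rw [f1, f1, f3, f3]
    field_simp
    simpa [eu, mul_comm] using this
  have hI2 : Ioo (-1 : ℝ) 2 ⊆ Icc (-1) 2 := Ioo_subset_Icc_self
  have key := ode_unique (X := {x | AnalyticAt ℂ a x}) (W := cf a (ω.2.2 - ω₁.2.2))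
    (fun x hx => (cf_an hx _).analyticWithinAt) isOpen_Ioo isPreconnected_Ioo
    (fun s hs => ⟨(g2 s (hI2 hs)).2.2.2.2.2.1, curve (g2 s (hI2 hs))⟩)
    (fun s hs => ⟨(g1 s (hI2 hs)).2.2.2.2.2.1, curve (g1 s (hI2 hs))⟩) (t₀ := 0) (by constructor <;> norm_num)
    (by simp only [zero_smul, add_zero, l1 r1, l2 r2, q1])
  have k1 := congrArg Prod.fst (key (x := 1) (by constructor <;> norm_num))
  have k2 := (g2 1 (by constructor <;> norm_num)).2.1.self_of_nhds.1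
  simp only [one_smul, add_sub_cancel] at k1 k2
  rw [k1, ← q2, l3 r3] at k2
  exact k2

end Crest.Agent.R264
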