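import Crest.Agent.R264.GeoAlg

/-! Block Fol (owner helper79): linear algebra and elimination. -/

set_option autoImplicit false
set_option linter.unusedSectionVars false
set_option linter.unusedVariables false
open Set Filter Topology MvPolynomial

namespace Crest.Agent.R264.Fol

/-! ### part a -/

/-- Choice of coordinates.  Take `i₀` with `m e₀ ≠ 0`, `y j = n e₀ • e j - n (e j) • e₀`, `φ j = L · (y j)` restricted to
`ker m`; `A` indexes a maximal linearly independent subfamily of `(φ j)_{j ≠ i₀}` (`exists_linearIndepOn_extension`/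
`LinearIndepOn.extend`), `B` the rest.  Third claim: span.  Second claim: `n e₀ • star v = ∑ a, conj (v a) • y a`; for
`x ∈ ker m`, `n e₀ • star x = ∑_{j ≠ i₀} conj (x j) • y j`, so `L v (star x) = 0`, `L x (star v) = 0`, `∑ a, conj (v a) • φ a = 0`. -/
theorem choose_coord {ι : Type} [Fintype ι] [DecidableEq ι] {m n : (ι → ℂ) →ₗ[ℂ] ℂ} (hm : m ≠ 0)
    (hn : ∀ y, n y = (starRingEnd ℂ) (m (star y))) {L : (ι → ℂ) →ₗ[ℂ] (ι → ℂ) →ₗ[ℂ] ℂ}
    (hL : ∀ v y, L (star y) (star v) = (starRingEnd ℂ) (L v y)) :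
    ∃ (A B : Type) (_ : Fintype A) (_ : Fintype B) (_ : DecidableEq A) (_ : DecidableEq B) (e : Option A ⊕ B ≃ ι),
      n (Pi.single (e (Sum.inl none)) 1) ≠ 0 ∧
      ∀ v : ι → ℂ, m v = 0 →
        (∀ a, n (Pi.single (e (Sum.inl none)) 1) * L v (Pi.single (e (Sum.inl (some a))) 1) -
          n (Pi.single (e (Sum.inl (some a))) 1) * L v (Pi.single (e (Sum.inl none)) 1) = 0) →
        ((∀ b, v (e (Sum.inr b)) = 0) → v = 0) ∧
        ∀ b, n (Pi.single (e (Sum.inl none)) 1) * L v (Pi.single (e (Sum.inr b)) 1) -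
          n (Pi.single (e (Sum.inr b)) 1) * L v (Pi.single (e (Sum.inl none)) 1) = 0 := by
  classical
  obtain ⟨i₀, h0⟩ : ∃ i, m (Pi.single i 1) ≠ 0 := by
    by_contra h
    push Not at h
    exact hm (LinearMap.pi_ext' fun i => LinearMap.ext_ring (by simpa using h i))
  have hn0 : n (Pi.single i₀ 1) ≠ 0 := by
    rw [hn, Pi.star_single, star_one]
    exact (map_ne_zero _).2 h0
  let y : ι → ι → ℂ := fun j => n (Pi.single i₀ 1) • Pi.single j 1 - n (Pi.single j 1) • Pi.single i₀ 1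
  have hy : ∀ v j, L v (y j) = n (Pi.single i₀ 1) * L v (Pi.single j 1) - n (Pi.single j 1) * L v (Pi.single i₀ 1) :=
    fun v j => by simp [y]
  have hy0 : y i₀ = 0 := sub_self _
  have hsum : ∀ x, m x = 0 → n (Pi.single i₀ 1) • star x = ∑ j, star (x j) • y j := fun x hx => by
    have h1 : star x = ∑ j, star (x j) • (Pi.single j 1 : ι → ℂ) := pi_eq_sum_univ' (star x)
    have h2 : ∑ j, star (x j) * n (Pi.single j 1) = 0 := by
      have h3 : n (star x) = 0 := by rw [hn, star_star, hx, map_zero]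
      rw [h1, map_sum] at h3
      simpa using h3
    simp only [y, smul_sub, Finset.sum_sub_distrib, smul_smul (star _) (n _) (Pi.single i₀ 1 : ι → ℂ),
      ← Finset.sum_smul, h2, zero_smul, sub_zero]
    rw [h1, Finset.smul_sum]
    exact Finset.sum_congr rfl fun j _ => smul_comm _ _ _
  let φ : ι → LinearMap.ker m →ₗ[ℂ] ℂ := fun j => (L.flip (y j)).domRestrict _
  obtain ⟨t, ht, -, hsp, hli⟩ := exists_linearIndepOn_extension (K := ℂ) (v := φ) (linearIndepOn_empty ℂ φ)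
    (empty_subset {j | j ≠ i₀})
  let e : Option t ⊕ {j // j ≠ i₀ ∧ j ∉ t} ≃ ι := Equiv.ofBijective
    (Sum.elim (fun o => o.elim i₀ Subtype.val) Subtype.val) ⟨by
      rintro ((_ | a) | a) ((_ | b) | b) h
      · rfl
      · exact absurd h.symm (ht b.2)
      · exact absurd h.symm b.2.1
      · exact absurd h (ht a.2)
      · exact congrArg (fun z => Sum.inl (some z)) (Subtype.ext h)
      · exact absurd (show a.1 = b.1 from h) fun h' => b.2.2 (h' ▸ a.2)
      · exact absurd h a.2.1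
      · exact absurd (show a.1 = b.1 from h) fun h' => a.2.2 (h' ▸ b.2)
      · exact congrArg Sum.inr (Subtype.ext h), fun j => by
      by_cases h1 : j = i₀
      · exact ⟨Sum.inl none, h1.symm⟩
      · by_cases h2 : j ∈ t
        · exact ⟨Sum.inl (some ⟨j, h2⟩), rfl⟩
        · exact ⟨Sum.inr ⟨j, h1, h2⟩, rfl⟩⟩
  refine ⟨t, {j // j ≠ i₀ ∧ j ∉ t}, inferInstance, inferInstance, inferInstance, inferInstance, e, hn0,
    fun v hv ha => ?_⟩
  have ha' : ∀ j ∈ t, L v (y j) = 0 := fun j hj => (hy v j).trans (ha ⟨j, hj⟩)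
  have hall : ∀ j, L v (y j) = 0 := fun j => by
    by_cases h1 : j = i₀
    · rw [h1, hy0, map_zero]
    · have h2 : Submodule.span ℂ (φ '' t) ≤ LinearMap.ker (LinearMap.applyₗ (⟨v, hv⟩ : LinearMap.ker m)) :=
        Submodule.span_le.2 (by
          rintro _ ⟨a, h3, rfl⟩
          exact ha' a h3)
      exact h2 (hsp ⟨j, h1, rfl⟩)
  refine ⟨fun hb => ?_, fun b => (hy v b).symm.trans (hall b)⟩
  have h1 : ∀ x, m x = 0 → L x (star v) = 0 := fun x hx => by
    have h2 := congrArg (L v) (hsum x hx)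
    simp only [map_smul, map_sum, hall, Finset.sum_const_zero, smul_eq_mul, mul_zero,
      mul_eq_zero, hn0, false_or] at h2
    rw [← star_star x, hL, h2, map_zero]
  have h2 : ∑ j ∈ t.toFinset, star (v j) • φ j = 0 := by
    ext x
    have h3 := congrArg (L x) (hsum v hv)
    rw [map_smul, h1 _ x.2, smul_zero, map_sum] at h3
    rw [LinearMap.sum_apply, LinearMap.zero_apply, h3]
    refine (Finset.sum_congr rfl fun j _ => ?_).trans (Finset.sum_subset (Finset.subset_univ _) fun j _ hj => ?_)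
    · rw [map_smul]
      rfl
    · by_cases h4 : j = i₀
      · rw [h4, hy0, smul_zero, map_zero]
      · rw [show v j = 0 from hb ⟨j, h4, fun h => hj (mem_toFinset.2 h)⟩, star_zero, zero_smul, map_zero]
  have h4 : ∀ j ∈ t, v j = 0 := fun j hj => by
    have h5 := (linearIndepOn_finset_iff (s := t.toFinset)).1 (by rwa [coe_toFinset]) _ h2 j (mem_toFinset.2 hj)
    exact star_eq_zero.1 h5
  have h5 := hsum v hv
  rw [Finset.sum_eq_zero fun j _ => ?_] at h5
  · exact star_eq_zero.1 ((smul_eq_zero.1 h5).resolve_left hn0)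
  · by_cases h6 : j = i₀
    · rw [h6, hy0, smul_zero]
    · by_cases h7 : j ∈ t
      · rw [h4 j h7, star_zero, zero_smul]
      · rw [show v j = 0 from hb ⟨j, h6, h7⟩, star_zero, zero_smul]

theorem rank_spec_A {α β : Type} [Fintype α] [Fintype β] [DecidableEq α] [DecidableEq β]
    {M : Matrix α α ℂ} {N : Matrix α β ℂ} {P : Matrix β α ℂ} {Q : Matrix β β ℂ}
    (h : ∀ v₁ v₂, M.mulVec v₁ + N.mulVec v₂ = 0 → P.mulVec v₁ + Q.mulVec v₂ = 0) :
    M.det • Q - P * M.adjugate * N = 0 := by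
  refine Matrix.ext_of_mulVec_single fun b => ?_
  have := h (-((M.adjugate * N).mulVec (Pi.single b 1))) (M.det • Pi.single b 1) (by
    rw [Matrix.mulVec_neg, Matrix.mulVec_mulVec, ← Matrix.mul_assoc, Matrix.mul_adjugate, Matrix.mulVec_smul,
      Matrix.smul_mul, Matrix.one_mul, Matrix.smul_mulVec, neg_add_cancel])
  rw [Matrix.mulVec_neg, Matrix.mulVec_mulVec, Matrix.mulVec_smul] at this
  rw [Matrix.sub_mulVec, Matrix.smul_mulVec, Matrix.zero_mulVec, Matrix.mul_assoc, ← this]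
  abel

theorem rank_spec_B {α β : Type} [Fintype α] [Fintype β] [DecidableEq α] [DecidableEq β]
    {M : Matrix α α ℂ} {N : Matrix α β ℂ} {P : Matrix β α ℂ} {Q : Matrix β β ℂ} (hd : M.det ≠ 0)
    (h : M.det • Q - P * M.adjugate * N = 0) (v₁ : α → ℂ) (v₂ : β → ℂ) (hv : M.mulVec v₁ + N.mulVec v₂ = 0) :
    P.mulVec v₁ + Q.mulVec v₂ = 0 := by
  have h1 : M.det • v₁ = -(M.adjugate * N).mulVec v₂ := by
    have := congrArg M.adjugate.mulVec hv
    rw [Matrix.mulVec_add, Matrix.mulVec_mulVec, Matrix.mulVec_mulVec, Matrix.adjugate_mul, Matrix.smul_mulVec,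
      Matrix.one_mulVec, Matrix.mulVec_zero] at this
    exact eq_neg_of_add_eq_zero_left this
  have h2 := congrArg (fun A => Matrix.mulVec A v₂) h
  simp only [Matrix.sub_mulVec, Matrix.smul_mulVec, Matrix.zero_mulVec] at h2
  refine (smul_eq_zero_iff_right hd).1 ?_
  rw [smul_add, ← Matrix.mulVec_smul, h1, Matrix.mulVec_neg, Matrix.mulVec_mulVec, ← Matrix.mul_assoc, ← h2]
  abel

/-- Specialisation of a rank condition.  With blocks `M, N, P, Q` of `l`: if `φ (det M) ≠ 0`, the condition for `φ` is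
equivalent to `(det M • Q - P * adjugate M * N).map φ = 0` (`RingHom.map_det`, `RingHom.map_adjugate`,
`Matrix.mul_adjugate`); `φ₀ (det M) ≠ 0` by `hk`. -/
theorem rank_spec {𝒜 α β : Type} [CommRing 𝒜] [Fintype α] [Fintype β] [DecidableEq α] [DecidableEq β]
    (φ₀ φ : 𝒜 →+* ℂ) (hk : ∀ f, φ₀ f = 0 → φ f = 0) (l : α ⊕ β → α ⊕ β → 𝒜)
    (hdet : φ (Matrix.of fun i j : α => l (Sum.inl i) (Sum.inl j)).det ≠ 0)
    (h₀ : ∀ v : α ⊕ β → ℂ, (∀ i, ∑ k, φ₀ (l (Sum.inl i) k) * v k = 0) → ∀ j, ∑ k, φ₀ (l (Sum.inr j) k) * v k = 0) :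
    ∀ v : α ⊕ β → ℂ, (∀ i, ∑ k, φ (l (Sum.inl i) k) * v k = 0) → ∀ j, ∑ k, φ (l (Sum.inr j) k) * v k = 0 := by
  let M : Matrix α α 𝒜 := Matrix.of fun i j => l (Sum.inl i) (Sum.inl j)
  let N : Matrix α β 𝒜 := Matrix.of fun i j => l (Sum.inl i) (Sum.inr j)
  let P : Matrix β α 𝒜 := Matrix.of fun i j => l (Sum.inr i) (Sum.inl j)
  let Q : Matrix β β 𝒜 := Matrix.of fun i j => l (Sum.inr i) (Sum.inr j)
  have hmap : ∀ ψ : 𝒜 →+* ℂ, (M.det • Q - P * M.adjugate * N).map ψ =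
      (M.map ψ).det • Q.map ψ - P.map ψ * (M.map ψ).adjugate * N.map ψ := by
    intro ψ
    have h1 : (M.map ψ).det = ψ M.det := (RingHom.map_det ψ M).symm
    have h2 : (M.map ψ).adjugate = M.adjugate.map ψ := (RingHom.map_adjugate ψ M).symm
    rw [h1, h2, ← Matrix.map_mul, ← Matrix.map_mul]
    ext i j
    simp only [Matrix.map_apply, Matrix.sub_apply, Matrix.smul_apply, smul_eq_mul, map_sub, map_mul]
  have hup : ∀ (ψ : 𝒜 →+* ℂ) (v₁ : α → ℂ) (v₂ : β → ℂ) (i : α),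
      ∑ k, ψ (l (Sum.inl i) k) * Sum.elim v₁ v₂ k = ((M.map ψ).mulVec v₁ + (N.map ψ).mulVec v₂) i := by
    intro ψ v₁ v₂ i
    simp [Fintype.sum_sum_type, Matrix.mulVec, dotProduct, M, N]
  have hlo : ∀ (ψ : 𝒜 →+* ℂ) (v₁ : α → ℂ) (v₂ : β → ℂ) (j : β),
      ∑ k, ψ (l (Sum.inr j) k) * Sum.elim v₁ v₂ k = ((P.map ψ).mulVec v₁ + (Q.map ψ).mulVec v₂) j := by
    intro ψ v₁ v₂ j
    simp [Fintype.sum_sum_type, Matrix.mulVec, dotProduct, P, Q]
  have h1 : (M.det • Q - P * M.adjugate * N).map φ₀ = 0 := by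
    rw [hmap]
    refine rank_spec_A fun v₁ v₂ hv => funext fun j => ?_
    rw [← hlo]
    exact h₀ _ (fun i => by rw [hup, hv]; rfl) j
  have h2 : (M.det • Q - P * M.adjugate * N).map φ = 0 := by
    ext i j
    exact hk _ (congrFun (congrFun h1 i) j)
  rw [hmap] at h2
  intro v hv j
  have h3 : v = Sum.elim (v ∘ Sum.inl) (v ∘ Sum.inr) := (Sum.elim_comp_inl_inr v).symm
  rw [h3] at hv ⊢
  rw [hlo, rank_spec_B (by rw [← RingHom.mapMatrix_apply, ← RingHom.map_det]; exact hdet) h2 _ _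
    (funext fun i => by rw [← hup]; exact hv i)]
  rfl

/-! ### part b -/

/-! ### part b -/

theorem elim_alg {α β L : Type} [Fintype α] [DecidableEq α] [DecidableEq β] [Field L]
    (ψ : MvPolynomial (α ⊕ β) ℂ →+* L) {E : α → MvPolynomial (α ⊕ β) ℂ} (hE : ∀ j, ψ (E j) = 0)
    (hd : ψ (Matrix.of fun i j : α => pderiv (Sum.inl j) (E i)).det ≠ 0)
    (hB : ∀ h : MvPolynomial β ℂ, ψ (rename Sum.inr h) = 0 → h = 0) (j : α) :
    ∃ q : Polynomial (MvPolynomial β ℂ), q ≠ 0 ∧ Polynomial.eval₂ (ψ.comp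
      (rename Sum.inr : MvPolynomial β ℂ →ₐ[ℂ] MvPolynomial (α ⊕ β) ℂ).toRingHom) (ψ (X (Sum.inl j))) q = 0 := by
  let φ : MvPolynomial β ℂ →+* L :=
    ψ.comp (rename Sum.inr : MvPolynomial β ℂ →ₐ[ℂ] MvPolynomial (α ⊕ β) ℂ).toRingHom
  have hinj : Function.Injective φ := (injective_iff_map_eq_zero φ).2 hB
  let K := FractionRing (MvPolynomial β ℂ)
  let _ : Algebra (MvPolynomial β ℂ) L := φ.toAlgebra
  let _ : Algebra K L := (IsFractionRing.lift hinj : K →+* L).toAlgebra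
  have htw : ∀ x : MvPolynomial β ℂ, algebraMap K L (algebraMap (MvPolynomial β ℂ) K x) = φ x := fun x =>
    IsFractionRing.lift_algebraMap hinj x
  have : IsScalarTower (MvPolynomial β ℂ) K L := IsScalarTower.of_algebraMap_eq fun x => (htw x).symm
  have : CharZero K := algebraRat.charZero K
  let θ : MvPolynomial (α ⊕ β) ℂ →+* MvPolynomial α K :=
    eval₂Hom (C.comp ((algebraMap (MvPolynomial β ℂ) K).comp C))
      (Sum.elim X fun b => C (algebraMap (MvPolynomial β ℂ) K (X b)))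
  have hC : ∀ a : ℂ, θ (C a) = C (algebraMap (MvPolynomial β ℂ) K (C a)) := fun a => by simp [θ]
  have hX1 : ∀ i : α, θ (X (Sum.inl i)) = X i := fun i => by simp [θ]
  have hX2 : ∀ b : β, θ (X (Sum.inr b)) = C (algebraMap (MvPolynomial β ℂ) K (X b)) := fun b => by simp [θ]
  have h1 : ∀ f, aeval (fun i => ψ (X (Sum.inl i))) (θ f) = ψ f := by
    intro f
    induction f using MvPolynomial.induction_on with
    | C a => rw [hC, aeval_C, htw]; simp [φ]
    | add f g hf hg => rw [map_add, map_add, map_add, hf, hg]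
    | mul_X f i hf =>
      rw [map_mul, map_mul, map_mul, hf]
      congr 1
      rcases i with i | b
      · rw [hX1, aeval_X]
      · rw [hX2, aeval_C, htw]; simp [φ]
  have h2 : ∀ (i : α) f, pderiv i (θ f) = θ (pderiv (Sum.inl i) f) := by
    intro i f
    induction f using MvPolynomial.induction_on with
    | C a => rw [hC, pderiv_C, pderiv_C, map_zero]
    | add f g hf hg => rw [map_add, map_add, map_add, map_add, hf, hg]
    | mul_X f k hf =>
      rw [map_mul, pderiv_mul, pderiv_mul, map_add, map_mul, map_mul, hf]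
      congr 2
      rcases k with k | b
      · rw [hX1, pderiv_X, pderiv_X]
        by_cases h : k = i
        · subst h; simp
        · simp [h]
      · rw [hX2, pderiv_C, pderiv_X]; simp
  have h3 := jac_alg (K := K) (fun i => θ (E i)) (fun i => ψ (X (Sum.inl i))) (fun i => by rw [h1, hE])
    (by
      rw [RingHom.map_det] at hd
      refine fun h => hd (Eq.trans (congrArg Matrix.det ?_) h)
      ext a b
      simp only [RingHom.mapMatrix_apply, Matrix.map_apply, Matrix.of_apply]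
      rw [h2, h1]) j
  exact (IsFractionRing.isAlgebraic_iff (MvPolynomial β ℂ) K L).2 h3

/-- Elimination.  `𝒪 = ℂ[α ⊕ β] ⧸ 𝔭` is a domain, `ℂ[β] → 𝒪` is injective; `K = FractionRing ℂ[β]`, `L = FractionRing 𝒪`
(`IsFractionRing.lift`); `jac_alg` for `F j = aeval (Sum.elim X (C ∘ algebraMap ∘ X)) (E j)` shows that the classes of the
`X (inl j)` are algebraic over `K`, so over `ℂ[β]` (`IsFractionRing.isAlgebraic_iff`); hence the class of `g` is algebraic,
`IsAlgebraic.exists_nonzero_dvd`. -/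
theorem elim {α β : Type} [Fintype α] [Fintype β] [DecidableEq α] [DecidableEq β]
    {𝔭 : Ideal (MvPolynomial (α ⊕ β) ℂ)} (hp : 𝔭.IsPrime) {E : α → MvPolynomial (α ⊕ β) ℂ} (hE : ∀ j, E j ∈ 𝔭)
    (hd : (Matrix.of fun i j : α => pderiv (Sum.inl j) (E i)).det ∉ 𝔭)
    (hB : ∀ h : MvPolynomial β ℂ, rename Sum.inr h ∈ 𝔭 → h = 0) {g : MvPolynomial (α ⊕ β) ℂ} (hg : g ∉ 𝔭) :
    ∃ (h : MvPolynomial β ℂ) (k : MvPolynomial (α ⊕ β) ℂ), h ≠ 0 ∧ rename Sum.inr h - g * k ∈ 𝔭 := by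
  let ι' : (MvPolynomial (α ⊕ β) ℂ ⧸ 𝔭) →+* FractionRing (MvPolynomial (α ⊕ β) ℂ ⧸ 𝔭) := algebraMap _ _
  have hι : Function.Injective ι' := IsFractionRing.injective _ _
  have hψ : ∀ f, (ι'.comp (Ideal.Quotient.mk 𝔭)) f = 0 ↔ f ∈ 𝔭 := fun f => by
    rw [RingHom.comp_apply, map_eq_zero_iff _ hι, Ideal.Quotient.eq_zero_iff_mem]
  have hA := elim_alg (ι'.comp (Ideal.Quotient.mk 𝔭)) (fun j => (hψ _).2 (hE j)) (fun h => hd ((hψ _).1 h))
    fun h hh => hB h ((hψ _).1 hh)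
  let φ : MvPolynomial β ℂ →+* MvPolynomial (α ⊕ β) ℂ ⧸ 𝔭 := (Ideal.Quotient.mk 𝔭).comp
    (rename Sum.inr : MvPolynomial β ℂ →ₐ[ℂ] MvPolynomial (α ⊕ β) ℂ).toRingHom
  let _ : Algebra (MvPolynomial β ℂ) (MvPolynomial (α ⊕ β) ℂ ⧸ 𝔭) := φ.toAlgebra
  have halg : ∀ f : MvPolynomial (α ⊕ β) ℂ, IsAlgebraic (MvPolynomial β ℂ) (Ideal.Quotient.mk 𝔭 f) := by
    intro f
    induction f using MvPolynomial.induction_on with
    | C a =>
      have : Ideal.Quotient.mk 𝔭 (C a) = algebraMap (MvPolynomial β ℂ) _ (C a) := by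
        change _ = Ideal.Quotient.mk 𝔭 (rename Sum.inr (C a))
        rw [rename_C]
      rw [this]
      exact isAlgebraic_algebraMap _
    | add f g hf hg => rw [map_add]; exact hf.add hg
    | mul_X f j hf =>
      rw [map_mul]
      refine hf.mul ?_
      rcases j with j | b
      · obtain ⟨q, hq0, hq⟩ := hA j
        refine ⟨q, hq0, hι ?_⟩
        rw [map_zero]
        exact (Polynomial.hom_eval₂ q φ ι' (Ideal.Quotient.mk 𝔭 (X (Sum.inl j)))).trans hq
      · have : Ideal.Quotient.mk 𝔭 (X (Sum.inr b)) = algebraMap (MvPolynomial β ℂ) _ (X b) := by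
          change _ = Ideal.Quotient.mk 𝔭 (rename Sum.inr (X b))
          rw [rename_X]
        rw [this]
        exact isAlgebraic_algebraMap _
  obtain ⟨h, h0, c, hc⟩ := (halg g).exists_nonzero_dvd
    (mem_nonZeroDivisors_of_ne_zero (by rwa [Ne, Ideal.Quotient.eq_zero_iff_mem]))
  obtain ⟨c, rfl⟩ := Ideal.Quotient.mk_surjective c
  exact ⟨h, c, h0, by rw [← Ideal.Quotient.eq, map_mul]; exact hc⟩

end Crest.Agent.R264.Fol
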