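import Crest.Agent.R264.GeoAlg

/-! Block Fol (owner helper79): polynomial functions with coefficients in `𝕜(I)`, Zariski tangent vectors. -/

set_option autoImplicit false
set_option linter.unusedSectionVars false
set_option linter.unusedVariables false
open Set Filter Topology MvPolynomial

namespace Crest.Agent.R264.Fol

variable {𝕜 𝕜' : Subfield ℝ} {E E' κ κ' : Type}

/-- complex numbers with real and imaginary part in `𝕜` -/
def cx (𝕜 : Subfield ℝ) : Subring ℂ where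
  carrier := {c | c.re ∈ 𝕜 ∧ c.im ∈ 𝕜}
  mul_mem' := fun {a b} ha hb =>
    ⟨by rw [Complex.mul_re]; exact sub_mem (mul_mem ha.1 hb.1) (mul_mem ha.2 hb.2),
      by rw [Complex.mul_im]; exact add_mem (mul_mem ha.1 hb.2) (mul_mem ha.2 hb.1)⟩
  one_mem' := ⟨one_mem 𝕜, zero_mem 𝕜⟩
  add_mem' := fun {a b} ha hb => ⟨add_mem ha.1 hb.1, add_mem ha.2 hb.2⟩
  zero_mem' := ⟨zero_mem 𝕜, zero_mem 𝕜⟩
  neg_mem' := fun {a} ha => ⟨neg_mem ha.1, neg_mem ha.2⟩

/-- polynomials in the functions `x k` with coefficients in `cx 𝕜` -/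
def Pol (𝕜 : Subfield ℝ) (x : κ → E → ℂ) : Subring (E → ℂ) :=
  Subring.closure ({f | ∃ c ∈ cx 𝕜, f = fun _ => c} ∪ range x)

/-- real coordinates, as complex functions -/
def cf (ξ : E → κ → ℝ) : κ → E → ℂ := fun k e => (ξ e k : ℂ)

/-- Zariski tangent vectors -/
def ZT [Fintype κ] (𝕜 : Subfield ℝ) (q v : κ → ℝ) : Prop :=
  ∀ f : MvPolynomial κ 𝕜, aeval q f = 0 → ∑ i, aeval q (pderiv i f) * v i = 0

/-! ### part a -/

theorem cx_ofReal {r : ℝ} (h : r ∈ 𝕜) : (r : ℂ) ∈ cx 𝕜 := ⟨h, zero_mem 𝕜⟩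

theorem cx_I : Complex.I ∈ cx 𝕜 := ⟨zero_mem 𝕜, one_mem 𝕜⟩

theorem cx_top (c : ℂ) : c ∈ cx ⊤ := ⟨trivial, trivial⟩

theorem cx_half : (2⁻¹ : ℂ) ∈ cx 𝕜 := by
  have h : (2⁻¹ : ℂ) = ((2⁻¹ : ℝ) : ℂ) := by push_cast; rfl
  rw [h]
  exact cx_ofReal (inv_mem (by exact_mod_cast natCast_mem 𝕜 2))

theorem Pol.const {x : κ → E → ℂ} {c : ℂ} (h : c ∈ cx 𝕜) : (fun _ => c) ∈ Pol 𝕜 x :=
  Subring.subset_closure (Or.inl ⟨c, h, rfl⟩)

theorem Pol.coord (x : κ → E → ℂ) (k : κ) : x k ∈ Pol 𝕜 x := Subring.subset_closure (Or.inr ⟨k, rfl⟩)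

theorem Pol.add {x : κ → E → ℂ} {f g : E → ℂ} (hf : f ∈ Pol 𝕜 x) (hg : g ∈ Pol 𝕜 x) :
    (fun e => f e + g e) ∈ Pol 𝕜 x := add_mem hf hg

theorem Pol.sub {x : κ → E → ℂ} {f g : E → ℂ} (hf : f ∈ Pol 𝕜 x) (hg : g ∈ Pol 𝕜 x) :
    (fun e => f e - g e) ∈ Pol 𝕜 x := sub_mem hf hg

theorem Pol.mul {x : κ → E → ℂ} {f g : E → ℂ} (hf : f ∈ Pol 𝕜 x) (hg : g ∈ Pol 𝕜 x) :
    (fun e => f e * g e) ∈ Pol 𝕜 x := mul_mem hf hg

/-- `Subring.closure_induction` -/
theorem Pol.comp {x : κ → E → ℂ} {x' : κ' → E' → ℂ} {f : E → ℂ} (hf : f ∈ Pol 𝕜 x) (h : 𝕜 ≤ 𝕜') (φ : E' → E)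
    (hx : ∀ k, (fun e' => x k (φ e')) ∈ Pol 𝕜' x') : (fun e' => f (φ e')) ∈ Pol 𝕜' x' := by
  induction hf using Subring.closure_induction with
  | mem g hg =>
    rcases hg with ⟨c, hc, rfl⟩ | ⟨k, rfl⟩
    · exact Pol.const ⟨h hc.1, h hc.2⟩
    · exact hx k
  | zero => exact zero_mem _
  | one => exact one_mem _
  | add g g' _ _ hg hg' => exact add_mem hg hg'
  | neg g _ hg => exact neg_mem hg
  | mul g g' _ _ hg hg' => exact mul_mem hg hg'

theorem Pol.aeval {x : κ → E → ℂ} (F : MvPolynomial κ 𝕜) : (fun e => aeval (fun k => x k e) F) ∈ Pol 𝕜 x := by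
  induction F using MvPolynomial.induction_on with
  | C a =>
    simp only [aeval_C]
    exact Pol.const (cx_ofReal a.2)
  | add f g hf hg =>
    simp only [map_add]
    exact Pol.add hf hg
  | mul_X f j hf =>
    simp only [map_mul, aeval_X]
    exact Pol.mul hf (Pol.coord x j)

theorem Pol.decomp {x : κ → E → ℂ} {f : E → ℂ} (hf : f ∈ Pol 𝕜 x) : ∃ f₁ f₂ : MvPolynomial κ 𝕜,
    ∀ e, f e = MvPolynomial.aeval (fun k => x k e) f₁ + Complex.I * MvPolynomial.aeval (fun k => x k e) f₂ := by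
  induction hf using Subring.closure_induction with
  | mem g hg =>
    rcases hg with ⟨c, hc, rfl⟩ | ⟨k, rfl⟩
    · refine ⟨C ⟨c.re, hc.1⟩, C ⟨c.im, hc.2⟩, fun e => ?_⟩
      simp only [aeval_C]
      show c = (c.re : ℂ) + Complex.I * (c.im : ℂ)
      rw [mul_comm, Complex.re_add_im]
    · exact ⟨X k, 0, fun e => by simp⟩
  | zero => exact ⟨0, 0, fun e => by simp⟩
  | one => exact ⟨1, 0, fun e => by simp⟩
  | add g g' _ _ hg hg' =>
    obtain ⟨a, b, h⟩ := hg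
    obtain ⟨a', b', h'⟩ := hg'
    exact ⟨a + a', b + b', fun e => by simp only [Pi.add_apply, h, h', map_add]; ring⟩
  | neg g _ hg =>
    obtain ⟨a, b, h⟩ := hg
    exact ⟨-a, -b, fun e => by simp only [Pi.neg_apply, h, map_neg]; ring⟩
  | mul g g' _ _ hg hg' =>
    obtain ⟨a, b, h⟩ := hg
    obtain ⟨a', b', h'⟩ := hg'
    refine ⟨a * a' - b * b', a * b' + b * a', fun e => ?_⟩
    simp only [Pi.mul_apply, h, h', map_add, map_sub, map_mul]
    linear_combination (MvPolynomial.aeval (fun k => x k e) b * MvPolynomial.aeval (fun k => x k e) b') *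
      Complex.I_mul_I

theorem aeval_ofReal (q : κ → ℝ) (F : MvPolynomial κ 𝕜) :
    aeval (fun k => (q k : ℂ)) F = ((aeval q F : ℝ) : ℂ) := by
  induction F using MvPolynomial.induction_on with
  | C a => simp only [aeval_C]; rfl
  | add f g hf hg => simp only [map_add, hf, hg, Complex.ofReal_add]
  | mul_X f j hf => simp only [map_mul, aeval_X, hf, Complex.ofReal_mul]

theorem Pol.re_im {ξ : E → κ → ℝ} {f : E → ℂ} (hf : f ∈ Pol 𝕜 (cf ξ)) : ∃ f₁ f₂ : MvPolynomial κ 𝕜,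
    ∀ e, (f e).re = MvPolynomial.aeval (ξ e) f₁ ∧ (f e).im = MvPolynomial.aeval (ξ e) f₂ := by
  obtain ⟨f₁, f₂, h⟩ := Pol.decomp hf
  refine ⟨f₁, f₂, fun e => ?_⟩
  have h1 := h e
  simp only [cf] at h1
  rw [aeval_ofReal, aeval_ofReal] at h1
  rw [h1]
  simp

theorem Pol.cpoly {x : κ → E → ℂ} {f : E → ℂ} (hf : f ∈ Pol 𝕜 x) :
    ∃ F : MvPolynomial κ ℂ, ∀ e, f e = eval (fun k => x k e) F := by
  obtain ⟨f₁, f₂, h⟩ := Pol.decomp hf
  refine ⟨MvPolynomial.map (algebraMap 𝕜 ℂ) f₁ + C Complex.I * MvPolynomial.map (algebraMap 𝕜 ℂ) f₂, fun e => ?_⟩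
  rw [h e, map_add, map_mul, eval_C, eval_map, eval_map, aeval_def, aeval_def]

/-- if the coordinates are linear, polynomial functions are analytic and closed under directional derivatives
(`Subring.closure_induction` for the conjunction) -/
theorem Pol.fderiv {𝕃 : Type} [RCLike 𝕃] [NormedAlgebra 𝕃 ℂ] [NormedAddCommGroup E] [NormedSpace 𝕃 E]
    {x : κ → E → ℂ} (hx : ∀ k, ∃ ℓ : E →L[𝕃] ℂ, ∀ e, x k e = ℓ e) {f : E → ℂ} (hf : f ∈ Pol 𝕜 x) :
    (∀ e, AnalyticAt 𝕃 f e) ∧ ∀ v, (∀ k, x k v ∈ cx 𝕜) → (fun e => fderiv 𝕃 f e v) ∈ Pol 𝕜 x := by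
  induction hf using Subring.closure_induction with
  | mem g hg =>
    rcases hg with ⟨c, hc, rfl⟩ | ⟨k, rfl⟩
    · refine ⟨fun e => analyticAt_const, fun v hv => ?_⟩
      simp only [fderiv_fun_const, Pi.zero_apply, zero_apply]
      exact zero_mem _
    · obtain ⟨ℓ, hℓ⟩ := hx k
      have h1 : x k = ℓ := funext hℓ
      refine ⟨fun e => by rw [h1]; exact ℓ.analyticAt e, fun v hv => ?_⟩
      have h2 := hv k
      rw [h1] at h2 ⊢
      simp only [ContinuousLinearMap.fderiv]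
      exact Pol.const h2
  | zero =>
    refine ⟨fun e => analyticAt_const, fun v hv => ?_⟩
    simp only [fderiv_zero, Pi.zero_apply, zero_apply]
    exact zero_mem _
  | one =>
    refine ⟨fun e => analyticAt_const, fun v hv => ?_⟩
    simp only [fderiv_one, Pi.zero_apply, zero_apply]
    exact zero_mem _
  | add g g' _ _ hg hg' =>
    refine ⟨fun e => (hg.1 e).add (hg'.1 e), fun v hv => ?_⟩
    have : (fun e => _root_.fderiv 𝕃 (g + g') e v) =
        fun e => _root_.fderiv 𝕃 g e v + _root_.fderiv 𝕃 g' e v := by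
      funext e
      rw [fderiv_add (hg.1 e).differentiableAt (hg'.1 e).differentiableAt]; rfl
    rw [this]
    exact Pol.add (hg.2 v hv) (hg'.2 v hv)
  | neg g _ hg =>
    refine ⟨fun e => (hg.1 e).neg, fun v hv => ?_⟩
    have : (fun e => _root_.fderiv 𝕃 (-g) e v) = -fun e => _root_.fderiv 𝕃 g e v := by
      funext e
      rw [fderiv_neg]; rfl
    rw [this]
    exact neg_mem (hg.2 v hv)
  | mul g g' h1 h2 hg hg' =>
    refine ⟨fun e => (hg.1 e).mul (hg'.1 e), fun v hv => ?_⟩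
    have : (fun e => _root_.fderiv 𝕃 (g * g') e v) =
        fun e => g e * _root_.fderiv 𝕃 g' e v + g' e * _root_.fderiv 𝕃 g e v := by
      funext e
      rw [fderiv_mul (hg.1 e).differentiableAt (hg'.1 e).differentiableAt]; rfl
    rw [this]
    exact Pol.add (Pol.mul h1 (hg'.2 v hv)) (Pol.mul h2 (hg.2 v hv))

/-- a function vanishing at a point `e₀` with real coordinates `q`, `IS {q} = (R)`, vanishes on `{R = 0}` -/
theorem Pol.div {x : κ → E → ℂ} {f : E → ℂ} (hf : f ∈ Pol 𝕜 x) {e₀ : E} {q : κ → ℝ} (hq : ∀ k, x k e₀ = q k)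
    {R : MvPolynomial κ 𝕜} (hI : ∀ F : MvPolynomial κ 𝕜, MvPolynomial.aeval q F = 0 → R ∣ F) (h0 : f e₀ = 0) {e : E}
    (he : MvPolynomial.aeval (fun k => x k e) R = 0) : f e = 0 := by
  obtain ⟨f₁, f₂, h⟩ := Pol.decomp hf
  have h1 := h e₀
  simp only [hq] at h1
  rw [aeval_ofReal, aeval_ofReal, h0] at h1
  have h2 : MvPolynomial.aeval q f₁ = 0 := by simpa using (congrArg Complex.re h1).symm
  have h3 : MvPolynomial.aeval q f₂ = 0 := by simpa using (congrArg Complex.im h1).symm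
  obtain ⟨a, rfl⟩ := hI f₁ h2
  obtain ⟨b, rfl⟩ := hI f₂ h3
  rw [h e, map_mul, map_mul, he]
  simp

theorem Pol.zero_of_ZS {ξ : E → κ → ℝ} {f : E → ℂ} (hf : f ∈ Pol 𝕜 (cf ξ)) {S : Set E} (h0 : ∀ e ∈ S, f e = 0)
    {e : E} (he : ξ e ∈ ZS (IS 𝕜 (ξ '' S))) : f e = 0 := by
  obtain ⟨f₁, f₂, h⟩ := Pol.re_im hf
  apply Complex.ext
  · rw [(h e).1]
    refine he f₁ ?_
    rintro _ ⟨s, hs, rfl⟩
    rw [← (h s).1, h0 s hs]; rfl
  · rw [(h e).2]
    refine he f₂ ?_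
    rintro _ ⟨s, hs, rfl⟩
    rw [← (h s).2, h0 s hs]; rfl

/-- `Pol.re_im`, `fderiv_aeval`, chain rule -/
theorem Pol.tan [Fintype κ] [NormedAddCommGroup E] [NormedSpace ℝ E] {ξ : E → κ → ℝ} {f : E → ℂ}
    (hf : f ∈ Pol 𝕜 (cf ξ)) {e₀ : E} {ξ' : E →L[ℝ] κ → ℝ} (hξ : HasFDerivAt ξ ξ' e₀) (h0 : f e₀ = 0) {v : E}
    (hv : ZT 𝕜 (ξ e₀) (ξ' v)) : _root_.fderiv ℝ f e₀ v = 0 := by
  classical
  obtain ⟨f₁, f₂, h⟩ := Pol.re_im hf
  have key : ∀ F : MvPolynomial κ 𝕜, ∃ D : E →L[ℝ] ℝ, HasFDerivAt (fun e => MvPolynomial.aeval (ξ e) F) D e₀ ∧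
      (MvPolynomial.aeval (ξ e₀) F = 0 → D v = 0) := by
    intro F
    have h1 := ((analytic_aeval F (ξ e₀) (mem_univ _)).differentiableAt.hasFDerivAt).comp e₀ hξ
    refine ⟨_, h1, fun hF => ?_⟩
    rw [ContinuousLinearMap.comp_apply, fderiv_aeval]
    exact hv F hF
  obtain ⟨D₁, hD₁, hz₁⟩ := key f₁
  obtain ⟨D₂, hD₂, hz₂⟩ := key f₂
  have hfe : f = fun e => Complex.ofRealCLM (MvPolynomial.aeval (ξ e) f₁) +
      Complex.I * Complex.ofRealCLM (MvPolynomial.aeval (ξ e) f₂) := by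
    funext e
    rw [← (h e).1, ← (h e).2, Complex.ofRealCLM_apply, Complex.ofRealCLM_apply, mul_comm, Complex.re_add_im]
  have hd := (Complex.ofRealCLM.hasFDerivAt.comp e₀ hD₁).add
    ((Complex.ofRealCLM.hasFDerivAt.comp e₀ hD₂).const_mul Complex.I)
  have hd' : HasFDerivAt f (Complex.ofRealCLM ∘L D₁ + Complex.I • Complex.ofRealCLM ∘L D₂) e₀ := by
    rw [hfe]; exact hd
  rw [hd'.fderiv]
  have q1 := hz₁ (by rw [← (h e₀).1, h0]; rfl)
  have q2 := hz₂ (by rw [← (h e₀).2, h0]; rfl)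
  simp [q1, q2]

/-- Gram determinant: `N` = real matrix of real and imaginary parts, `F = det (Nᵀ * N)`
(`Matrix.exists_mulVec_eq_zero_iff`, `RingHom.map_det`/`AlgHom.map_det`) -/
theorem Pol.inj {ι J : Type} [Fintype ι] [DecidableEq ι] [Fintype J] {ξ : E → κ → ℝ}
    {M : E → (ι → ℝ) →ₗ[ℝ] (J → ℂ)} (h : ∀ i j, (fun e => M e (Pi.single i 1) j) ∈ Pol 𝕜 (cf ξ)) :
    ∃ F : MvPolynomial κ 𝕜, ∀ e, (∀ v, M e v = 0 → v = 0) ↔ MvPolynomial.aeval (ξ e) F ≠ 0 := by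
  classical
  choose f₁ f₂ hf using fun i j => Pol.re_im (h i j)
  let Np : Matrix (J ⊕ J) ι (MvPolynomial κ 𝕜) := Matrix.of fun r i => Sum.elim (fun j => f₁ i j) (fun j => f₂ i j) r
  refine ⟨(Np.transpose * Np).det, fun e => ?_⟩
  set N : Matrix (J ⊕ J) ι ℝ := Np.map (MvPolynomial.aeval (ξ e)) with hN
  have h1 : MvPolynomial.aeval (ξ e) (Np.transpose * Np).det = (N.transpose * N).det := by
    rw [AlgHom.map_det, hN]
    congr 1
    ext i j
    simp [Matrix.mul_apply]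
  have h2 : ∀ v, M e v = 0 ↔ N.mulVec v = 0 := by
    intro v
    have hv : M e v = ∑ i, v i • M e (Pi.single i 1) := by
      conv_lhs => rw [pi_eq_sum_univ' v]
      simp only [map_sum, map_smul]
    have hre : ∀ j, (M e v j).re = N.mulVec v (Sum.inl j) := by
      intro j
      rw [hv]
      simp only [Finset.sum_apply, Pi.smul_apply, Complex.re_sum, Complex.smul_re, smul_eq_mul, Matrix.mulVec,
        dotProduct, hN, Np, Matrix.map_apply, Matrix.of_apply, Sum.elim_inl, (hf _ j e).1, mul_comm]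
    have him : ∀ j, (M e v j).im = N.mulVec v (Sum.inr j) := by
      intro j
      rw [hv]
      simp only [Finset.sum_apply, Pi.smul_apply, Complex.im_sum, Complex.smul_im, smul_eq_mul, Matrix.mulVec,
        dotProduct, hN, Np, Matrix.map_apply, Matrix.of_apply, Sum.elim_inr, (hf _ j e).2, mul_comm]
    constructor
    · intro h0
      funext r
      rcases r with j | j
      · rw [← hre, h0]; rfl
      · rw [← him, h0]; rfl
    · intro h0
      funext j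
      apply Complex.ext
      · rw [hre, h0]; rfl
      · rw [him, h0]; rfl
  have h3 : ∀ v, (N.transpose * N).mulVec v = 0 ↔ N.mulVec v = 0 := by
    intro v
    have := Matrix.conjTranspose_mul_self_mulVec_eq_zero N v
    rwa [Matrix.conjTranspose_eq_transpose_of_trivial] at this
  rw [h1, Ne, ← Matrix.exists_mulVec_eq_zero_iff]
  constructor
  · rintro hi ⟨v, hv, h0⟩
    exact hv (hi v ((h2 v).2 ((h3 v).1 h0)))
  · intro hn v h0
    by_contra hv
    exact hn ⟨v, hv, (h3 v).2 ((h2 v).1 h0)⟩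

theorem fderiv_eval [Fintype κ] [DecidableEq κ] (F : MvPolynomial κ ℂ) (q v : κ → ℂ) :
    AnalyticAt ℂ (fun q : κ → ℂ => eval q F) q ∧
      _root_.fderiv ℂ (fun q : κ → ℂ => eval q F) q v = ∑ i, eval q (pderiv i F) * v i := by
  refine ⟨AnalyticOnNhd.eval_mvPolynomial F q (mem_univ _), ?_⟩
  have key : ∃ D : (κ → ℂ) →L[ℂ] ℂ, HasFDerivAt (fun q : κ → ℂ => eval q F) D q ∧
      D v = ∑ i, eval q (pderiv i F) * v i := by
    induction F using MvPolynomial.induction_on with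
    | C a => exact ⟨0, by simp only [eval_C]; exact hasFDerivAt_const a q, by simp⟩
    | add f g hf hg =>
      obtain ⟨D, h1, h2⟩ := hf
      obtain ⟨D', h1', h2'⟩ := hg
      refine ⟨D + D', by simp only [map_add]; exact h1.add h1', ?_⟩
      simp only [add_apply, h2, h2', map_add, add_mul, Finset.sum_add_distrib]
    | mul_X f j hf =>
      obtain ⟨D, h1, h2⟩ := hf
      refine ⟨_, by simp only [map_mul, eval_X]; exact h1.mul (hasFDerivAt_apply j q), ?_⟩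
      simp [h2, pderiv_X, Pi.single_apply, Finset.sum_add_distrib, add_mul, Finset.mul_sum, apply_ite, mul_assoc]
  obtain ⟨D, h1, h2⟩ := key
  rw [h1.fderiv, h2]

/-! ### part b: tangent vectors and transcendence degree -/

/-! ### part b: tangent vectors and transcendence degree -/

theorem td_le_of_tan_comp [Fintype κ] [Fintype κ'] [DecidableEq κ] [DecidableEq κ'] {q v : κ → ℝ}
    (h : ZT 𝕜 q v) {g : κ' → κ} (hg : Function.Injective g) : ZT 𝕜 (q ∘ g) (v ∘ g) := fun f hf => by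
  rw [← h (rename g f) (by rwa [aeval_rename])]
  refine Fintype.sum_of_injective g hg _ _ (fun j hj => ?_) fun i => ?_
  · rw [pderiv_eq_zero_of_notMem_vars fun h => hj (let ⟨i, _, e⟩ := mem_vars_rename _ _ h; ⟨i, e⟩)]
    simp
  · rw [pderiv_rename hg, aeval_rename]; rfl

/-- Let `𝕜' = adj 𝕜 (q ∘ e)`.  If a basis `B` of `q` over `𝕜'` (`exists_basis`) is nonempty, `tangent_surj` gives a nonzero
`v` tangent over `𝕜'`; test on `X (e i) - C (q (e i))` and on images of polynomials over `𝕜`.  So `td 𝕜' q = 0`; `td_tower`,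
`td_comp_le`. -/
theorem td_le_of_tan [Fintype κ] [Fintype κ'] [DecidableEq κ] [DecidableEq κ'] {q : κ → ℝ} (e : κ' → κ)
    (h : ∀ v, ZT 𝕜 q v → (∀ i, v (e i) = 0) → v = 0) : td 𝕜 q ≤ td 𝕜 (q ∘ e) := by
  obtain ⟨B, -, h1, h2, -⟩ := tdb_basis (adj 𝕜 (q ∘ e)) q (S := ∅) algebraicIndependent_empty_type
  obtain ⟨v, hv1, hv2⟩ := tangent_surj (q := q) (S := B) h2 fun _ => 1
  have key : ∀ f : MvPolynomial κ 𝕜, aeval q (map (Subfield.inclusion (le_adj 𝕜 (q ∘ e))) f) = aeval q f :=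
    fun f => by rw [aeval_eq_eval_map, aeval_eq_eval_map, MvPolynomial.map_map]; rfl
  have h0 := h v (fun f hf => by simpa only [pderiv_map, key] using hv2 _ ((key f).trans hf)) fun i => by
    have := hv2 (X (e i) - C ⟨q (e i), mem_adj 𝕜 (q ∘ e) i⟩) (by simp [sub_eq_zero]; rfl)
    simp only [map_sub, pderiv_C, sub_zero] at this
    simpa [pderiv_X, Pi.single_apply, apply_ite] using this
  have hB : B = ∅ := Finset.eq_empty_of_forall_notMem fun i hi => by simpa [h0] using hv1 i hi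
  have h3 := td_tower 𝕜 (q ∘ e) q
  rw [← h1, hB, Finset.card_empty, add_zero] at h3
  exact h3 ▸ td_comp_le (Sum.elim (q ∘ e) q) Sum.inr

/-- A basis `B` of `q₁` misses exactly one coordinate `i₁`, and `pderiv i₁ R ≠ 0` at `q₁` (`tangent_surj` at `q₁`).
`tangent_surj` at `Sum.elim q₁ q₂` with `S = inl '' B`. -/
theorem tan_ext [Fintype κ] [Fintype κ'] [DecidableEq κ] [DecidableEq κ'] {q₁ v₁ : κ → ℝ} (q₂ : κ' → ℝ)
    (htd : td 𝕜 q₁ + 1 = Fintype.card κ) {R : MvPolynomial κ 𝕜} (h0 : aeval q₁ R = 0)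
    (hd : ∃ i, aeval q₁ (pderiv i R) ≠ 0) (hv : ∑ i, aeval q₁ (pderiv i R) * v₁ i = 0) :
    ∃ v₂ : κ' → ℝ, ZT 𝕜 (Sum.elim q₁ q₂) (Sum.elim v₁ v₂) := by
  obtain ⟨B, -, h1, h2, -⟩ := tdb_basis 𝕜 q₁ (S := ∅) algebraicIndependent_empty_type
  obtain ⟨i₁, hi₁⟩ := Finset.card_eq_one.1 (show Bᶜ.card = 1 by rw [Finset.card_compl]; omega)
  have hB : ∀ i, i ≠ i₁ → i ∈ B := fun i hi => by_contra fun h =>
    hi (Finset.mem_singleton.1 (hi₁ ▸ Finset.mem_compl.2 h))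
  have ha : aeval q₁ (pderiv i₁ R) ≠ 0 := fun ha => by
    obtain ⟨i, hi⟩ := hd
    obtain ⟨v, hv1, hv2⟩ := tangent_surj (S := B) h2 (Pi.single i 1)
    have := hv2 R h0
    rw [Finset.sum_eq_single i (fun j _ hj => by
      by_cases e : j = i₁
      · rw [e, ha, zero_mul]
      · rw [hv1 j (hB j e), Pi.single_eq_of_ne hj, mul_zero]) (by simp),
      hv1 i (hB i fun e => hi (e ▸ ha)), Pi.single_eq_same, mul_one] at this
    exact hi this
  obtain ⟨v, hv1, hv2⟩ := tangent_surj (q := Sum.elim q₁ q₂) (S := Sum.inl '' (B : Set κ))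
    (AlgebraicIndependent.image_of_comp _ _ _ h2) (Sum.elim v₁ 0)
  have h3 := td_le_of_tan_comp hv2 Sum.inl_injective R h0
  have h4 : ∀ i, i ≠ i₁ → v (Sum.inl i) = v₁ i := fun i hi => hv1 _ ⟨i, hB i hi, rfl⟩
  have h5 : ∑ i, aeval q₁ (pderiv i R) * (v (Sum.inl i) - v₁ i) = 0 := by
    simp only [mul_sub, Finset.sum_sub_distrib, hv, sub_zero]
    exact h3
  rw [Finset.sum_eq_single i₁ (fun j _ hj => by rw [h4 j hj, sub_self, mul_zero]) (by simp)] at h5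
  refine ⟨v ∘ Sum.inr, ?_⟩
  rwa [show Sum.elim v₁ (v ∘ Sum.inr) = v from funext fun i => by
    rcases i with i | i
    · by_cases e : i = i₁
      · exact e ▸ (sub_eq_zero.1 ((mul_eq_zero.1 h5).resolve_left ha)).symm
      · exact (h4 i e).symm
    · rfl]

theorem ZT.right [Fintype κ] [Fintype κ'] [DecidableEq κ] [DecidableEq κ'] {q₁ v₁ : κ → ℝ} {q₂ v₂ : κ' → ℝ}
    (h : ZT 𝕜 (Sum.elim q₁ q₂) (Sum.elim v₁ v₂)) : ZT 𝕜 q₂ v₂ := by
  exact td_le_of_tan_comp h Sum.inr_injective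

end Crest.Agent.R264.Fol
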