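import Crest.Agent.R264.Fol.Gen
import Crest.Agent.R264.Fol.Pol
import Crest.Agent.R264.Fol.LA

/-!
# Block Fol (owner helper79): definitions.  FROZEN.

`RR (z, ω)` is the polarisation of `R`, `mm`, `nn` its partial derivatives in `z`, `ω`, `HH` its second derivative,
`D = nn e0`, `Gm = (RR, nn (0, e_a, 0)) / D`.  For `c` in the slice `t = p.t` the leaf through `c` is
`{z | Gm (z, star c) = Gm (c, star c)}`; `Fm z (s, τ)` is its point over `τ` near `z`.  `S` is the regular part of the leaf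
through `p`, `r z (Fm z (s, τ)) = R (c s)`.
-/

set_option autoImplicit false
set_option linter.unusedSectionVars false
set_option linter.unusedVariables false
open Set Filter Topology MvPolynomial Complex

namespace Crest.Agent.R264.Fol

noncomputable section

/-- complexified real coordinates -/
def xy {ι : Type} (p : (ι → ℂ) × (ι → ℂ)) : ι ⊕ ι → ℂ :=
  Sum.elim (fun i => 2⁻¹ * (p.1 i + p.2 i)) (fun i => -I * (2⁻¹ * (p.1 i - p.2 i)))

/-- polarisation -/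
def RRi {ι : Type} {𝕜 : Subfield ℝ} (R : MvPolynomial (ι ⊕ ι) 𝕜) (p : (ι → ℂ) × (ι → ℂ)) : ℂ := aeval (xy p) R

variable {A B : Type} [Fintype A] [Fintype B] [DecidableEq A] [DecidableEq B] {𝕜 : Subfield ℝ}

/-- coordinates of `Vt A` -/
def fv (v : Vt A) : Option A → ℂ := fun o => o.elim v.1 v.2

/-- coordinate vectors -/
def bs : Option A ⊕ B → Amb A B :=
  Sum.elim (fun o => o.elim (1, 0, 0) fun a => (0, Pi.single a 1, 0)) fun b => (0, 0, Pi.single b 1)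

/-- complexified real coordinates on `Amb × Amb` -/
def xa (A B : Type) : (Option A ⊕ B) ⊕ (Option A ⊕ B) → Amb A B × Amb A B → ℂ := fun k p => xy (fu p.1, fu p.2) k

/-- real coordinates on `Amb × Amb` -/
def rb (x : Amb A B × Amb A B) :
    ((Option A ⊕ B) ⊕ (Option A ⊕ B)) ⊕ ((Option A ⊕ B) ⊕ (Option A ⊕ B)) → ℝ := Sum.elim (ra x.1) (ra x.2)

/-- a hypersurface and a point -/
structure Lv (𝕜 : Subfield ℝ) (A B : Type) where
  R : MvPolynomial ((Option A ⊕ B) ⊕ (Option A ⊕ B)) 𝕜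
  p : Amb A B

namespace Lv

variable (L : Lv 𝕜 A B)

def RR (x : Amb A B × Amb A B) : ℂ := RRi L.R (fu x.1, fu x.2)
def Rr (z : Amb A B) : ℝ := aeval (ra z) L.R
def mm (x : Amb A B × Amb A B) : Amb A B →L[ℂ] ℂ := (fderiv ℂ L.RR x).comp (ContinuousLinearMap.inl ℂ _ _)
def nn (x : Amb A B × Amb A B) : Amb A B →L[ℂ] ℂ := (fderiv ℂ L.RR x).comp (ContinuousLinearMap.inr ℂ _ _)
def HH (x : Amb A B × Amb A B) : Amb A B × Amb A B →L[ℂ] Amb A B × Amb A B →L[ℂ] ℂ := fderiv ℂ (fderiv ℂ L.RR) x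
def D (x : Amb A B × Amb A B) : ℂ := L.nn x (1, 0, 0)
def Ds (x : Amb A B × Amb A B) : ℂ := L.mm x (1, 0, 0)
def Pn (x : Amb A B × Amb A B) : Vt A := (L.RR x, fun a => L.nn x (0, Pi.single a 1, 0))
def Ps (x : Amb A B × Amb A B) : Vt A := (L.RR x, fun a => L.mm x (0, Pi.single a 1, 0))
def Gm (x : Amb A B × Amb A B) : Vt A := (L.D x)⁻¹ • L.Pn x
def Gs (x : Amb A B × Amb A B) : Vt A := (L.Ds x)⁻¹ • L.Ps x
/-- numerator of the `z`-derivative of `nn y / D` -/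
def lm (y : Amb A B) (x : Amb A B × Amb A B) (v : Amb A B) : ℂ :=
  L.D x * L.HH x (v, 0) (0, y) - L.nn x y * L.HH x (v, 0) (0, (1, 0, 0))
def ph : Amb A B × Amb A B := (L.p, star L.p)
def s0 : Vt A := vt L.p
/-- the slice -/
def c (s : Vt A) : Amb A B := (s.1, s.2, L.p.2.2)
def rho (s : Vt A) : ℝ := L.Rr (L.c s)

structure OK : Prop where
  h0 : aeval (ra L.p) L.R = 0
  hI : ∀ f : MvPolynomial _ 𝕜, aeval (ra L.p) f = 0 → L.R ∣ f
  htd : td 𝕜 (ra L.p) + 1 = 2 * Fintype.card (Option A ⊕ B)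
  hD : L.D L.ph ≠ 0
  hK : ∀ v : Amb A B, L.mm L.ph v = 0 → (∀ a, L.lm (0, Pi.single a 1, 0) L.ph v = 0) →
    (v.2.2 = 0 → v = 0) ∧ ∀ b, L.lm (0, 0, Pi.single b 1) L.ph v = 0

/-- the regular part of the leaf through `p` -/
def S : Set (Amb A B) := {z | L.Gm (z, star L.p) = L.Gm L.ph ∧ L.D (z, star L.p) ≠ 0 ∧ L.Ds (z, star L.p) ≠ 0 ∧
  ∀ v : Vt A, fderiv ℂ L.Gm (z, star L.p) (iv v, 0) = 0 → v = 0}

def Zs : Set (Amb A B) := connectedComponentIn L.S L.p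

structure IsZf (z : Amb A B) (Z : Amb A B × Vt A × (B → ℂ) → Amb A B) : Prop where
  an : AnalyticAt ℂ Z (star L.p, L.Gm L.ph, z.2.2)
  right : ∀ᶠ x in 𝓝 (star L.p, L.Gm L.ph, z.2.2), L.Gm (Z x, x.1) = x.2.1 ∧ (Z x).2.2 = x.2.2
  left : ∀ᶠ q in 𝓝 (z, star L.p), Z (q.2, L.Gm q, q.1.2.2) = q.1

def Zf (z : Amb A B) : Amb A B × Vt A × (B → ℂ) → Amb A B := Classical.epsilon (L.IsZf z)

def lam (x : Vt A × (B → ℂ)) : Amb A B × Vt A × (B → ℂ) :=
  (star (L.c x.1), L.Gm (L.c x.1, star (L.c x.1)), x.2)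

/-- the family of leaves near `z` -/
def Fm (z : Amb A B) (x : Vt A × (B → ℂ)) : Amb A B := L.Zf z (L.lam x)
def b (z : Amb A B) (τ : B → ℂ) : Amb A B := L.Fm z (L.s0, τ)
def DF (z : Amb A B) : Vt A × (B → ℂ) →L[ℝ] Amb A B := fderiv ℝ (L.Fm z) (L.s0, z.2.2)
def dF (z : Amb A B) (x : Vt A) : Vt A := vt (L.DF z (x, 0))
def Nd (z : Amb A B) : Prop := ∀ x, L.dF z x = 0 → x = 0
def mu (z : Amb A B) : ℂ := L.D (z, star L.p) / L.D L.ph
def th (z : Amb A B) : Vt A →L[ℂ] ℂ := (2 * I / L.mu z) • (L.mm (z, star L.p)).comp iv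
/-- the lift to the kernel of `th z` -/
def lf (z : Amb A B) : (A → ℂ) →L[ℂ] Vt A :=
  ((-(L.th z (1, 0))⁻¹) • (L.th z).comp (ContinuousLinearMap.inr ℂ _ _)).prod (ContinuousLinearMap.id ℂ _)
def up (z : Amb A B) (x : Vt A) : Amb A B × Amb A B := (iv (L.dF z x), iv (star x))

/-- `up z ∘ lf p` -/
def upL (z : Amb A B) : (A → ℂ) →L[ℝ] Amb A B × Amb A B :=
  ((((iv.comp vt : Amb A B →L[ℂ] Amb A B).restrictScalars ℝ).comp
      ((L.DF z).comp (ContinuousLinearMap.inl ℝ _ _))).prod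
    (((iv : Vt A →L[ℂ] Amb A B).restrictScalars ℝ).comp (starL' ℝ : Vt A ≃L[ℝ] Vt A).toContinuousLinearMap)).comp
    ((L.lf L.p).restrictScalars ℝ)

theorem upL_apply (z : Amb A B) (a : A → ℂ) : L.upL z a = L.up z (L.lf L.p a) := rfl

def xi (z : Amb A B) : (A → ℂ) →L[ℝ] (A → ℂ) :=
  ((ContinuousLinearMap.fst ℝ _ _).comp ((ContinuousLinearMap.snd ℝ _ _).comp (ContinuousLinearMap.fst ℝ _ _))).comp
    (L.upL z)

theorem xi_apply (z : Amb A B) (a : A → ℂ) : L.xi z a = (L.dF z (L.lf L.p a)).2 := rfl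

def be (z : Amb A B) : (A → ℂ) →L[ℝ] ((A → ℂ) →L[ℂ] ℂ) :=
  ((((ContinuousLinearMap.compL ℂ (A → ℂ) (Amb A B × Amb A B) ℂ).flip
    ((ContinuousLinearMap.inl ℂ _ _).comp (iv.comp (L.lf z)))).comp
      ((-(2 * I / L.mu z)) • L.HH (z, star L.p))).restrictScalars ℝ).comp (L.upL z)

theorem be_apply (z : Amb A B) (a u : A → ℂ) :
    L.be z a u = -(2 * I / L.mu z) * L.HH (z, star L.p) (L.up z (L.lf L.p a)) (iv (L.lf z u), 0) := rfl

def lp : (A → ℂ) →L[ℝ] Amb A B × Amb A B :=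
  ((ContinuousLinearMap.inl ℂ _ _).comp (iv.comp (L.lf L.p))).restrictScalars ℝ

def lq : (A → ℂ) →L[ℝ] Amb A B × Amb A B :=
  (((ContinuousLinearMap.inr ℂ (Amb A B) _).comp iv).restrictScalars ℝ).comp
    ((starL' ℝ : Vt A ≃L[ℝ] Vt A).toContinuousLinearMap.comp ((L.lf L.p).restrictScalars ℝ))

def ka : (A → ℂ) →L[ℝ] (A → ℂ) →L[ℝ] ℝ :=
  LinearMap.toContinuousBilinearMap (LinearMap.mk₂ ℝ
    (fun a a' => 2 * (L.HH L.ph (L.lp a') (L.lq a)).im)
    (fun a₁ a₂ a' => by rw [map_add, map_add, add_im, mul_add])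
    (fun r a a' => by
      rw [map_smul, ContinuousLinearMap.map_smul_of_tower, Complex.real_smul, im_ofReal_mul, smul_eq_mul]; ring)
    (fun a a₁ a₂ => by rw [map_add, map_add, add_apply, add_im, mul_add])
    (fun r a a' => by
      rw [map_smul, ContinuousLinearMap.map_smul_of_tower, smul_apply, Complex.real_smul, im_ofReal_mul,
        smul_eq_mul]
      ring))

theorem ka_apply (a a' : A → ℂ) :
    L.ka a a' = 2 * (L.HH L.ph (iv (L.lf L.p a'), 0) (0, iv (star (L.lf L.p a)))).im := rfl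

def eta (z : Amb A B) : (A → ℂ) →L[ℝ] (A → ℂ) →L[ℝ] ℂ :=
  LinearMap.toContinuousBilinearMap (LinearMap.mk₂ ℝ
    (fun a a' => (L.be z a (L.xi z a') - (L.ka a a' : ℂ)) / 2)
    (fun a₁ a₂ a' => by simp only [map_add, add_apply]; push_cast; ring)
    (fun r a a' => by
      simp only [map_smul, smul_apply, smul_eq_mul, Complex.real_smul]; push_cast; ring)
    (fun a a₁ a₂ => by simp only [map_add]; push_cast; ring)
    (fun r a a' => by
      rw [map_smul, ContinuousLinearMap.map_smul_of_tower, map_smul]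
      simp only [smul_eq_mul, Complex.real_smul]; push_cast; ring))

theorem eta_apply (z : Amb A B) (a a' : A → ℂ) :
    L.eta z a a' = (L.be z a (L.xi z a') - (L.ka a a' : ℂ)) / 2 := rfl

structure IsInv (z : Amb A B) (σ : Amb A B → Vt A × (B → ℂ)) : Prop where
  an : AnalyticAt ℝ σ z
  left : ∀ᶠ x in 𝓝 (L.s0, z.2.2), σ (L.Fm z x) = x
  right : ∀ᶠ q in 𝓝 z, L.Fm z (σ q) = q

def sg (z : Amb A B) : Amb A B → Vt A × (B → ℂ) := Classical.epsilon (L.IsInv z)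
def r (z q : Amb A B) : ℝ := L.rho (L.sg z q).1

/-- the equations of the family: `x = (c, q)` -/
def Eh (x : Amb A B × Amb A B) : Vt A :=
  L.D (x.1, star x.1) • L.Pn (x.2, star x.1) - L.D (x.2, star x.1) • L.Pn (x.1, star x.1)

def geo (h : MvPolynomial B ℂ) (q : Amb A B) : Geo A B where
  p := q
  Eqs := {f | AnalyticOnNhd ℂ f univ ∧ ∀ z ∈ L.Zs, f z = 0}
  h0 := fun τ => eval τ h
  b := L.b
  th := L.th
  xi := L.xi
  eta := L.eta
  be := L.be
  ka := L.ka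
  r := L.r

end Lv

end

end Crest.Agent.R264.Fol
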