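import Crest.Agent.R264.GeoAlg

/-! Block Fol (owner helper79): generic analysis. -/

set_option autoImplicit false
set_option linter.unusedSectionVars false
set_option linter.unusedVariables false
open Set Filter Topology Metric Complex

namespace Crest.Agent.R264.Fol

/-- the vertical coordinates `(w, u)` -/
abbrev Vt (A : Type) := ℂ × (A → ℂ)

section Amb
variable {A B : Type} [Fintype A] [Fintype B]

/-- vertical vectors -/
noncomputable def iv : Vt A →L[ℂ] Amb A B :=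
  (ContinuousLinearMap.fst ℂ ℂ (A → ℂ)).prod ((ContinuousLinearMap.snd ℂ ℂ (A → ℂ)).prod 0)

/-- vertical part -/
noncomputable def vt : Amb A B →L[ℂ] Vt A :=
  (ContinuousLinearMap.fst ℂ ℂ _).prod ((ContinuousLinearMap.fst ℂ _ _).comp (ContinuousLinearMap.snd ℂ ℂ _))

theorem iv_apply (v : Vt A) : (iv v : Amb A B) = (v.1, v.2, 0) := rfl

theorem vt_apply (z : Amb A B) : vt z = (z.1, z.2.1) := rfl

theorem vt_iv (v : Vt A) : vt (iv v : Amb A B) = v := rfl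

theorem iv_vt {z : Amb A B} (h : z.2.2 = 0) : iv (vt z) = z := by
  rw [iv_apply, vt_apply, ← h]

theorem star_iv (v : Vt A) : star (iv v : Amb A B) = iv (star v) := by
  simp [iv_apply, Prod.star_def]

end Amb

/-! ### part a: inverse and implicit functions -/

/-- analytic inverse function theorem (`LinearMap.linearEquivOfInjective`, `ContDiffAt.to_localInverse` with `ω` or
`OpenPartialHomeomorph.analyticAt_symm'`) -/
theorem an_inv {𝕃 E F : Type} [RCLike 𝕃] [NormedAddCommGroup E] [NormedSpace 𝕃 E] [FiniteDimensional 𝕃 E]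
    [NormedAddCommGroup F] [NormedSpace 𝕃 F] [FiniteDimensional 𝕃 F] (hd : Module.finrank 𝕃 E = Module.finrank 𝕃 F)
    {f : E → F} {x : E} (hf : AnalyticAt 𝕃 f x) (hi : ∀ v, fderiv 𝕃 f x v = 0 → v = 0) :
    ∃ g : F → E, AnalyticAt 𝕃 g (f x) ∧ (∀ᶠ y in 𝓝 x, g (f y) = y) ∧ ∀ᶠ w in 𝓝 (f x), f (g w) = w := by
  have := FiniteDimensional.complete 𝕃 E
  have := FiniteDimensional.complete 𝕃 F
  have hinj : Function.Injective (fderiv 𝕃 f x : E →ₗ[𝕃] F) := by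
    rw [← LinearMap.ker_eq_bot, LinearMap.ker_eq_bot']
    exact hi
  let e : E ≃L[𝕃] F := (LinearMap.linearEquivOfInjective _ hinj hd).toContinuousLinearEquiv
  have he : (e : E →L[𝕃] F) = fderiv 𝕃 f x := by
    ext a
    rfl
  have h2 : HasStrictFDerivAt f (e : E →L[𝕃] F) x := by
    rw [he]
    exact hf.hasStrictFDerivAt
  refine ⟨h2.localInverse f e x, ?_, h2.eventually_left_inverse, h2.eventually_right_inverse⟩
  exact (h2.toOpenPartialHomeomorph _).analyticAt_symm' h2.mem_toOpenPartialHomeomorph_source hf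
    h2.hasFDerivAt.fderiv

/-- implicit functions on `Amb`: `an_inv` for `q ↦ (q.2, F q, q.1.2.2)` -/
theorem amb_ift {A B P : Type} [Fintype A] [Fintype B] [NormedAddCommGroup P] [NormedSpace ℂ P]
    [FiniteDimensional ℂ P] {F : Amb A B × P → Vt A} {z : Amb A B} {l : P} (hF : AnalyticAt ℂ F (z, l))
    (hi : ∀ v : Vt A, fderiv ℂ F (z, l) (iv v, 0) = 0 → v = 0) :
    ∃ Z : P × Vt A × (B → ℂ) → Amb A B, AnalyticAt ℂ Z (l, F (z, l), z.2.2) ∧
      (∀ᶠ x in 𝓝 (l, F (z, l), z.2.2), F (Z x, x.1) = x.2.1 ∧ (Z x).2.2 = x.2.2) ∧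
      ∀ᶠ q in 𝓝 (z, l), Z (q.2, F q, q.1.2.2) = q.1 := by
  let T : Amb A B × P →L[ℂ] (B → ℂ) :=
    (ContinuousLinearMap.snd ℂ _ _).comp ((ContinuousLinearMap.snd ℂ _ _).comp (ContinuousLinearMap.fst ℂ _ _))
  have an : AnalyticAt ℂ (fun q : Amb A B × P => (q.2, F q, T q)) (z, l) :=
    analyticAt_snd.prod (hF.prod (T.analyticAt _))
  have d : HasFDerivAt (fun q : Amb A B × P => (q.2, F q, T q)) _ (z, l) :=
    hasFDerivAt_snd.prodMk (hF.differentiableAt.hasFDerivAt.prodMk T.hasFDerivAt)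
  obtain ⟨g, g1, g2, g3⟩ := an_inv (by simp only [Module.finrank_prod]; omega) an fun v hv => by
    rw [d.fderiv] at hv
    have h1 : v.2 = 0 := congrArg Prod.fst hv
    have h2 : fderiv ℂ F (z, l) v = 0 := congrArg (fun w => w.2.1) hv
    have h3 : v.1.2.2 = 0 := congrArg (fun w => w.2.2) hv
    have e : v = (iv (vt v.1), 0) := Prod.ext (iv_vt h3).symm h1
    rw [e] at h2
    rw [e, hi _ h2, map_zero]
    rfl
  refine ⟨fun x => (g x).1, analyticAt_fst.comp g1, g3.mono fun x hx => ?_, g2.mono fun q hq => ?_⟩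
  · have h1 : (g x).2 = x.1 := congrArg Prod.fst hx
    refine ⟨?_, congrArg (fun w => w.2.2) hx⟩
    rw [← h1]
    exact congrArg (fun w => w.2.1) hx
  · exact congrArg Prod.fst hq

/-- an analytic retraction onto a real hypersurface.  With `ℓ = fderiv ρ x`, `ℓ e = 1`: `Φ y = y + (ρ y - ℓ y) • e` has
derivative `id` at `x` and `ℓ (Φ y) = ρ y`; `χ y = Φ⁻¹ (Φ y - ρ y • e)`. -/
theorem retr {E : Type} [NormedAddCommGroup E] [NormedSpace ℝ E] [FiniteDimensional ℝ E] {ρ : E → ℝ} {x : E}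
    (hρ : AnalyticAt ℝ ρ x) (h0 : ρ x = 0) (hd : fderiv ℝ ρ x ≠ 0) :
    ∃ χ : E → E, AnalyticAt ℝ χ x ∧ χ x = x ∧ (∀ᶠ y in 𝓝 x, ρ (χ y) = 0) ∧ ∀ᶠ y in 𝓝 x, ρ y = 0 → χ y = y := by
  obtain ⟨e₀, he₀⟩ : ∃ e₀, fderiv ℝ ρ x e₀ ≠ 0 := by
    by_contra k
    exact hd (ContinuousLinearMap.ext fun v => not_not.1 fun k' => k ⟨v, k'⟩)
  obtain ⟨e, he⟩ : ∃ e, fderiv ℝ ρ x e = 1 := ⟨(fderiv ℝ ρ x e₀)⁻¹ • e₀, by simp [he₀]⟩
  set ℓ := fderiv ℝ ρ x with hℓ
  have an : AnalyticAt ℝ (fun y => y + (ρ y - ℓ y) • e) x :=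
    analyticAt_id.add ((hρ.sub (ℓ.analyticAt x)).smul analyticAt_const)
  have d : HasFDerivAt (fun y => y + (ρ y - ℓ y) • e) _ x :=
    (hasFDerivAt_id x).add ((hρ.differentiableAt.hasFDerivAt.sub ℓ.hasFDerivAt).smul_const e)
  obtain ⟨g, g1, g2, g3⟩ := an_inv rfl an fun v hv => by
    rw [d.fderiv] at hv
    simpa [← hℓ] using hv
  have an2 : AnalyticAt ℝ (fun y => y + (ρ y - ℓ y) • e - ρ y • e) x := an.sub (hρ.smul analyticAt_const)
  have e0 : x + (ρ x - ℓ x) • e - ρ x • e = x + (ρ x - ℓ x) • e := by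
    conv_lhs => rw [show ρ x • e = 0 by rw [h0, zero_smul], sub_zero]
  have t := an2.continuousAt.tendsto
  rw [e0] at t
  refine ⟨fun y => g (y + (ρ y - ℓ y) • e - ρ y • e), AnalyticAt.comp_of_eq g1 an2 e0, ?_,
    (t.eventually g3).mono fun y hy => ?_, g2.mono fun y hy hy0 => ?_⟩
  · simp only [e0]
    exact g2.self_of_nhds
  · have := congrArg ℓ hy
    simp only [map_add, map_sub, map_smul, he, smul_eq_mul, mul_one] at this
    linarith
  · show g _ = y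
    rw [show ρ y • e = 0 by rw [hy0, zero_smul], sub_zero]
    exact hy

/-- mean value theorem on the vertical slices of a ball -/
theorem const_of_fderiv {X Y Z : Type} [NormedAddCommGroup X] [NormedSpace ℂ X] [NormedAddCommGroup Y]
    [NormedSpace ℂ Y] [NormedAddCommGroup Z] [NormedSpace ℂ Z] {f : X × Y → Z} {x₀ : X} {y₀ : Y}
    (h : ∀ᶠ p in 𝓝 (x₀, y₀), DifferentiableAt ℂ f p ∧ ∀ v, fderiv ℂ f p (0, v) = 0) :
    ∀ᶠ p : X × Y × Y in 𝓝 (x₀, y₀, y₀), f (p.1, p.2.1) = f (p.1, p.2.2) := by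
  obtain ⟨ε, hε, hb⟩ := Metric.eventually_nhds_iff_ball.1 h
  filter_upwards [ball_mem_nhds (x₀, y₀, y₀) hε] with p hp
  rw [← ball_prod_same, ← ball_prod_same] at hp
  rw [← ball_prod_same] at hb
  have d : ∀ y ∈ ball y₀ ε, HasFDerivAt (fun y => f (p.1, y))
      ((fderiv ℂ f (p.1, y)).comp (ContinuousLinearMap.inr ℂ X Y)) y := fun y hy =>
    (hb (p.1, y) ⟨hp.1, hy⟩).1.hasFDerivAt.comp y (hasFDerivAt_prodMk_right p.1 y)
  refine isOpen_ball.is_const_of_fderiv_eq_zero (𝕜 := ℂ) (f := fun y => f (p.1, y))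
    (convex_ball y₀ ε).isPreconnected (fun y hy => (d y hy).differentiableAt.differentiableWithinAt)
    (fun y hy => ?_) hp.2.1 hp.2.2
  rw [(d y hy).fderiv]
  ext v
  exact (hb (p.1, y) ⟨hp.1, hy⟩).2 v

/-- identity theorem on a ball -/
theorem germ_zero {𝕃 E F : Type} [RCLike 𝕃] [NormedAddCommGroup E] [NormedSpace 𝕃 E] [NormedAddCommGroup F]
    [NormedSpace 𝕃 F] [CompleteSpace F] {f : E → F} {x : E} (hf : AnalyticAt 𝕃 f x)
    (h : ∃ᶠ y in 𝓝 x, f =ᶠ[𝓝 y] 0) : f =ᶠ[𝓝 x] 0 := by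
  obtain ⟨ε, hε, hb⟩ := Metric.eventually_nhds_iff_ball.1 hf.eventually_analyticAt
  obtain ⟨y, hy, hy'⟩ := (h.and_eventually (ball_mem_nhds x hε)).exists
  let _ : NormedSpace ℝ E := NormedSpace.restrictScalars ℝ 𝕃 E
  filter_upwards [ball_mem_nhds x hε] with w hw
  exact AnalyticOnNhd.eqOn_zero_of_preconnected_of_eventuallyEq_zero (𝕜 := 𝕃) hb
    (convex_ball x ε).isPreconnected hy' hy hw

/-- the image of a small ball is preconnected -/
theorem comp_near {E T : Type} [TopologicalSpace E] [NormedAddCommGroup T] [NormedSpace ℝ T] {F : Set E} {x : E}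
    {b : T → E} {t : T} (hz : b t ∈ connectedComponentIn F x) (hb : ∀ᶠ τ in 𝓝 t, ContinuousAt b τ ∧ b τ ∈ F) :
    ∀ᶠ τ in 𝓝 t, b τ ∈ connectedComponentIn F x := by
  obtain ⟨ε, hε, h⟩ := Metric.eventually_nhds_iff_ball.1 hb
  have c : IsPreconnected (b '' ball t ε) :=
    (convex_ball t ε).isPreconnected.image b fun τ hτ => (h τ hτ).1.continuousWithinAt
  filter_upwards [ball_mem_nhds t hε] with τ hτ
  rw [connectedComponentIn_eq hz]
  exact c.subset_connectedComponentIn ⟨t, mem_ball_self hε, rfl⟩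
    (by rintro _ ⟨σ, hσ, rfl⟩; exact (h σ hσ).2) ⟨τ, hτ, rfl⟩

/-! ### part b: first and second derivatives -/

theorem legendre_aux {𝕃 E F : Type} [RCLike 𝕃] [NormedAddCommGroup E] [NormedSpace 𝕃 E] [NormedAddCommGroup F]
    [NormedSpace 𝕃 F] [CompleteSpace F] {f : E → F} {x : E} (hf : AnalyticAt 𝕃 f x) (w : E) :
    HasFDerivAt (fun y => fderiv 𝕃 f y w) ((fderiv 𝕃 (fderiv 𝕃 f) x).flip w) x := by
  simpa using hf.fderiv.differentiableAt.hasFDerivAt.clm_apply (hasFDerivAt_const w x)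

/-- symmetry of second derivatives -/
theorem legendre {X : Type} [NormedAddCommGroup X] [NormedSpace ℂ X] {h Y : X → ℂ} {x e₁ e₂ : X}
    (hh : AnalyticAt ℂ h x) (h₁ : ∀ᶠ x' in 𝓝 x, fderiv ℂ h x' e₁ = Y x') (h₂ : ∀ᶠ x' in 𝓝 x, fderiv ℂ h x' e₂ = 0) :
    fderiv ℂ Y x e₂ = 0 := by
  have e1 : Y =ᶠ[𝓝 x] fun x' => fderiv ℂ h x' e₁ := h₁.mono fun y hy => hy.symm
  have e2 : (fun x' => fderiv ℂ h x' e₂) =ᶠ[𝓝 x] fun _ => 0 := h₂
  have h3 := e2.fderiv_eq (𝕜 := ℂ)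
  rw [(legendre_aux hh e₂).fderiv, fderiv_const_apply] at h3
  rw [e1.fderiv_eq, (legendre_aux hh e₁).fderiv, ContinuousLinearMap.flip_apply,
    (hh.contDiffAt.isSymmSndFDerivAt_of_omega).eq]
  exact congrArg (fun L : X →L[ℂ] ℂ => L e₁) h3

theorem fderiv_apply_const {𝕃 E F : Type} [RCLike 𝕃] [NormedAddCommGroup E] [NormedSpace 𝕃 E] [NormedAddCommGroup F]
    [NormedSpace 𝕃 F] [CompleteSpace F] {f : E → F} {x : E} (hf : AnalyticAt 𝕃 f x) (v w : E) :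
    fderiv 𝕃 (fun y => fderiv 𝕃 f y w) x v = fderiv 𝕃 (fderiv 𝕃 f) x v w := by
  rw [(legendre_aux hf w).fderiv, ContinuousLinearMap.flip_apply]

/-- second order chain rule -/
theorem chain2 {𝕃 E F G : Type} [RCLike 𝕃] [NormedAddCommGroup E] [NormedSpace 𝕃 E] [NormedAddCommGroup F]
    [NormedSpace 𝕃 F] [CompleteSpace F] [NormedAddCommGroup G] [NormedSpace 𝕃 G] [CompleteSpace G]
    {f : F → G} {Φ : E → F} {x : E} (hf : AnalyticAt 𝕃 f (Φ x)) (hΦ : AnalyticAt 𝕃 Φ x) (a a' : E) :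
    fderiv 𝕃 (fderiv 𝕃 (fun y => f (Φ y))) x a a' =
      fderiv 𝕃 (fderiv 𝕃 f) (Φ x) (fderiv 𝕃 Φ x a) (fderiv 𝕃 Φ x a') +
        fderiv 𝕃 f (Φ x) (fderiv 𝕃 (fderiv 𝕃 Φ) x a a') := by
  have h1 : (fun y => fderiv 𝕃 (fun y => f (Φ y)) y a') =ᶠ[𝓝 x] fun y => fderiv 𝕃 f (Φ y) (fderiv 𝕃 Φ y a') := by
    filter_upwards [hΦ.eventually_analyticAt, hΦ.continuousAt.eventually hf.eventually_analyticAt] with y h1 h2
    rw [fderiv_fun_comp y h2.differentiableAt h1.differentiableAt]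
    rfl
  have h2 : HasFDerivAt (fun y => fderiv 𝕃 f (Φ y)) ((fderiv 𝕃 (fderiv 𝕃 f) (Φ x)).comp (fderiv 𝕃 Φ x)) x :=
    hf.fderiv.differentiableAt.hasFDerivAt.comp x hΦ.differentiableAt.hasFDerivAt
  have h3 : AnalyticAt 𝕃 (fun y => f (Φ y)) x := hf.comp hΦ
  rw [← fderiv_apply_const h3, h1.fderiv_eq, (h2.clm_apply (legendre_aux hΦ a')).fderiv]
  simp [add_comm]

theorem fderiv2_clm {𝕃 E F : Type} [RCLike 𝕃] [NormedAddCommGroup E] [NormedSpace 𝕃 E] [NormedAddCommGroup F]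
    [NormedSpace 𝕃 F] (T : E →L[𝕃] F) (c : F) (x a a' : E) :
    fderiv 𝕃 (fderiv 𝕃 (fun y => T y + c)) x a a' = 0 := by
  have h1 : fderiv 𝕃 (fun y => T y + c) = fun _ => T := funext fun y => (T.hasFDerivAt.add_const c).fderiv
  rw [h1, fderiv_const_apply]
  rfl

/-- second derivative of a product at a zero of the second factor, in directions of its kernel -/
theorem fderiv2_mul {E : Type} [NormedAddCommGroup E] [NormedSpace ℝ E] {μ ρ : E → ℂ} {x a a' : E}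
    (hμ : AnalyticAt ℝ μ x) (hρ : AnalyticAt ℝ ρ x) (h0 : ρ x = 0) (ha : fderiv ℝ ρ x a = 0)
    (ha' : fderiv ℝ ρ x a' = 0) :
    fderiv ℝ (fderiv ℝ (fun y => μ y * ρ y)) x a a' = μ x * fderiv ℝ (fderiv ℝ ρ) x a a' := by
  have h1 : (fun y => fderiv ℝ (fun y => μ y * ρ y) y a') =ᶠ[𝓝 x]
      fun y => μ y * fderiv ℝ ρ y a' + ρ y * fderiv ℝ μ y a' := by
    filter_upwards [hμ.eventually_analyticAt, hρ.eventually_analyticAt] with y h1 h2
    rw [fderiv_fun_mul h1.differentiableAt h2.differentiableAt]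
    simp
  have h3 : AnalyticAt ℝ (fun y => μ y * ρ y) x := hμ.mul hρ
  have h4 := (hμ.differentiableAt.hasFDerivAt.fun_mul (legendre_aux hρ a')).fun_add
    (hρ.differentiableAt.hasFDerivAt.fun_mul (legendre_aux hμ a'))
  rw [← fderiv_apply_const h3, h1.fderiv_eq, h4.fderiv]
  simp [h0, ha, ha']

theorem fderiv_real_aux {E F : Type} [NormedAddCommGroup E] [NormedSpace ℂ E] [NormedSpace ℝ E] [IsScalarTower ℝ ℂ E]
    [NormedAddCommGroup F] [NormedSpace ℂ F] [NormedSpace ℝ F] [IsScalarTower ℝ ℂ F]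
    {f : E → F} {x : E} (hf : DifferentiableAt ℂ f x) (v : E) : fderiv ℝ f x v = fderiv ℂ f x v := by
  rw [(hf.hasFDerivAt.restrictScalars ℝ).fderiv]
  rfl

theorem fderiv_real {E F : Type} [NormedAddCommGroup E] [NormedSpace ℂ E] [NormedSpace ℝ E] [IsScalarTower ℝ ℂ E]
    [NormedAddCommGroup F] [NormedSpace ℂ F] [NormedSpace ℝ F] [IsScalarTower ℝ ℂ F] [CompleteSpace F]
    {f : E → F} {x : E} (hf : AnalyticAt ℂ f x) (v w : E) :
    fderiv ℝ f x v = fderiv ℂ f x v ∧ fderiv ℝ (fderiv ℝ f) x v w = fderiv ℂ (fderiv ℂ f) x v w := by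
  refine ⟨fderiv_real_aux hf.differentiableAt v, ?_⟩
  have h1 : (fun y => fderiv ℝ f y w) =ᶠ[𝓝 x] fun y => fderiv ℂ f y w :=
    hf.eventually_analyticAt.mono fun y hy => fderiv_real_aux hy.differentiableAt w
  rw [← fderiv_apply_const (hf.restrictScalars (𝕜 := ℝ)), h1.fderiv_eq,
    fderiv_real_aux (legendre_aux hf w).differentiableAt, fderiv_apply_const hf]

section Sym
variable {E : Type} [NormedAddCommGroup E] [NormedSpace ℂ E] [NormedSpace ℝ E] [IsScalarTower ℝ ℂ E]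
  [StarAddMonoid E] [StarModule ℂ E] [StarModule ℝ E] [ContinuousStar E]

/-- real chain rule for the real linear map `(z, ω) ↦ (star ω, star z)` (`starL' ℝ`, `conjCLE`) -/
theorem fderiv_sym {f g : E × E → ℂ} (hf : Differentiable ℂ f) (hg : Differentiable ℂ g)
    (h : ∀ z ω, g (star ω, star z) = (starRingEnd ℂ) (f (z, ω))) (z ω v v' : E) :
    fderiv ℂ g (star ω, star z) (star v', star v) = (starRingEnd ℂ) (fderiv ℂ f (z, ω) (v, v')) := by
  let L : E × E →L[ℝ] E × E :=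
    (((starL' ℝ : E ≃L[ℝ] E) : E →L[ℝ] E).comp (ContinuousLinearMap.snd ℝ E E)).prod
      (((starL' ℝ : E ≃L[ℝ] E) : E →L[ℝ] E).comp (ContinuousLinearMap.fst ℝ E E))
  have h1 : HasFDerivAt (fun p => g (L p)) (((fderiv ℂ g (L (z, ω))).restrictScalars ℝ).comp L) (z, ω) :=
    ((hg _).hasFDerivAt.restrictScalars ℝ).comp (z, ω) L.hasFDerivAt
  have h2 : HasFDerivAt (fun p => conjCLE (f p))
      ((conjCLE : ℂ →L[ℝ] ℂ).comp ((fderiv ℂ f (z, ω)).restrictScalars ℝ)) (z, ω) :=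
    (conjCLE : ℂ →L[ℝ] ℂ).hasFDerivAt.comp (z, ω) ((hf _).hasFDerivAt.restrictScalars ℝ)
  have h3 : (fun p => g (L p)) = fun p => conjCLE (f p) := funext fun p => h p.1 p.2
  rw [h3] at h1
  exact congrArg (fun M : E × E →L[ℝ] ℂ => M (v, v')) (h1.unique h2)

theorem fderiv2_sym {f : E × E → ℂ} (hf : ∀ p, AnalyticAt ℂ f p)
    (h : ∀ z ω, f (star ω, star z) = (starRingEnd ℂ) (f (z, ω))) (z ω v v' w w' : E) :
    fderiv ℂ (fderiv ℂ f) (star ω, star z) (star v', star v) (star w', star w) =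
      (starRingEnd ℂ) (fderiv ℂ (fderiv ℂ f) (z, ω) (v, v') (w, w')) := by
  have hd : Differentiable ℂ f := fun p => (hf p).differentiableAt
  rw [← fderiv_apply_const (hf _), ← fderiv_apply_const (hf _)]
  exact fderiv_sym (f := fun p => fderiv ℂ f p (w, w')) (g := fun p => fderiv ℂ f p (star w', star w))
    (fun p => (legendre_aux (hf p) _).differentiableAt) (fun p => (legendre_aux (hf p) _).differentiableAt)
    (fun z ω => fderiv_sym hd hd h z ω w w') z ω v v'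

theorem fderiv_diag_aux {F : E × E → ℂ} {z : E} (hF : DifferentiableAt ℂ F (z, star z)) (v : E) :
    fderiv ℝ (fun y => (F (y, star y)).re) z v = (fderiv ℂ F (z, star z) (v, star v)).re := by
  let D : E →L[ℝ] E × E := (ContinuousLinearMap.id ℝ E).prod ((starL' ℝ : E ≃L[ℝ] E) : E →L[ℝ] E)
  have h1 : HasFDerivAt (fun y => (F (y, star y)).re)
      (reCLM.comp (((fderiv ℂ F (z, star z)).restrictScalars ℝ).comp D)) z :=
    reCLM.hasFDerivAt.comp z ((hF.hasFDerivAt.restrictScalars ℝ).comp z D.hasFDerivAt)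
  rw [h1.fderiv]
  rfl

/-- derivatives of the restriction to the diagonal -/
theorem fderiv_diag {f : E × E → ℂ} {g : E → ℝ} (hf : ∀ p, AnalyticAt ℂ f p)
    (h : ∀ z ω, f (star ω, star z) = (starRingEnd ℂ) (f (z, ω))) (hg : ∀ z, f (z, star z) = g z) (z v w : E) :
    AnalyticAt ℝ g z ∧ fderiv ℝ g z v = 2 * (fderiv ℂ f (z, star z) (v, 0)).re ∧
      (fderiv ℝ (fderiv ℝ g) z v w : ℝ) = (fderiv ℂ (fderiv ℂ f) (z, star z) (v, star v) (w, star w)).re := by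
  have hd : Differentiable ℂ f := fun p => (hf p).differentiableAt
  have hg' : g = fun y => (f (y, star y)).re := funext fun y => by rw [hg, ofReal_re]
  let D : E →L[ℝ] E × E := (ContinuousLinearMap.id ℝ E).prod ((starL' ℝ : E ≃L[ℝ] E) : E →L[ℝ] E)
  have ha : AnalyticAt ℝ g z := by
    rw [hg']
    exact (reCLM.analyticAt _).comp (((hf (D z)).restrictScalars (𝕜 := ℝ)).comp (D.analyticAt z))
  have h1 : ∀ y u, fderiv ℝ g y u = (fderiv ℂ f (y, star y) (u, star u)).re := fun y u => by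
    rw [hg', fderiv_diag_aux (hd _)]
  refine ⟨ha, ?_, ?_⟩
  · have h2 := fderiv_sym hd hd h z (star z) v 0
    rw [star_star, star_zero] at h2
    rw [h1, show ((v, star v) : E × E) = (v, 0) + (0, star v) by simp, map_add, h2, add_re, conj_re]
    ring
  · rw [← fderiv_apply_const ha, ← fderiv_apply_const (hf _),
      ← fderiv_diag_aux (legendre_aux (hf _) _).differentiableAt]
    congr 2
    exact funext fun y => h1 y w

end Sym

/-! ### part c: the Taylor expansion -/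

theorem taylor_two {E : Type} [NormedAddCommGroup E] [NormedSpace ℝ E] [CompleteSpace E] {r : E → ℝ} {z : E}
    (hr : AnalyticAt ℝ r z) {ε : ℝ} (hε : 0 < ε) : ∃ δ > 0, ∀ β ∈ ball z δ, ∀ x ∈ ball z δ,
      |r x - r β - fderiv ℝ r β (x - β) - fderiv ℝ (fderiv ℝ r) β (x - β) (x - β) / 2| ≤ ε * ‖x - β‖ ^ 2 := by
  have h1 : ∀ᶠ y in 𝓝 z, AnalyticAt ℝ r y := hr.eventually_analyticAt
  have h2 : ∀ᶠ y in 𝓝 z, dist (fderiv ℝ (fderiv ℝ r) y) (fderiv ℝ (fderiv ℝ r) z) < ε / 2 :=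
    Metric.tendsto_nhds.1 hr.fderiv.fderiv.continuousAt _ (half_pos hε)
  obtain ⟨δ, hδ, hball⟩ := Metric.eventually_nhds_iff_ball.1 (h1.and h2)
  refine ⟨δ, hδ, fun β hβ x hx => ?_⟩
  have hD : ∀ y ∈ ball z δ, ‖fderiv ℝ r y - fderiv ℝ r β - fderiv ℝ (fderiv ℝ r) β (y - β)‖ ≤ ε * ‖y - β‖ := by
    intro y hy
    refine (convex_ball z δ).norm_image_sub_le_of_norm_fderiv_le'
      (fun a ha => (hball a ha).1.fderiv.differentiableAt) (fun a ha => ?_) hβ hy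
    have := dist_triangle_right (fderiv ℝ (fderiv ℝ r) a) (fderiv ℝ (fderiv ℝ r) β) (fderiv ℝ (fderiv ℝ r) z)
    have h3 : dist (fderiv ℝ (fderiv ℝ r) a) (fderiv ℝ (fderiv ℝ r) β) ≤ ε := by
      linarith [(hball a ha).2, (hball β hβ).2]
    exact (dist_eq_norm (fderiv ℝ (fderiv ℝ r) a) (fderiv ℝ (fderiv ℝ r) β)).ge.trans h3
  set k := x - β with hk
  have hmem : ∀ t ∈ Icc (0 : ℝ) 1, β + t • k ∈ ball z δ := fun t ht =>
    (convex_ball z δ).add_smul_sub_mem hβ hx ht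
  have hder : ∀ t ∈ Icc (0 : ℝ) 1, HasDerivWithinAt
      (fun t : ℝ => r (β + t • k) - t * fderiv ℝ r β k - t ^ 2 * (fderiv ℝ (fderiv ℝ r) β k k / 2))
      ((fderiv ℝ r (β + t • k) - fderiv ℝ r β - fderiv ℝ (fderiv ℝ r) β (β + t • k - β)) k) (Icc 0 1) t := by
    intro t ht
    have a1 : HasDerivAt (fun t : ℝ => β + t • k) k t := by
      simpa using ((hasDerivAt_id t).smul_const k).const_add β
    have a2 : HasDerivAt (fun t : ℝ => r (β + t • k)) (fderiv ℝ r (β + t • k) k) t :=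
      (hball _ (hmem t ht)).1.differentiableAt.hasFDerivAt.comp_hasDerivAt t a1
    have a3 := (a2.sub ((hasDerivAt_id t).mul_const (fderiv ℝ r β k))).sub
      ((hasDerivAt_pow 2 t).mul_const (fderiv ℝ (fderiv ℝ r) β k k / 2))
    refine (a3.congr_deriv ?_).hasDerivWithinAt
    simp only [add_sub_cancel_left, map_smul, sub_apply, smul_apply, smul_eq_mul]
    norm_num
    ring
  have hb : ∀ t ∈ Ico (0 : ℝ) 1,
      ‖(fderiv ℝ r (β + t • k) - fderiv ℝ r β - fderiv ℝ (fderiv ℝ r) β (β + t • k - β)) k‖ ≤ ε * ‖k‖ ^ 2 := by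
    intro t ht
    refine (ContinuousLinearMap.le_opNorm _ _).trans ?_
    have a1 := hD _ (hmem t (Ico_subset_Icc_self ht))
    have a2 : ‖β + t • k - β‖ ≤ ‖k‖ := by
      rw [add_sub_cancel_left, norm_smul, Real.norm_eq_abs, abs_of_nonneg ht.1]
      exact mul_le_of_le_one_left (norm_nonneg _) ht.2.le
    calc _ ≤ ε * ‖k‖ * ‖k‖ := by
          refine mul_le_mul_of_nonneg_right (a1.trans ?_) (norm_nonneg _)
          gcongr
      _ = _ := by ring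
  have := norm_image_sub_le_of_norm_deriv_le_segment_01' hder hb
  simp only [one_smul, zero_smul, add_zero, Real.norm_eq_abs] at this
  have e : β + k = x := by rw [hk]; abel
  rw [e] at this
  convert this using 2
  ring

theorem taylor_norm_iv {A B : Type} [Fintype A] [Fintype B] (v : Vt A) : ‖(iv v : Amb A B)‖ = ‖v‖ := by
  simp [iv_apply, Prod.norm_def]

theorem taylor_alg {A : Type} [Fintype A] {θ : Vt A →L[ℂ] ℂ} {T K : ℝ} (hT : ‖θ‖ ≤ T) (hne : θ (1, 0) ≠ 0)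
    (hK : ‖θ (1, 0)‖⁻¹ ≤ K) (v : Vt A) : ∃ v' s : Vt A, v = v' + s ∧ θ v' = 0 ∧ v'.2 = v.2 ∧
      ‖s‖ ≤ K * ‖θ v‖ ∧ ‖v'‖ ≤ (1 + K * T) * ‖v.2‖ := by
  have hK0 : 0 ≤ K := le_trans (by positivity) hK
  have hT0 : 0 ≤ T := le_trans (norm_nonneg _) hT
  have hsm : ∀ a : ℂ, θ (a, 0) = a * θ (1, 0) := fun a => by
    have : ((a, 0) : Vt A) = a • (1, 0) := by simp
    rw [this, map_smul, smul_eq_mul]
  have hdec : θ v = v.1 * θ (1, 0) + θ (0, v.2) := by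
    rw [← hsm, ← map_add]; simp
  refine ⟨(-(θ (0, v.2) / θ (1, 0)), v.2), (θ v / θ (1, 0), 0), ?_, ?_, rfl, ?_, ?_⟩
  · refine Prod.ext ?_ (by simp)
    simp only [Prod.fst_add, hdec]
    field_simp
    ring
  · have : ((-(θ (0, v.2) / θ (1, 0)), v.2) : Vt A) = (-(θ (0, v.2) / θ (1, 0)), 0) + (0, v.2) := by simp
    rw [this, map_add, hsm]
    field_simp
    ring
  · simp only [Prod.norm_def, norm_zero, norm_div, norm_nonneg, div_nonneg, sup_of_le_left]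
    rw [div_eq_inv_mul]
    gcongr
  · have h1 : ‖θ (0, v.2)‖ ≤ T * ‖v.2‖ := by
      refine (θ.le_opNorm _).trans ?_
      have : ‖((0, v.2) : Vt A)‖ = ‖v.2‖ := by simp [Prod.norm_def]
      rw [this]
      gcongr
    have h2 : ‖θ (0, v.2) / θ (1, 0)‖ ≤ K * (T * ‖v.2‖) := by
      rw [norm_div, div_eq_inv_mul]
      gcongr
    have h3 := norm_nonneg v.2
    rw [Prod.norm_def, norm_neg]
    refine max_le ?_ ?_
    · nlinarith
    · nlinarith [mul_nonneg (mul_nonneg hK0 hT0) h3]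

/-- With `τ = q.2.2`, `β = G.b z τ`, `v = vt (q - β)`, `q = β + iv v`, `w = th β v`, `u = v.2`,
`v = v' + (w / th β (1,0), 0)`, `th β v' = 0`, `v'.2 = u`.  Taylor on the segment from `β` to `q`:
`|r q - r β - Dr β (iv v) - D²r β (iv v) (iv v) / 2| ≤ ε' ‖v‖²` (continuity of `D²r` at `z`; mean value inequality
twice), `‖v‖ ≤ C (‖w‖ + ‖u‖)`, `|D²r β (iv v) (iv v) - D²r β (iv v') (iv v')| ≤ C ‖w‖ (‖w‖ + ‖u‖)`. -/
theorem taylor {A B : Type} [Fintype A] [Fintype B] (G : Geo A B) {z : Amb A B} {r : Amb A B → ℝ}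
    (hr : AnalyticAt ℝ r z) (hb : ContinuousAt (G.b z) z.2.2) (hz : G.b z z.2.2 = z)
    (hth : ContinuousAt (fun τ => G.th (G.b z τ)) z.2.2) (h0 : G.th z (1, 0) ≠ 0)
    (h : ∀ᶠ τ in 𝓝 z.2.2, (G.b z τ).2.2 = τ ∧ r (G.b z τ) = 0 ∧
      (∀ v : Vt A, fderiv ℝ r (G.b z τ) (iv v) = (G.th (G.b z τ) v).im) ∧
      ∀ v : Vt A, G.th (G.b z τ) v = 0 →
        fderiv ℝ (fderiv ℝ r) (G.b z τ) (iv v) (iv v) = -2 * G.Q (G.b z τ) v.2) :
    ∀ ε > 0, ∀ᶠ q in 𝓝 z, |r q - ((G.co z q).1.im - G.Q (G.b z q.2.2) (G.co z q).2.1)| ≤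
      ε * (‖(G.co z q).1‖ + ‖(G.co z q).2.1‖ ^ 2) := by
  intro ε hε
  have h0' : G.th (G.b z z.2.2) (1, 0) ≠ 0 := by rwa [hz]
  obtain ⟨T, hT0, hT⟩ : ∃ T : ℝ, 0 ≤ T ∧ ∀ᶠ τ in 𝓝 z.2.2, ‖G.th (G.b z τ)‖ ≤ T :=
    ⟨‖G.th (G.b z z.2.2)‖ + 1, by positivity, hth.norm.eventually (ge_mem_nhds (lt_add_one _))⟩
  have hc : ContinuousAt (fun τ => G.th (G.b z τ) (1, 0)) z.2.2 := hth.clm_apply continuousAt_const
  obtain ⟨K, hK0, hK⟩ : ∃ K : ℝ, 0 ≤ K ∧ ∀ᶠ τ in 𝓝 z.2.2, ‖G.th (G.b z τ) (1, 0)‖⁻¹ ≤ K :=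
    ⟨‖G.th (G.b z z.2.2) (1, 0)‖⁻¹ + 1, by positivity,
      (hc.norm.inv₀ (norm_ne_zero_iff.2 h0')).eventually (ge_mem_nhds (lt_add_one _))⟩
  have hne : ∀ᶠ τ in 𝓝 z.2.2, G.th (G.b z τ) (1, 0) ≠ 0 := hc.eventually_ne h0'
  obtain ⟨M, hM0, hM⟩ : ∃ M : ℝ, 0 ≤ M ∧ ∀ᶠ y in 𝓝 z, ‖fderiv ℝ (fderiv ℝ r) y‖ ≤ M :=
    ⟨‖fderiv ℝ (fderiv ℝ r) z‖ + 1, by positivity,
      hr.fderiv.fderiv.continuousAt.norm.eventually (ge_mem_nhds (lt_add_one _))⟩
  set C : ℝ := 1 + K * T with hC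
  have hC0 : 0 < C := by positivity
  set ε' : ℝ := ε / (4 * (C ^ 2 + K ^ 2)) with hε'
  have hε'0 : 0 < ε' := by positivity
  obtain ⟨δ, hδ, hT2⟩ := taylor_two hr hε'0
  have h22 : Tendsto (fun q : Amb A B => q.2.2) (𝓝 z) (𝓝 z.2.2) :=
    (continuous_snd.comp continuous_snd).continuousAt
  have hβ : Tendsto (fun q : Amb A B => G.b z q.2.2) (𝓝 z) (𝓝 z) := by
    have := hb.tendsto.comp h22
    rwa [hz] at this
  have hv : Tendsto (fun q : Amb A B => ‖q - G.b z q.2.2‖) (𝓝 z) (𝓝 0) := by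
    have := (tendsto_id.sub hβ).norm
    simpa using this
  have hs1 : ∀ᶠ q in 𝓝 z, T * ‖q - G.b z q.2.2‖ ≤ 1 := by
    have := hv.const_mul T
    rw [mul_zero] at this
    exact this.eventually (ge_mem_nhds one_pos)
  have hs2 : ∀ᶠ q in 𝓝 z, M * K * (1 + C) * ‖q - G.b z q.2.2‖ ≤ ε := by
    have := hv.const_mul (M * K * (1 + C))
    rw [mul_zero] at this
    exact this.eventually (ge_mem_nhds hε)
  filter_upwards [h22.eventually h, h22.eventually hT, h22.eventually hK, h22.eventually hne, hβ.eventually hM,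
    hs1, hs2, ball_mem_nhds z hδ, hβ.eventually (ball_mem_nhds z hδ)] with q hq hT hK hne hM hs1 hs2 hqδ hβδ
  obtain ⟨hb2, hr0, hD1, hD2⟩ := hq
  set β := G.b z q.2.2 with hβdef
  set v : Vt A := vt (q - β) with hvdef
  have hiv : (iv v : Amb A B) = q - β := iv_vt (by simp [hb2])
  have hco1 : (G.co z q).1 = G.th β v := rfl
  have hco2 : (G.co z q).2.1 = v.2 := rfl
  rw [hco1, hco2]
  obtain ⟨v', s, hvs, hθ, hv2, hs, hv'⟩ := taylor_alg hT hne hK v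
  have hnv : ‖q - β‖ = ‖v‖ := by rw [← hiv, taylor_norm_iv]
  rw [hnv] at hs1 hs2
  have hT2' := hT2 β hβδ q hqδ
  rw [hnv, ← hiv, hr0, hD1] at hT2'
  have hQ := hD2 v' hθ
  rw [hv2] at hQ
  set D := fderiv ℝ (fderiv ℝ r) β with hD
  set w := G.th β v with hw
  have hw1 : ‖w‖ ≤ 1 := ((G.th β).le_opNorm v).trans
    ((mul_le_mul_of_nonneg_right hT (norm_nonneg _)).trans hs1)
  have hdiff : D (iv v) (iv v) - D (iv v') (iv v') = D (iv s) (iv v) + D (iv v') (iv s) := by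
    rw [hvs]
    simp only [map_add, add_apply]
    ring
  have hu : ‖v.2‖ ≤ ‖v‖ := norm_snd_le v
  have hw0 := norm_nonneg w
  have hu0 := norm_nonneg v.2
  have hv0 := norm_nonneg v
  have hv'v : ‖v'‖ ≤ C * ‖v‖ := hv'.trans (mul_le_mul_of_nonneg_left hu hC0.le)
  have e1 : |D (iv s) (iv v)| ≤ M * (K * ‖w‖) * ‖v‖ := by
    have := D.le_opNorm₂ (iv s) (iv v)
    rw [taylor_norm_iv, taylor_norm_iv, Real.norm_eq_abs] at this
    refine this.trans ?_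
    gcongr
  have e2 : |D (iv v') (iv s)| ≤ M * (C * ‖v‖) * (K * ‖w‖) := by
    have := D.le_opNorm₂ (iv v') (iv s)
    rw [taylor_norm_iv, taylor_norm_iv, Real.norm_eq_abs] at this
    refine this.trans ?_
    gcongr
  have e3 : |D (iv v) (iv v) - D (iv v') (iv v')| ≤ ε * ‖w‖ := by
    rw [hdiff]
    refine (abs_add_le _ _).trans ((add_le_add e1 e2).trans ?_)
    calc M * (K * ‖w‖) * ‖v‖ + M * (C * ‖v‖) * (K * ‖w‖) = (M * K * (1 + C) * ‖v‖) * ‖w‖ := by ring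
      _ ≤ ε * ‖w‖ := by gcongr
  have e4 : ‖v‖ ≤ C * ‖v.2‖ + K * ‖w‖ := by
    calc ‖v‖ = ‖v' + s‖ := by rw [← hvs]
      _ ≤ ‖v'‖ + ‖s‖ := norm_add_le _ _
      _ ≤ _ := add_le_add hv' hs
  have e5 : ‖v‖ ^ 2 ≤ 2 * (C ^ 2 + K ^ 2) * (‖w‖ + ‖v.2‖ ^ 2) := by
    have h1 : ‖v‖ ^ 2 ≤ (C * ‖v.2‖ + K * ‖w‖) ^ 2 := by gcongr
    have h2 : ‖w‖ ^ 2 ≤ ‖w‖ := by nlinarith
    have h3 : K ^ 2 * ‖w‖ ^ 2 ≤ K ^ 2 * ‖w‖ := by gcongr
    nlinarith [sq_nonneg (C * ‖v.2‖ - K * ‖w‖), mul_nonneg (sq_nonneg C) hw0,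
      mul_nonneg (sq_nonneg K) (sq_nonneg ‖v.2‖)]
  have e6 : ε' * ‖v‖ ^ 2 ≤ ε / 2 * (‖w‖ + ‖v.2‖ ^ 2) := by
    calc ε' * ‖v‖ ^ 2 ≤ ε' * (2 * (C ^ 2 + K ^ 2) * (‖w‖ + ‖v.2‖ ^ 2)) := by gcongr
      _ = ε / 2 * (‖w‖ + ‖v.2‖ ^ 2) := by
        rw [hε']
        field_simp
        ring
  have e7 : r q - (w.im - G.Q β v.2) = (r q - 0 - w.im - D (iv v) (iv v) / 2) +
      (D (iv v) (iv v) - D (iv v') (iv v')) / 2 := by
    rw [hQ]; ring
  rw [e7]
  refine (abs_add_le _ _).trans ?_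
  rw [abs_div, abs_two]
  nlinarith [mul_nonneg hε.le (sq_nonneg ‖v.2‖)]

end Crest.Agent.R264.Fol
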