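import Crest.Agent.R264.Fol.Branch

/-! Block Fol (owner helper79): the jets of the family. -/

set_option autoImplicit false
set_option linter.unusedSectionVars false
set_option linter.unusedVariables false
open Set Filter Topology MvPolynomial Complex

namespace Crest.Agent.R264.Fol

variable {A B : Type} [Fintype A] [Fintype B] [DecidableEq A] [DecidableEq B] {𝕜 : Subfield ℝ}

namespace Lv

variable {L : Lv 𝕜 A B} {z : Amb A B}

/-! ### part a: first order -/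

theorem OK.DF_t_has (h : L.OK) (hz : z ∈ L.S) : HasFDerivAt (L.Fm z) (L.DF z) (L.s0, z.2.2) :=
  (h.Fm_an hz).differentiableAt.hasFDerivAt

theorem OK.DF_t (h : L.OK) (hz : z ∈ L.S) (y : Vt A × (B → ℂ)) : (L.DF z y).2.2 = y.2 := by
  have h1 : HasFDerivAt (fun x => (L.Fm z x).2.2) _ (L.s0, z.2.2) := (h.DF_t_has hz).snd.snd
  have h2 := (h1.congr_of_eventuallyEq ((h.Fm_eq hz).mono fun x hx => hx.2.symm)).unique hasFDerivAt_snd
  exact DFunLike.congr_fun h2 y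

theorem OK.DF_inl (h : L.OK) (hz : z ∈ L.S) (x : Vt A) : L.DF z (x, 0) = iv (L.dF z x) := by
  exact (iv_vt (h.DF_t hz (x, 0))).symm

theorem OK.DF_inr (h : L.OK) (hz : z ∈ L.S) (δ : B → ℂ) : L.DF z (0, δ) = fderiv ℝ (L.b z) z.2.2 δ := by
  have h1 : HasFDerivAt (L.b z) _ z.2.2 := (h.DF_t_has hz).comp z.2.2 (hasFDerivAt_prodMk_right L.s0 z.2.2)
  rw [h1.fderiv]
  rfl

/-- differentiate `Fm_eq` -/
theorem OK.lin_G (h : L.OK) (hz : z ∈ L.S) (y : Vt A × (B → ℂ)) :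
    fderiv ℂ L.Gm (z, star L.p) (L.DF z y, iv (star y.1)) = fderiv ℂ L.Gm L.ph (iv y.1, iv (star y.1)) := by
  obtain ⟨T, hT, hT'⟩ := L.hasFDerivAt_diag L.s0
  have h1 : HasFDerivAt (fun x : Vt A × (B → ℂ) => (L.c x.1, star (L.c x.1)))
      (T.comp (ContinuousLinearMap.fst ℝ _ _)) (L.s0, z.2.2) := by
    simp only [hT']
    exact (T.comp (ContinuousLinearMap.fst ℝ _ (B → ℂ))).hasFDerivAt.add_const _
  have h2 := (h.DF_t_has hz).prodMk h1.snd
  have g1 := ((L.Gm_an h.hD).differentiableAt.hasFDerivAt.restrictScalars ℝ).comp (L.s0, z.2.2) h1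
  have g2 : HasFDerivAt L.Gm ((fderiv ℂ L.Gm (z, star L.p)).restrictScalars ℝ)
      (L.Fm z (L.s0, z.2.2), star (L.c L.s0)) := by
    rw [Fm_self hz]
    exact (L.Gm_an hz.2.1).differentiableAt.hasFDerivAt.restrictScalars ℝ
  have g3 := ((g2.comp (L.s0, z.2.2) h2).congr_of_eventuallyEq
    ((h.Fm_eq hz).mono fun x hx => hx.1.symm)).unique g1
  simpa [hT] using DFunLike.congr_fun g3 y

theorem OK.lin_iff (h : L.OK) (hz : z ∈ L.S) (x : Vt A) (v : Amb A B) :
    fderiv ℂ L.Gm (z, star L.p) (v, iv (star x)) = fderiv ℂ L.Gm L.ph (iv x, iv (star x)) ↔ v = L.DF z (x, v.2.2) := by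
  refine ⟨fun e => ?_, fun e => by rw [e]; exact h.lin_G hz (x, v.2.2)⟩
  have e1 := h.lin_G hz (x, v.2.2)
  have e2 : (v - L.DF z (x, v.2.2)).2.2 = 0 := by simp [h.DF_t hz]
  have e3 := hz.2.2.2 (vt (v - L.DF z (x, v.2.2))) (by
    rw [iv_vt e2, ← sub_self (iv (star x) : Amb A B), ← Prod.mk_sub_mk, map_sub, e, e1, sub_self])
  rw [← sub_eq_zero, ← iv_vt e2, e3, map_zero]

theorem OK.mu_ne (h : L.OK) (hz : z ∈ L.S) : L.mu z ≠ 0 := div_ne_zero hz.2.1 h.hD

theorem OK.mu_p (h : L.OK) : L.mu L.p = 1 := div_self h.hD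

theorem OK.nn_mu (h : L.OK) (hz : z ∈ L.S) (y : Vt A) : L.nn (z, star L.p) (iv y) = L.mu z * L.nn L.ph (iv y) := by
  rw [L.nn_iv hz.2.1, L.nn_iv h.hD, hz.1, mu, ← mul_assoc, div_mul_cancel₀ _ h.hD]

theorem th_apply (z : Amb A B) (v : Vt A) : L.th z v = 2 * I / L.mu z * L.mm (z, star L.p) (iv v) := rfl

theorem OK.th_p (h : L.OK) (v : Vt A) : L.th L.p v = 2 * I * L.mm L.ph (iv v) := by
  rw [th_apply, h.mu_p, div_one, ph]

theorem OK.th_ne (h : L.OK) (hz : z ∈ L.S) : L.th z (1, 0) ≠ 0 := by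
  exact mul_ne_zero (div_ne_zero (mul_ne_zero two_ne_zero I_ne_zero) (h.mu_ne hz)) hz.2.2.1

theorem OK.th_dF (h : L.OK) (hz : z ∈ L.S) (x : Vt A) : L.th z (L.dF z x) = L.th L.p x := by
  have e1 := congrArg Prod.fst (h.lin_G hz (x, 0))
  rw [h.DF_inl hz, L.fderiv_Gm_fst hz.2.1 (h.RR_S hz), L.fderiv_Gm_fst h.hD h.RR_ph, fderiv_RR, fderiv_RR,
    h.nn_mu hz] at e1
  rw [th_apply, h.th_p]
  have := hz.2.1
  have := h.hD
  rw [mu] at e1 ⊢
  field_simp at e1 ⊢
  linear_combination e1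

theorem OK.drho (h : L.OK) (x : Vt A) : fderiv ℝ L.rho L.s0 x = (L.th L.p x).im := by
  rw [fderiv_rho, h.th_p]
  simp

theorem lf_snd (z : Amb A B) (u : A → ℂ) : (L.lf z u).2 = u := rfl

theorem th_lf_split (θ : Vt A →L[ℂ] ℂ) (v : Vt A) : θ v = v.1 * θ (1, 0) + θ (0, v.2) := by
  rw [← smul_eq_mul, ← map_smul, ← map_add]; simp

theorem OK.th_lf (h : L.OK) (hz : z ∈ L.S) (u : A → ℂ) : L.th z (L.lf z u) = 0 := by
  rw [th_lf_split, lf_snd]
  have := h.th_ne hz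
  change -(L.th z (1, 0))⁻¹ * L.th z (0, u) * _ + _ = 0
  field_simp; ring

theorem OK.lf_eq (h : L.OK) (hz : z ∈ L.S) {v : Vt A} (hv : L.th z v = 0) : L.lf z v.2 = v := by
  refine Prod.ext ?_ rfl
  rw [th_lf_split] at hv
  have := h.th_ne hz
  change -(L.th z (1, 0))⁻¹ * L.th z (0, v.2) = _
  field_simp; linear_combination -hv

theorem OK.dF_lf (h : L.OK) (hz : z ∈ L.S) (a : A → ℂ) : L.dF z (L.lf L.p a) = L.lf z (L.xi z a) := by
  exact (h.lf_eq hz (by rw [h.th_dF hz, h.th_lf h.p_mem])).symm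

theorem OK.dF_p (h : L.OK) (x : Vt A) : L.dF L.p x = x := by
  exact (congrArg vt ((h.lin_iff h.p_mem x (iv x)).1 rfl)).symm

theorem OK.nd_iff (h : L.OK) (hz : z ∈ L.S) : (L.xi z).IsInvertible ↔ L.Nd z := by
  refine ⟨fun hi x hx => ?_, fun hn => ?_⟩
  · have e1 : L.th L.p x = 0 := by rw [← h.th_dF hz, hx, map_zero]
    have e2 := h.lf_eq h.p_mem e1
    have e3 : L.xi z x.2 = L.xi z 0 := by rw [xi_apply, e2, hx, map_zero]; rfl
    rw [← e2, hi.injective e3, map_zero]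
  · have e1 : Function.Injective (L.xi z : (A → ℂ) →ₗ[ℝ] (A → ℂ)) := (injective_iff_map_eq_zero _).2 fun a ha =>
      congrArg Prod.snd (hn (L.lf L.p a) (by rw [h.dF_lf hz, show L.xi z a = 0 from ha, map_zero]))
    exact ⟨(LinearEquiv.ofInjectiveEndo _ e1).toContinuousLinearEquiv, rfl⟩

theorem OK.DF_bij (h : L.OK) (hz : z ∈ L.S) (hn : L.Nd z) :
    (∀ y, L.DF z y = 0 → y = 0) ∧ Function.Surjective (L.DF z) ∧ Function.Surjective (L.dF z) := by
  have e1 : ∀ y, L.DF z y = 0 → y = 0 := fun y hy => by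
    have e : y.2 = 0 := by rw [← h.DF_t hz y, hy]; rfl
    refine Prod.ext (hn _ ?_) e
    rw [dF, ← e, hy, map_zero]
  have e2 : Function.Surjective (L.DF z) :=
    (LinearMap.injective_iff_surjective_of_finrank_eq_finrank (f := (L.DF z : _ →ₗ[ℝ] _))
      (LinearEquiv.prodAssoc ℝ ℂ (A → ℂ) (B → ℂ)).finrank_eq).1 ((injective_iff_map_eq_zero _).2 e1)
  refine ⟨e1, e2, fun v => ?_⟩
  obtain ⟨y, hy⟩ := e2 (iv v)
  have e : y.2 = 0 := by rw [← h.DF_t hz y, hy]; rfl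
  exact ⟨y.1, by rw [dF, ← e, hy, vt_iv]⟩

/-- with `J z v = fderiv Gm (z, star p) (iv v, 0)`: `J z (dF z x - I • dF z (I • x)) = 2 • J p x` (`lin_G`), `J p` is onto -/
theorem OK.surj (h : L.OK) (hz : z ∈ L.S) (u : A → ℂ) : ∃ a a', u = L.xi z a + I • L.xi z a' := by
  let J : Amb A B → Vt A →ₗ[ℂ] Vt A := fun q =>
    ((fderiv ℂ L.Gm (q, star L.p)).comp ((ContinuousLinearMap.inl ℂ _ _).comp iv) : Vt A →L[ℂ] Vt A)
  have hJ : ∀ q ∈ L.S, Function.Injective (J q) := fun q hq => (injective_iff_map_eq_zero _).2 hq.2.2.2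
  obtain ⟨x, hx⟩ := LinearMap.injective_iff_surjective.1 (hJ _ h.p_mem) ((2 : ℂ)⁻¹ • J z (L.lf z u))
  have e1 := h.lin_G hz (x, 0)
  have e2 := h.lin_G hz (I • x, 0)
  rw [h.DF_inl hz] at e1 e2
  have e3 : J z (L.dF z x - I • L.dF z (I • x)) = (2 : ℂ) • J L.p x := by
    have k1 : ((iv (L.dF z x - I • L.dF z (I • x)), 0) : Amb A B × Amb A B) =
        (iv (L.dF z x), iv (star x)) - I • (iv (L.dF z (I • x)), iv (star (I • x))) := by
      simp [smul_smul]
    have k2 : (2 : ℂ) • ((iv x, 0) : Amb A B × Amb A B) =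
        (iv x, iv (star x)) - I • (iv (I • x), iv (star (I • x))) := by
      simp [smul_smul, two_smul]
    change fderiv ℂ L.Gm (z, star L.p) (iv _, 0) = (2 : ℂ) • fderiv ℂ L.Gm L.ph (iv _, 0)
    rw [k1, ← map_smul, k2, map_sub, map_sub, map_smul, map_smul, e1, e2]
  rw [hx, smul_smul, mul_inv_cancel₀ two_ne_zero, one_smul] at e3
  have e4 := hJ z hz e3
  have e5 := h.th_lf hz u
  rw [← e4, map_sub, map_smul, h.th_dF hz, h.th_dF hz, map_smul, smul_smul, I_mul_I] at e5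
  have e6 := h.lf_eq h.p_mem (v := x) (by simpa using e5)
  refine ⟨x.2, -(I • x.2), ?_⟩
  rw [map_neg, xi_apply, xi_apply, map_smul, e6, ← lf_snd z u, ← e4]
  simp [sub_eq_add_neg]

/-! ### part b: second order -/

theorem nrel_sum (y : Vt A) :
    (iv y : Amb A B) = y.1 • ((1, 0, 0) : Amb A B) + ∑ a, y.2 a • ((0, Pi.single a 1, 0) : Amb A B) := by
  refine Prod.ext ?_ (Prod.ext ?_ ?_)
  · simp [iv_apply, Prod.fst_sum]
  · simp only [iv_apply, Prod.snd_add, Prod.fst_add, Prod.snd_sum, Prod.fst_sum, Prod.smul_mk, smul_zero, zero_add]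
    exact pi_eq_sum_univ' y.2
  · simp [iv_apply, Prod.snd_sum]

theorem nrel_aux {x : Amb A B × Amb A B} (h : L.D x ≠ 0) (v : Amb A B × Amb A B) {y : Vt A}
    (hy : L.nn x (iv y) = 0) : ∑ a, y.2 a * (fderiv ℂ L.Gm x v).2 a = L.HH x v (0, iv y) / L.D x := by
  have e1 : L.HH x v (0, iv y) = y.1 * L.HH x v (0, (1, 0, 0)) + ∑ a, y.2 a * L.HH x v (0, (0, Pi.single a 1, 0)) := by
    have := congrArg ((L.HH x v).comp (ContinuousLinearMap.inr ℂ _ _)) (nrel_sum (B := B) y)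
    simpa only [map_add, map_sum, map_smul, ContinuousLinearMap.comp_apply, ContinuousLinearMap.inr_apply,
      smul_eq_mul] using this
  have e2 : ∑ a, y.2 a * L.nn x (0, Pi.single a 1, 0) = -(y.1 * L.D x) := by
    rw [nrel_sum] at hy
    simp only [map_add, map_sum, map_smul, smul_eq_mul] at hy
    exact eq_neg_of_add_eq_zero_right hy
  simp only [L.fderiv_Gm_snd h, ← mul_div_assoc, ← Finset.sum_div, mul_sub, Finset.sum_sub_distrib]
  simp only [← mul_assoc, ← Finset.sum_mul, e2]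
  simp only [mul_comm _ (L.D x), mul_assoc, ← Finset.mul_sum]
  rw [e1]
  field_simp
  ring

/-- second components of `lin_G` (`fderiv_Gm_snd`), summed against `y.2` -/
theorem OK.nrel (h : L.OK) (hz : z ∈ L.S) (x : Vt A) {y : Vt A} (hy : L.nn L.ph (iv y) = 0) :
    L.HH (z, star L.p) (L.up z x) (0, iv y) = L.mu z * L.HH L.ph (iv x, iv (star x)) (0, iv y) := by
  have e1 := h.lin_G hz (x, 0)
  rw [h.DF_inl hz] at e1
  have e2 := nrel_aux hz.2.1 (L.up z x) (y := y) (by rw [h.nn_mu hz, hy, mul_zero])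
  have e3 := nrel_aux h.hD (iv x, iv (star x)) hy
  rw [show fderiv ℂ L.Gm (z, star L.p) (L.up z x) = _ from e1, e3] at e2
  have := hz.2.1
  have := h.hD
  rw [mu]
  field_simp at e2 ⊢
  exact e2.symm

theorem OK.mm_lf (h : L.OK) (a : A → ℂ) :
    L.mm L.ph (iv (L.lf L.p a)) = 0 ∧ L.nn L.ph (iv (star (L.lf L.p a))) = 0 := by
  have e1 : L.mm L.ph (iv (L.lf L.p a)) = 0 := by
    have := h.th_lf h.p_mem a
    rw [h.th_p] at this
    simpa using this
  refine ⟨e1, ?_⟩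
  rw [← star_iv, ph, L.nn_diag, show L.mm (L.p, star L.p) _ = _ from e1, map_zero]

theorem OK.be_xi (h : L.OK) (hz : z ∈ L.S) (a a' : A → ℂ) : L.be z a (L.xi z a') =
    -(2 * I / L.mu z) * L.HH (z, star L.p) (L.up z (L.lf L.p a)) (L.up z (L.lf L.p a')) +
      2 * I * L.HH L.ph (iv (L.lf L.p a), iv (star (L.lf L.p a))) (0, iv (star (L.lf L.p a'))) := by
  have e1 : ((iv (L.lf z (L.xi z a')), 0) : Amb A B × Amb A B) =
      L.up z (L.lf L.p a') - (0, iv (star (L.lf L.p a'))) := by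
    rw [up, h.dF_lf hz]
    simp
  rw [be_apply, e1, map_sub, h.nrel hz _ (h.mm_lf a').2]
  have := h.mu_ne hz
  field_simp
  ring

/-- the Levi form is Hermitian -/
theorem herm (L : Lv 𝕜 A B) (x y : Vt A) :
    L.HH L.ph (iv y, 0) (0, iv (star x)) = (starRingEnd ℂ) (L.HH L.ph (iv x, 0) (0, iv (star y))) := by
  have := L.HH_diag L.p (iv x) 0 0 (iv (star y))
  rw [star_iv, star_iv, star_star, star_zero, L.HH_symm] at this
  exact this

theorem symm_split (L : Lv 𝕜 A B) (x v w u : Amb A B × Amb A B) (h : v = w + u) (y : Amb A B × Amb A B) :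
    L.HH x v y = L.HH x w y + L.HH x u y := by
  rw [h, map_add, add_apply]

theorem OK.symm (h : L.OK) (hz : z ∈ L.S) (a a' : A → ℂ) : L.eta z a a' = L.eta z a' a := by
  rw [eta_apply, eta_apply, h.be_xi hz, h.be_xi hz, ka_apply, ka_apply,
    symm_split L _ (iv (L.lf L.p a), iv (star (L.lf L.p a))) (iv (L.lf L.p a), 0) (0, iv (star (L.lf L.p a))) (by simp),
    symm_split L _ (iv (L.lf L.p a'), iv (star (L.lf L.p a'))) (iv (L.lf L.p a'), 0) (0, iv (star (L.lf L.p a')))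
      (by simp),
    L.HH_symm _ (L.up z (L.lf L.p a')), L.HH_symm _ (0, iv (star (L.lf L.p a'))), L.herm (L.lf L.p a) (L.lf L.p a')]
  generalize L.HH L.ph (iv (L.lf L.p a), 0) (0, iv (star (L.lf L.p a'))) = w
  have e1 : (starRingEnd ℂ) w = w - 2 * w.im * I := by
    apply Complex.ext <;> simp
    ring
  rw [conj_im, e1]
  push_cast
  linear_combination (2 * (w.im : ℂ)) * I_mul_I

theorem skew (L : Lv 𝕜 A B) (a : A → ℂ) : L.ka a a = 0 := by
  rw [ka_apply, conj_eq_iff_im.1 (L.herm _ _).symm, mul_zero]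

/-- `a'` and `I • a'` give `HH ph (iv â, 0) (0, iv (star â')) = 0` for all `a'`; `D • e_a - nn e_a • e₀` is of the form
`iv (star â')`; `hK` -/
theorem OK.ndeg (h : L.OK) (a : A → ℂ) (ha : ∀ a', L.ka a a' = 0) : a = 0 := by
  have e1 : ∀ a', L.HH L.ph (iv (L.lf L.p a'), 0) (0, iv (star (L.lf L.p a))) = 0 := by
    intro a'
    have g1 := ha a'
    have g2 := ha (I • a')
    rw [ka_apply] at g1 g2
    have g3 : ((iv (L.lf L.p (I • a')), 0) : Amb A B × Amb A B) = I • (iv (L.lf L.p a'), 0) := by simp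
    rw [g3, map_smul, smul_apply, smul_eq_mul, I_mul_im] at g2
    exact Complex.ext (by simpa using g2) (by simpa using g1)
  have e2 := (h.hK (iv (L.lf L.p a)) (h.mm_lf a).1 (fun j => by
    let w : Vt A := (-L.nn L.ph (0, Pi.single j 1, 0), L.D L.ph • Pi.single j 1)
    have g1 : (iv w : Amb A B) =
        L.D L.ph • (0, Pi.single j 1, 0) - L.nn L.ph (0, Pi.single j 1, 0) • ((1, 0, 0) : Amb A B) := by
      simp [iv_apply, w]
    have g2 : L.th L.p (star w) = 0 := by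
      have := L.nn_diag L.p (iv (star w))
      rw [star_iv, star_star, g1, map_sub, map_smul, map_smul, smul_eq_mul, smul_eq_mul] at this
      have g : (starRingEnd ℂ) (L.mm L.ph (iv (star w))) = 0 := by
        rw [ph, ← this, ← ph, D]
        ring
      rw [h.th_p, (map_eq_zero _).1 g, mul_zero]
    have g3 := L.herm (L.lf L.p (star w).2) (L.lf L.p a)
    rw [e1, map_zero, h.lf_eq h.p_mem g2, star_star, g1] at g3
    have g4 := ((L.HH L.ph (iv (L.lf L.p a), 0)).comp (ContinuousLinearMap.inr ℂ _ _)).map_sub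
      (L.D L.ph • (0, Pi.single j 1, 0)) (L.nn L.ph (0, Pi.single j 1, 0) • ((1, 0, 0) : Amb A B))
    rw [map_smul, map_smul] at g4
    exact g4.symm.trans g3)).1 rfl
  exact congrArg (fun v : Amb A B => v.2.1) e2

theorem OK.im_eta (h : L.OK) (hz : z ∈ L.S) (a : A → ℂ) : 2 * (L.eta z a a).im =
    (-(2 * I / L.mu z) * L.HH (z, star L.p) (L.up z (L.lf L.p a)) (L.up z (L.lf L.p a))).im +
      fderiv ℝ (fderiv ℝ L.rho) L.s0 (L.lf L.p a) (L.lf L.p a) := by
  have e1 := L.HH_diag L.p (iv (L.lf L.p a)) (iv (star (L.lf L.p a))) (iv (L.lf L.p a)) 0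
  simp only [star_iv, star_star, star_zero] at e1
  have e2 : ((iv (L.lf L.p a), iv (star (L.lf L.p a))) : Amb A B × Amb A B) =
      (iv (L.lf L.p a), 0) + (0, iv (star (L.lf L.p a))) := by simp
  have e3 := congrArg (L.HH L.ph (iv (L.lf L.p a), iv (star (L.lf L.p a)))) e2
  rw [map_add] at e3
  rw [eta_apply, h.be_xi hz, L.skew, L.fderiv2_rho, e3, ph, e1]
  generalize -(2 * I / L.mu z) * L.HH (z, star L.p) (L.up z (L.lf L.p a)) (L.up z (L.lf L.p a)) = u
  simp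
  ring

/-! ### part c: holomorphy along branches -/

theorem dF_an_app {X E F : Type} [NormedAddCommGroup X] [NormedSpace ℂ X] [NormedAddCommGroup E] [NormedSpace ℂ E]
    [NormedAddCommGroup F] [NormedSpace ℂ F] {f : X → E →L[ℂ] F} {g : X → E} {x : X} (hf : AnalyticAt ℂ f x)
    (hg : AnalyticAt ℂ g x) : AnalyticAt ℂ (fun y => f y (g y)) x :=
  ((ContinuousLinearMap.id ℂ (E →L[ℂ] F)).analyticAt_bilinear (f x, g x)).comp₂ hf hg

theorem dF_an_comp {X E F G : Type} [NormedAddCommGroup X] [NormedSpace ℂ X] [NormedAddCommGroup E] [NormedSpace ℂ E]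
    [NormedAddCommGroup F] [NormedSpace ℂ F] [NormedAddCommGroup G] [NormedSpace ℂ G] {f : X → F →L[ℂ] G}
    {g : X → E →L[ℂ] F} {x : X} (hf : AnalyticAt ℂ f x) (hg : AnalyticAt ℂ g x) :
    AnalyticAt ℂ (fun y => (f y).comp (g y)) x :=
  ((ContinuousLinearMap.compL ℂ E F G).analyticAt_bilinear (f x, g x)).comp₂ hf hg

/-- `DF (b z τ) y = fderiv ℂ (Zf z) (star p, Gm ph, τ) (Λ y)` with `Λ` independent of `τ` (`Fm_germ`) -/
theorem OK.dF_an (h : L.OK) (hz : z ∈ L.S) (x : Vt A) : AnalyticAt ℂ (fun τ => L.dF (L.b z τ) x) z.2.2 := by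
  have hZ := (zf_spec hz).an
  have hl : AnalyticAt ℂ (fun τ : B → ℂ => ((star L.p, L.Gm L.ph, τ) : Amb A B × Vt A × (B → ℂ))) z.2.2 := by
    fun_prop
  have h0 : HasFDerivAt (fun s : Vt A => L.lam (s, 0)) (fderiv ℝ (fun s : Vt A => L.lam (s, 0)) L.s0) L.s0 :=
    ((h.lam_an 0).differentiableAt.comp L.s0 (f := fun s : Vt A => (s, (0 : B → ℂ))) (by fun_prop)).hasFDerivAt
  generalize fderiv ℝ (fun s : Vt A => L.lam (s, 0)) L.s0 = Λ at h0
  refine ((vt : Amb A B →L[ℂ] Vt A).analyticAt _ |>.comp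
    (dF_an_app (hZ.fderiv.comp_of_eq hl rfl) (analyticAt_const (v := Λ x)))).congr ?_
  filter_upwards [h.Fm_germ hz, b_mem hz, hl.continuousAt.eventually hZ.eventually_analyticAt] with τ h1 h2 h3
  have h4 : HasFDerivAt (fun s : Vt A => L.lam (s, τ)) Λ L.s0 := by
    have e : (fun s : Vt A => L.lam (s, τ)) = fun s => L.lam (s, 0) + (0, 0, τ) := funext fun s => by simp [lam]
    rw [e]
    exact h0.add_const _
  rw [← lam_s0] at h3
  have h5 := (h3.differentiableAt.hasFDerivAt.restrictScalars ℝ).comp L.s0 h4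
  have h6 : DifferentiableAt ℝ (L.Fm z) (L.s0, τ) :=
    (h3.differentiableAt.restrictScalars ℝ).comp (L.s0, τ) (h.lam_an τ).differentiableAt
  have h7 := h6.hasFDerivAt.comp L.s0 (f := fun s : Vt A => (s, τ)) (hasFDerivAt_prodMk_left (𝕜 := ℝ) L.s0 τ)
  have h8 := congrArg (fun T : Vt A →L[ℝ] Amb A B => T x) (h5.unique h7)
  show vt (fderiv ℂ (L.Zf z) (star L.p, L.Gm L.ph, τ) (Λ x)) = vt (fderiv ℝ (L.Fm (L.b z τ)) (L.s0, (L.b z τ).2.2) (x, 0))
  rw [h2.1, h1.fderiv_eq, ← lam_s0]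
  exact congrArg vt h8

theorem th_an_g (hz : z ∈ L.S) : AnalyticAt ℂ (fun τ => (L.b z τ, star L.p)) z.2.2 :=
  (b_an hz).prod analyticAt_const

theorem OK.th_an_mu (h : L.OK) (hz : z ∈ L.S) : AnalyticAt ℂ (fun τ => 2 * I / L.mu (L.b z τ)) z.2.2 :=
  analyticAt_const.div (((L.D_an _).comp (th_an_g hz)).div_const (c := L.D L.ph))
    (by show L.mu (L.b z z.2.2) ≠ 0; rw [b_self hz]; exact h.mu_ne hz)

theorem OK.th_an (h : L.OK) (hz : z ∈ L.S) : AnalyticAt ℂ (fun τ => L.th (L.b z τ)) z.2.2 := by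
  exact (h.th_an_mu hz).smul (dF_an_comp ((L.mm_an _).comp (th_an_g hz)) analyticAt_const)

theorem OK.xi_an (h : L.OK) (hz : z ∈ L.S) (a : A → ℂ) : AnalyticAt ℂ (fun τ => L.xi (L.b z τ) a) z.2.2 := by
  exact analyticAt_snd.comp (h.dF_an hz (L.lf L.p a))

theorem OK.be_an_lf (h : L.OK) (hz : z ∈ L.S) : AnalyticAt ℂ (fun τ => L.lf (L.b z τ)) z.2.2 := by
  have h1 : AnalyticAt ℂ (fun τ => (-(L.th (L.b z τ) (1, 0))⁻¹) •
      (L.th (L.b z τ)).comp (ContinuousLinearMap.inr ℂ ℂ (A → ℂ))) z.2.2 :=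
    ((dF_an_app (h.th_an hz) analyticAt_const).inv (by rw [b_self hz]; exact h.th_ne hz)).neg.smul
      (dF_an_comp (h.th_an hz) analyticAt_const)
  refine ((dF_an_comp (analyticAt_const (v := ContinuousLinearMap.inl ℂ ℂ (A → ℂ))) h1).add
    (analyticAt_const (v := ContinuousLinearMap.inr ℂ ℂ (A → ℂ)))).congr (Eventually.of_forall fun τ => ?_)
  refine ContinuousLinearMap.ext fun u => ?_
  simp [lf]

theorem OK.be_an (h : L.OK) (hz : z ∈ L.S) (a : A → ℂ) : AnalyticAt ℂ (fun τ => L.be (L.b z τ) a) z.2.2 := by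
  have h1 : AnalyticAt ℂ (fun τ => L.up (L.b z τ) (L.lf L.p a)) z.2.2 :=
    (((iv : Vt A →L[ℂ] Amb A B).analyticAt _).comp (h.dF_an hz _)).prod analyticAt_const
  exact dF_an_comp (dF_an_app ((h.th_an_mu hz).neg.smul ((L.HH_an _).comp (th_an_g hz))) h1)
    (dF_an_comp (analyticAt_const (v := ContinuousLinearMap.inl ℂ (Amb A B) (Amb A B)))
      (dF_an_comp (analyticAt_const (v := (iv : Vt A →L[ℂ] Amb A B))) (h.be_an_lf hz)))

theorem OK.eta_an (h : L.OK) (hz : z ∈ L.S) (a a' : A → ℂ) :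
    AnalyticAt ℂ (fun τ => L.eta (L.b z τ) a a') z.2.2 := by
  exact ((dF_an_app (h.be_an hz a) (h.xi_an hz a')).sub analyticAt_const).div_const

end Lv

end Crest.Agent.R264.Fol
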