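import Crest.Agent.R264.Fol.Branch

/-! Block Fol (owner helper79): the leaves lie in the hypersurface. -/

set_option autoImplicit false
set_option linter.unusedSectionVars false
set_option linter.unusedVariables false
open Set Filter Topology MvPolynomial Complex

namespace Crest.Agent.R264.Fol

variable {A B : Type} [Fintype A] [Fintype B] [DecidableEq A] [DecidableEq B] {𝕜 : Subfield ℝ}

namespace Lv

variable {L : Lv 𝕜 A B} {z : Amb A B}

/-- the rows of the rank condition -/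
noncomputable def rank_row (L : Lv 𝕜 A B) (i : Option A ⊕ B) (x : Amb A B × Amb A B) : Amb A B →ₗ[ℂ] ℂ :=
  match i with
  | Sum.inl none => (L.mm x : Amb A B →ₗ[ℂ] ℂ)
  | i =>
    { toFun := L.lm (bs i) x
      map_add' := fun v w => by
        have : ((v + w, 0) : Amb A B × Amb A B) = (v, 0) + (w, 0) := by simp
        simp only [lm, this, map_add, add_apply]; ring
      map_smul' := fun c v => by
        have : ((c • v, 0) : Amb A B × Amb A B) = c • (v, 0) := by simp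
        simp only [lm, this, map_smul, smul_apply, smul_eq_mul, RingHom.id_apply]; ring }

/-- `rank_spec` in the ring `Pol 𝕜 (xa A B)` with the evaluations at `ph` and at `x` (`Pol.div`); row `inl none` is
`mm x (bs k)`, the other rows are `lm (bs i) x (bs k)` (`sum_bs`).  The determinant is nonzero at `ph` (`hK`,
`Matrix.exists_mulVec_eq_zero_iff`) and continuous (`Pol.fderiv`). -/
theorem OK.rank (h : L.OK) : ∀ᶠ x in 𝓝 L.ph, L.RR x = 0 → ∀ v, L.mm x v = 0 →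
    (∀ a, L.lm (0, Pi.single a 1, 0) x v = 0) → ∀ b, L.lm (0, 0, Pi.single b 1) x v = 0 := by
  have hrow : ∀ i k, (fun x => rank_row L i x (bs k)) ∈ Pol 𝕜 (xa A B) := by
    intro i k
    have hl : ∀ i, (fun x => L.lm (bs i) x (bs k)) ∈ Pol 𝕜 (xa A B) := fun i =>
      Pol.sub (Pol.mul (L.nn_pol (Sum.inl none)) (L.HH_pol k i))
        (Pol.mul (L.nn_pol i) (L.HH_pol k (Sum.inl none)))
    rcases i with (_ | a) | b
    · exact L.mm_pol k
    · exact hl _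
    · exact hl _
  let l : Option A ⊕ B → Option A ⊕ B → Pol 𝕜 (xa A B) := fun i k => ⟨_, hrow i k⟩
  let ev : Amb A B × Amb A B → Pol 𝕜 (xa A B) →+* ℂ := fun x =>
    (Pi.evalRingHom (fun _ => ℂ) x).comp (Pol 𝕜 (xa A B)).subtype
  have hsum : ∀ x i (v : Amb A B), ∑ k, ev x (l i k) * fu v k = rank_row L i x v := by
    intro x i v
    conv_rhs => rw [← sum_bs v, map_sum]
    exact Finset.sum_congr rfl fun k _ => by rw [map_smul, smul_eq_mul, mul_comm]; rfl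
  obtain ⟨T, hT⟩ := exists_fuL A B
  have hsurj : ∀ w : Option A ⊕ B → ℂ, ∃ v : Amb A B, fu v = w := fun w => ⟨T.symm w, by rw [← hT]; simp⟩
  set d : Pol 𝕜 (xa A B) := (Matrix.of fun i j : Option A => l (Sum.inl i) (Sum.inl j)).det with hd
  have hd0 : ev L.ph d ≠ 0 := by
    rw [hd, RingHom.map_det]
    intro h0
    obtain ⟨w, hw0, hw⟩ := Matrix.exists_mulVec_eq_zero_iff.2 h0
    obtain ⟨v, hv⟩ := hsurj (Sum.elim w 0)
    have h1 : ∀ i, rank_row L (Sum.inl i) L.ph v = 0 := by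
      intro i
      rw [← hsum, hv, Fintype.sum_sum_type]
      have := congrFun hw i
      simpa [Matrix.mulVec, dotProduct] using this
    have h2 : v = 0 := (h.hK v (h1 none) fun a => h1 (some a)).1 (funext fun b => congrFun hv (Sum.inr b))
    apply hw0
    funext i
    have := congrFun hv (Sum.inl i)
    rw [h2] at this
    rw [Sum.elim_inl] at this
    rw [← this]
    cases i <;> rfl
  have hdc : ∀ᶠ x in 𝓝 L.ph, ev x d ≠ 0 :=
    ((Pol.fderiv (𝕃 := ℂ) xa_lin d.2).1 L.ph).continuousAt.eventually_ne hd0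
  filter_upwards [hdc] with x hx h0 v hv1 hv2 b
  have := rank_spec (ev L.ph) (ev x) (fun f hf => Pol.div f.2 (xa_diag L.p) h.hI hf h0) l hx (fun w hw j => by
    obtain ⟨u, rfl⟩ := hsurj w
    simp only [hsum] at hw ⊢
    exact (h.hK u (hw none) fun a => hw (some a)).2 j) (fu v) (fun i => by
      rw [hsum]
      cases i with
      | none => exact hv1
      | some a => exact hv2 a) b
  rwa [hsum] at this

theorem nn_eq_split (L : Lv 𝕜 A B) {x : Amb A B × Amb A B} (hx : L.D x ≠ 0) (w : Amb A B) :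
    L.nn x w = L.D x * (w.1 + ∑ a, (L.Gm x).2 a * w.2.1 a +
      ∑ b, w.2.2 b * ((L.D x)⁻¹ * L.nn x (0, 0, Pi.single b 1))) := by
  have e : w = iv (vt w) + ∑ b, w.2.2 b • ((0, 0, Pi.single b 1) : Amb A B) := by
    refine Prod.ext ?_ (Prod.ext ?_ ?_)
    · simp [iv_apply, vt_apply, Prod.fst_sum]
    · simp [iv_apply, vt_apply, Prod.fst_sum, Prod.snd_sum]
    · ext b
      simp [iv_apply, vt_apply, Prod.snd_sum, Finset.sum_apply, Pi.single_apply]
  conv_lhs => rw [e]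
  rw [map_add, L.nn_iv hx, map_sum, mul_add (L.D x) (_ + _), Finset.mul_sum]
  congr 1
  refine Finset.sum_congr rfl fun b _ => ?_
  rw [map_smul, smul_eq_mul]
  field_simp

theorem OK.nn_eq_const (h : L.OK) (b : B) :
    ∀ᶠ x : (Amb A B × (A → ℂ)) × (B → ℂ) × (B → ℂ) in 𝓝 ((star L.p, (L.Gm L.ph).2), L.p.2.2, L.p.2.2),
      (fun q => (L.D q)⁻¹ * L.nn q (0, 0, Pi.single b 1)) (L.Zf L.p (x.1.1, (0, x.1.2), x.2.1), x.1.1) =
      (fun q => (L.D q)⁻¹ * L.nn q (0, 0, Pi.single b 1)) (L.Zf L.p (x.1.1, (0, x.1.2), x.2.2), x.1.1) := by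
  have hZ := zf_spec h.p_mem
  have hG : ((0 : ℂ), (L.Gm L.ph).2) = L.Gm L.ph := Prod.ext ((L.Gm_fst h.hD).2 h.RR_ph).symm rfl
  let ι : (Amb A B × (A → ℂ)) × (B → ℂ) → Amb A B × Vt A × (B → ℂ) := fun x => (x.1.1, (0, x.1.2), x.2)
  have hι : ∀ x, AnalyticAt ℂ ι x := fun x => (analyticAt_fst.comp analyticAt_fst).prod
    ((analyticAt_const.prod (analyticAt_snd.comp analyticAt_fst)).prod analyticAt_snd)
  have hι0 : ι ((star L.p, (L.Gm L.ph).2), L.p.2.2) = (star L.p, L.Gm L.ph, L.p.2.2) := by simp only [ι, hG]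
  have hZι : AnalyticAt ℂ (fun x => L.Zf L.p (ι x)) ((star L.p, (L.Gm L.ph).2), L.p.2.2) :=
    hZ.an.comp_of_eq (hι _) hι0
  have hΨ0 : (L.Zf L.p (ι ((star L.p, (L.Gm L.ph).2), L.p.2.2)), star L.p) = L.ph := by
    rw [hι0]; exact Prod.ext hZ.left.self_of_nhds rfl
  have hΨ : Tendsto (fun x => (L.Zf L.p (ι x), x.1.1)) (𝓝 ((star L.p, (L.Gm L.ph).2), L.p.2.2)) (𝓝 L.ph) := by
    have := (hZι.continuousAt.prodMk (continuous_fst.comp continuous_fst).continuousAt).tendsto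
    exact this.mono_right (le_of_eq (congrArg 𝓝 hΨ0))
  have hr : ∀ᶠ x in 𝓝 ((star L.p, (L.Gm L.ph).2), L.p.2.2), L.Gm (L.Zf L.p (ι x), x.1.1) = (0, x.1.2) :=
    ((hι0 ▸ (hι _).continuousAt.tendsto :
      Tendsto ι _ (𝓝 (star L.p, L.Gm L.ph, L.p.2.2))).eventually hZ.right).mono fun x hx => hx.1
  refine const_of_fderiv (f := fun x => (fun q => (L.D q)⁻¹ * L.nn q (0, 0, Pi.single b 1))
    (L.Zf L.p (ι x), x.1.1)) ?_
  filter_upwards [hZι.eventually_analyticAt, hr.eventually_nhds,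
    hΨ.eventually (h.rank.and ((L.D_an _).continuousAt.eventually_ne h.hD))] with x a1 a2 a3
  have d1 : HasFDerivAt (fun x => (L.Zf L.p (ι x), x.1.1)) ((fderiv ℂ (fun x => L.Zf L.p (ι x)) x).prod
      ((ContinuousLinearMap.fst ℂ _ _).comp (ContinuousLinearMap.fst ℂ _ _))) x :=
    a1.differentiableAt.hasFDerivAt.prodMk (hasFDerivAt_fst.comp x hasFDerivAt_fst)
  have d2 := (L.fderiv_quot a3.2 (0, 0, Pi.single b 1) 0).1.differentiableAt.hasFDerivAt.comp x d1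
  refine ⟨d2.differentiableAt, fun v => ?_⟩
  have d3 : HasFDerivAt (fun x : (Amb A B × (A → ℂ)) × (B → ℂ) => (((0 : ℂ), x.1.2) : Vt A))
      ((0 : _ →L[ℂ] ℂ).prod ((ContinuousLinearMap.snd ℂ _ _).comp (ContinuousLinearMap.fst ℂ _ _))) x :=
    (hasFDerivAt_const _ _).prodMk (hasFDerivAt_snd.comp x hasFDerivAt_fst)
  have d4 := ((L.Gm_an a3.2).differentiableAt.hasFDerivAt.comp x d1).unique (d3.congr_of_eventuallyEq (by exact a2))
  set u := fderiv ℂ (fun x => L.Zf L.p (ι x)) x (0, v) with hu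
  have d5 : fderiv ℂ L.Gm (L.Zf L.p (ι x), x.1.1) (u, 0) = 0 :=
    congrArg (fun T : (Amb A B × (A → ℂ)) × (B → ℂ) →L[ℂ] Vt A => T (0, v)) d4
  have hR : L.RR (L.Zf L.p (ι x), x.1.1) = 0 := (L.Gm_fst a3.2).1 (congrArg Prod.fst a2.self_of_nhds)
  have e1 := L.fderiv_Gm_fst a3.2 hR (u, 0)
  have e2 := fun a => L.fderiv_Gm_snd a3.2 (u, 0) a
  rw [d5] at e1 e2
  have e3 := a3.1 hR u ((div_eq_zero_iff.1 e1.symm).resolve_right a3.2)
    (fun a => (div_eq_zero_iff.1 (e2 a).symm).resolve_right (pow_ne_zero 2 a3.2)) b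
  refine (congrArg (fun T : (Amb A B × (A → ℂ)) × (B → ℂ) →L[ℂ] ℂ => T (0, v)) d2.fderiv).trans ?_
  refine ((L.fderiv_quot a3.2 (0, 0, Pi.single b 1) (u, 0)).2).trans ?_
  exact div_eq_zero_iff.2 (Or.inl e3)

/-- `φ ((ω, γ), τ) = (D⁻¹ * nn (0,0,e_b)) (Zf p (ω, (0, γ), τ), ω)` has `∂_τ φ = 0` (`rank`, `fderiv_quot`; differentiate
`IsZf.right`), `const_of_fderiv`, `IsZf.left`; then `w = iv (vt w) + ∑ b, w.2.2 b • (0,0,e_b)`, `nn_iv`.
Here `x = (y, z, ω)`. -/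
theorem OK.nn_eq (h : L.OK) : ∀ᶠ x : Amb A B × Amb A B × Amb A B in 𝓝 (L.p, L.p, star L.p),
    L.RR (x.2.1, x.2.2) = 0 → L.Gm (x.1, x.2.2) = L.Gm (x.2.1, x.2.2) →
      ∀ w, L.nn (x.2.1, x.2.2) w = 0 → L.nn (x.1, x.2.2) w = 0 := by
  have hZ := zf_spec h.p_mem
  have c1 : Tendsto (fun x : Amb A B × Amb A B × Amb A B => (x.1, x.2.2)) (𝓝 (L.p, L.p, star L.p)) (𝓝 L.ph) :=
    (by fun_prop : Continuous fun x : Amb A B × Amb A B × Amb A B => (x.1, x.2.2)).tendsto _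
  have c2 : Tendsto (fun x : Amb A B × Amb A B × Amb A B => (x.2.1, x.2.2)) (𝓝 (L.p, L.p, star L.p)) (𝓝 L.ph) :=
    (by fun_prop : Continuous fun x : Amb A B × Amb A B × Amb A B => (x.2.1, x.2.2)).tendsto _
  have c3 : Tendsto (fun x : Amb A B × Amb A B × Amb A B =>
      ((x.2.2, (L.Gm (x.2.1, x.2.2)).2), x.1.2.2, x.2.1.2.2)) (𝓝 (L.p, L.p, star L.p))
      (𝓝 ((star L.p, (L.Gm L.ph).2), L.p.2.2, L.p.2.2)) := by
    refine (Tendsto.prodMk_nhds ?_ ?_).prodMk_nhds ?_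
    · exact (by fun_prop : Continuous fun x : Amb A B × Amb A B × Amb A B => x.2.2).tendsto _
    · exact (continuous_snd.tendsto _).comp ((L.Gm_an h.hD).continuousAt.tendsto.comp c2)
    · exact (by fun_prop : Continuous fun x : Amb A B × Amb A B × Amb A B => (x.1.2.2, x.2.1.2.2)).tendsto _
  have hD := ((L.D_an _).continuousAt.eventually_ne h.hD).and hZ.left
  filter_upwards [c1.eventually hD, c2.eventually hD, c3.eventually (eventually_all.2 h.nn_eq_const)]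
    with x a1 a2 a3 hR hG w hw
  have e : ((0 : ℂ), (L.Gm (x.2.1, x.2.2)).2) = L.Gm (x.2.1, x.2.2) := Prod.ext ((L.Gm_fst a2.1).2 hR).symm rfl
  simp only [e] at a3
  rw [a2.2, ← hG, a1.2] at a3
  rw [nn_eq_split L a2.1] at hw
  rw [nn_eq_split L a1.1, hG]
  simp only [a3]
  rw [(mul_eq_zero.1 hw).resolve_left a2.1, mul_zero]

/-- the point of the slice with the same Segre jet; `x = (ω, z)` -/
noncomputable def yy (L : Lv 𝕜 A B) (x : Amb A B × Amb A B) : Amb A B := L.Zf L.p (x.1, L.Gm (x.2, x.1), L.p.2.2)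

theorem OK.yy_spec (h : L.OK) : AnalyticAt ℂ L.yy (star L.p, L.p) ∧ L.yy (star L.p, L.p) = L.p ∧
    (∀ᶠ x in 𝓝 (star L.p, L.p), L.Gm (L.yy x, x.1) = L.Gm (x.2, x.1) ∧ (L.yy x).2.2 = L.p.2.2) ∧
    ∀ᶠ ω in 𝓝 (star L.p), L.yy (ω, L.p) = L.p := by
  have hs := zf_spec h.p_mem
  have hsw : AnalyticAt ℂ (fun x : Amb A B × Amb A B => (x.2, x.1)) (star L.p, L.p) :=
    analyticAt_snd.prod analyticAt_fst
  have h1 : AnalyticAt ℂ (fun x : Amb A B × Amb A B => (x.1, L.Gm (x.2, x.1), L.p.2.2)) (star L.p, L.p) :=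
    analyticAt_fst.prod (((L.Gm_an h.hD).comp_of_eq hsw rfl).prod analyticAt_const)
  have h2 : ∀ᶠ ω in 𝓝 (star L.p), L.yy (ω, L.p) = L.p :=
    (continuous_const.prodMk continuous_id).continuousAt.tendsto.eventually hs.left
  exact ⟨hs.an.comp_of_eq h1 rfl, h2.self_of_nhds, h1.continuousAt.tendsto.eventually hs.right, h2⟩

/-- `amb_ift` for `x ↦ Gs (yy x, x.1)`; for `x.2 = p` this is `ω ↦ Gs (p, ω) = star (Gm (star ω, star p))` -/
theorem OK.exists_Om (h : L.OK) : ∃ Ω : Amb A B × Vt A × (B → ℂ) → Amb A B,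
    AnalyticAt ℂ Ω (L.p, L.Gs L.ph, star L.p.2.2) ∧
    (∀ᶠ x in 𝓝 (L.p, L.Gs L.ph, star L.p.2.2), L.Gs (L.yy (Ω x, x.1), Ω x) = x.2.1 ∧ (Ω x).2.2 = x.2.2) ∧
    ∀ᶠ q in 𝓝 (star L.p, L.p), Ω (q.2, L.Gs (L.yy q, q.1), q.1.2.2) = q.1 := by
  obtain ⟨ya, y0, -, yp⟩ := h.yy_spec
  let F : Amb A B × Amb A B → Vt A := fun x => L.Gs (L.yy x, x.1)
  have hF0 : F (star L.p, L.p) = L.Gs L.ph := by simp only [F, y0]; rfl
  have hF : AnalyticAt ℂ F (star L.p, L.p) :=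
    (L.Gs_an h.Ds_ph).comp_of_eq (ya.prod analyticAt_fst) (by rw [y0]; rfl)
  have hi : ∀ v : Vt A, fderiv ℂ F (star L.p, L.p) (iv v, 0) = 0 → v = 0 := by
    intro v hv
    have d1 : HasFDerivAt (fun ω => F (ω, L.p))
        ((fderiv ℂ F (star L.p, L.p)).comp (ContinuousLinearMap.inl ℂ _ _)) (star L.p) :=
      HasFDerivAt.comp (g := F) (f := fun ω => (ω, L.p)) (star L.p) hF.differentiableAt.hasFDerivAt
        (hasFDerivAt_prodMk_left _ _)
    have d2 : HasFDerivAt (fun q => L.Gm (q, star L.p))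
        ((fderiv ℂ L.Gm L.ph).comp (ContinuousLinearMap.inl ℂ _ _)) L.p :=
      HasFDerivAt.comp (g := L.Gm) (f := fun q => (q, star L.p)) L.p (L.Gm_an h.hD).differentiableAt.hasFDerivAt
        (hasFDerivAt_prodMk_left _ _)
    have e : (fun ω => F (ω, L.p)) =ᶠ[𝓝 (star L.p)] star ∘ (fun q => L.Gm (q, star L.p)) ∘ star := by
      filter_upwards [yp] with ω hω
      have := L.Gs_sym (star ω) (star L.p)
      simp only [star_star] at this
      simp only [F, hω, Function.comp, this]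
    have d3 := (d2.star_star.congr_of_eventuallyEq e).unique d1
    have h4 := congrArg (fun T : Amb A B →L[ℂ] Vt A => T (iv v)) d3
    simp only [ContinuousLinearMap.comp_apply, ContinuousLinearMap.inl_apply, hv, ContinuousLinearEquiv.coe_coe,
      starL_apply, star_eq_zero, star_iv] at h4
    exact star_eq_zero.1 (h.p_mem.2.2.2 _ h4)
  obtain ⟨Ω, h1, h2, h3⟩ := amb_ift hF hi
  rw [hF0] at h1 h2
  exact ⟨Ω, h1, h2, h3⟩

theorem Y_const_zero {X Y Z : Type} [NormedAddCommGroup X] [NormedSpace ℂ X] [NormedAddCommGroup Y] [NormedSpace ℂ Y]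
    [NormedAddCommGroup Z] [NormedSpace ℂ Z] {f : Y → Z} {g : X → Y} {x : X} {g' : X →L[ℂ] Y}
    (hg : HasFDerivAt g g' x) (hf : DifferentiableAt ℂ f (g x)) (h : ∀ᶠ y in 𝓝 x, f (g y) = 0) (δ : X) :
    fderiv ℂ f (g x) (g' δ) = 0 := by
  have h1 := (hf.hasFDerivAt.comp x hg).fderiv
  have h2 : fderiv ℂ (f ∘ g) x = 0 := by
    rw [EventuallyEq.fderiv_eq (f₁ := f ∘ g) (f := fun _ => (0 : Z)) h]
    simp
  rw [h2] at h1
  simpa using (congrArg (fun T : X →L[ℂ] Z => T δ) h1).symm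

/-- `Y ((z, g), τ) = yy (Ω (z, (0, g), τ), z)`.  For variations `δ = ((0, δg), δτ)`: `RR (z, Ω) = 0` gives `nn (z, Ω) δΩ = 0`, so
`nn (Y, Ω) δΩ = 0` (`nn_eq`), `RR (Y, Ω) = 0` gives `mm (Y, Ω) δY = 0`, i.e. `δY₀ + ∑ g a * δY a = 0` (`mm_iv`).  With
`h = Y₀ + ∑ g a * Y a`, `δh = ∑ δg a * Y a`; `legendre`, `const_of_fderiv`. -/
theorem OK.Y_const (h : L.OK) {Ω : Amb A B × Vt A × (B → ℂ) → Amb A B}
    (ha : AnalyticAt ℂ Ω (L.p, L.Gs L.ph, star L.p.2.2)) (h0 : Ω (L.p, L.Gs L.ph, star L.p.2.2) = star L.p)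
    (hr : ∀ᶠ x in 𝓝 (L.p, L.Gs L.ph, star L.p.2.2), L.Gs (L.yy (Ω x, x.1), Ω x) = x.2.1 ∧ (Ω x).2.2 = x.2.2) :
    ∀ᶠ x : (Amb A B × (A → ℂ)) × (B → ℂ) × (B → ℂ) in 𝓝 ((L.p, (L.Gs L.ph).2), star L.p.2.2, star L.p.2.2),
      L.yy (Ω (x.1.1, (0, x.1.2), x.2.1), x.1.1) = L.yy (Ω (x.1.1, (0, x.1.2), x.2.2), x.1.1) := by
  have hg1 : L.Gs L.ph = (0, (L.Gs L.ph).2) := Prod.ext ((L.Gs_fst h.Ds_ph).2 h.RR_ph) rfl
  obtain ⟨ya, y0, yr, -⟩ := h.yy_spec
  set x₀ : (Amb A B × (A → ℂ)) × (B → ℂ) := ((L.p, (L.Gs L.ph).2), star L.p.2.2) with hx₀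
  let ι : (Amb A B × (A → ℂ)) × (B → ℂ) → Amb A B × Vt A × (B → ℂ) := fun x => (x.1.1, (0, x.1.2), x.2)
  have hι0 : ι x₀ = (L.p, L.Gs L.ph, star L.p.2.2) := by rw [hg1]
  have hιa : AnalyticAt ℂ ι x₀ := by
    refine (analyticAt_fst.comp analyticAt_fst).prod
      ((analyticAt_const.prod (analyticAt_snd.comp analyticAt_fst)).prod analyticAt_snd)
  let Om : (Amb A B × (A → ℂ)) × (B → ℂ) → Amb A B := fun x => Ω (ι x)
  have hOa : AnalyticAt ℂ Om x₀ := ha.comp_of_eq hιa hι0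
  have hO0 : Om x₀ = star L.p := by simp only [Om, hι0, h0]
  have hza : ∀ x : (Amb A B × (A → ℂ)) × (B → ℂ), AnalyticAt ℂ (fun x : (Amb A B × (A → ℂ)) × (B → ℂ) => x.1.1) x :=
    fun x => analyticAt_fst.comp analyticAt_fst
  let Y : (Amb A B × (A → ℂ)) × (B → ℂ) → Amb A B := fun x => L.yy (Om x, x.1.1)
  have hYa : AnalyticAt ℂ Y x₀ := ya.comp_of_eq (hOa.prod (hza x₀)) (by rw [hO0])
  have hY0 : Y x₀ = L.p := by simp only [Y, hO0]; exact y0
  have t1 : Tendsto ι (𝓝 x₀) (𝓝 (L.p, L.Gs L.ph, star L.p.2.2)) := hι0 ▸ hιa.continuousAt.tendsto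
  have tO : Tendsto Om (𝓝 x₀) (𝓝 (star L.p)) := hO0 ▸ hOa.continuousAt.tendsto
  have tY : Tendsto Y (𝓝 x₀) (𝓝 L.p) := hY0 ▸ hYa.continuousAt.tendsto
  have tz : Tendsto (fun x : (Amb A B × (A → ℂ)) × (B → ℂ) => x.1.1) (𝓝 x₀) (𝓝 L.p) :=
    (hza x₀).continuousAt.tendsto
  have ea : ∀ᶠ x in 𝓝 x₀, L.Gs (Y x, Om x) = (0, x.1.2) := (t1.eventually hr).mono fun x hx => hx.1
  have eb : ∀ᶠ x in 𝓝 x₀, L.Gm (Y x, Om x) = L.Gm (x.1.1, Om x) ∧ (Y x).2.2 = L.p.2.2 :=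
    (tO.prodMk_nhds tz).eventually yr
  have ec1 : ∀ᶠ x in 𝓝 x₀, L.D (Y x, Om x) ≠ 0 :=
    (tY.prodMk_nhds tO).eventually ((L.D_an L.ph).continuousAt.eventually_ne h.hD)
  have ec2 : ∀ᶠ x in 𝓝 x₀, L.D (x.1.1, Om x) ≠ 0 :=
    (tz.prodMk_nhds tO).eventually ((L.D_an L.ph).continuousAt.eventually_ne h.hD)
  have ec3 : ∀ᶠ x in 𝓝 x₀, L.Ds (Y x, Om x) ≠ 0 :=
    (tY.prodMk_nhds tO).eventually ((L.Ds_an L.ph).continuousAt.eventually_ne h.Ds_ph)
  have ed : ∀ᶠ x in 𝓝 x₀, L.RR (Y x, Om x) = 0 ∧ L.RR (x.1.1, Om x) = 0 ∧ (Y x).2.2 = L.p.2.2 := by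
    filter_upwards [ea, eb, ec1, ec2, ec3] with x a1 a2 a3 a4 a5
    have b1 : L.RR (Y x, Om x) = 0 := (L.Gs_fst a5).1 (by rw [a1])
    exact ⟨b1, (L.Gm_fst a4).1 (by rw [← a2.1]; exact (L.Gm_fst a3).2 b1), a2.2⟩
  have ee := (tY.prodMk_nhds (tz.prodMk_nhds tO)).eventually h.nn_eq
  have key : ∀ᶠ x in 𝓝 x₀, ∀ δ : (Amb A B × (A → ℂ)) × (B → ℂ), δ.1.1 = 0 → (fderiv ℂ Y x δ).2.2 = 0 ∧
      (fderiv ℂ Y x δ).1 + ∑ a, x.1.2 a * (fderiv ℂ Y x δ).2.1 a = 0 := by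
    filter_upwards [ea, eb, ec3, ed.eventually_nhds, ee, hYa.eventually_analyticAt, hOa.eventually_analyticAt]
      with x a1 a2 a3 a4 a5 a6 a7 δ hδ
    have dY := a6.differentiableAt.hasFDerivAt
    have dO := a7.differentiableAt.hasFDerivAt
    have dz : HasFDerivAt (fun x : (Amb A B × (A → ℂ)) × (B → ℂ) => x.1.1)
        ((ContinuousLinearMap.fst ℂ _ _).comp (ContinuousLinearMap.fst ℂ _ _)) x := hasFDerivAt_fst.comp x hasFDerivAt_fst
    have c1 : L.nn (x.1.1, Om x) (fderiv ℂ Om x δ) = 0 := by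
      have := Y_const_zero (dz.prodMk dO) (L.RR_an _).differentiableAt (a4.mono fun y hy => hy.2.1) δ
      simpa [hδ, L.fderiv_RR] using this
    have c2 : L.mm (Y x, Om x) (fderiv ℂ Y x δ) = 0 := by
      have := Y_const_zero (dY.prodMk dO) (L.RR_an _).differentiableAt (a4.mono fun y hy => hy.1) δ
      simpa [L.fderiv_RR, a5 a4.self_of_nhds.2.1 a2.1 _ c1] using this
    have c3 : (fderiv ℂ Y x δ).2.2 = 0 := by
      have := Y_const_zero (f := fun q : Amb A B => q.2.2 - L.p.2.2) dY (by fun_prop)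
        (a4.mono fun y hy => sub_eq_zero.2 hy.2.2) δ
      rw [fderiv_sub_const] at this
      have e : fderiv ℂ (fun q : Amb A B => q.2.2) (Y x) =
          (ContinuousLinearMap.snd ℂ _ _).comp (ContinuousLinearMap.snd ℂ _ _) :=
        (hasFDerivAt_snd.comp (Y x) hasFDerivAt_snd).fderiv
      rwa [e] at this
    refine ⟨c3, ?_⟩
    rw [← iv_vt c3, L.mm_iv a3, a1] at c2
    exact (mul_eq_zero.1 c2).resolve_left a3
  let H : (Amb A B × (A → ℂ)) × (B → ℂ) → ℂ := fun x => (Y x).1 + ∑ a, x.1.2 a * (Y x).2.1 a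
  have pa : ∀ (a : A) x, AnalyticAt ℂ Y x → HasFDerivAt (fun x => (Y x).2.1 a)
      ((ContinuousLinearMap.proj (φ := fun _ => ℂ) a).comp ((ContinuousLinearMap.fst ℂ _ _).comp
        ((ContinuousLinearMap.snd ℂ _ _).comp (fderiv ℂ Y x)))) x := fun a x hx =>
    ((ContinuousLinearMap.proj (R := ℂ) (φ := fun _ : A => ℂ) a).hasFDerivAt.comp x
      hx.differentiableAt.hasFDerivAt.snd.fst)
  have hH : ∀ᶠ x in 𝓝 x₀, AnalyticAt ℂ H x ∧ ∀ δ : (Amb A B × (A → ℂ)) × (B → ℂ), δ.1.1 = 0 →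
      fderiv ℂ H x δ = ∑ a, δ.1.2 a * (Y x).2.1 a := by
    filter_upwards [key, hYa.eventually_analyticAt] with x a1 a2
    refine ⟨?_, fun δ hδ => ?_⟩
    · refine (analyticAt_fst.comp a2).add (Finset.analyticAt_fun_sum _ fun a _ => AnalyticAt.mul ?_ ?_)
      · exact ((ContinuousLinearMap.proj (R := ℂ) (φ := fun _ : A => ℂ) a).analyticAt _).comp
           (analyticAt_snd.comp analyticAt_fst)
      · exact ((ContinuousLinearMap.proj (R := ℂ) (φ := fun _ : A => ℂ) a).analyticAt _).comp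
           (analyticAt_fst.comp (analyticAt_snd.comp a2))
    · have pg : ∀ a : A, HasFDerivAt (fun x : (Amb A B × (A → ℂ)) × (B → ℂ) => x.1.2 a)
          ((ContinuousLinearMap.proj (φ := fun _ => ℂ) a).comp ((ContinuousLinearMap.snd ℂ _ _).comp
            (ContinuousLinearMap.fst ℂ _ _))) x := fun a =>
        ((ContinuousLinearMap.proj (R := ℂ) (φ := fun _ : A => ℂ) a).hasFDerivAt.comp x hasFDerivAt_fst.snd)
      have d := a2.differentiableAt.hasFDerivAt.fst.add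
        (HasFDerivAt.fun_sum (u := Finset.univ) fun a _ => (pg a).mul (pa a x a2))
      have e : fderiv ℂ H x δ = (fderiv ℂ Y x δ).1 +
          ∑ a, (x.1.2 a * (fderiv ℂ Y x δ).2.1 a + (Y x).2.1 a * δ.1.2 a) := by
        rw [show fderiv ℂ H x = _ from d.fderiv]
        simp
      rw [e, Finset.sum_add_distrib, ← add_assoc, (a1 δ hδ).2, zero_add]
      exact Finset.sum_congr rfl fun a _ => mul_comm _ _
  refine const_of_fderiv (f := Y) (x₀ := (L.p, (L.Gs L.ph).2)) (y₀ := star L.p.2.2) ?_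
  filter_upwards [key, hYa.eventually_analyticAt, hH.eventually_nhds] with x a1 a2 a3
  refine ⟨a2.differentiableAt, fun v => ?_⟩
  have c1 : (fderiv ℂ Y x (0, v)).2.1 = 0 := by
    funext a
    have := legendre (h := H) (Y := fun x => (Y x).2.1 a) (e₁ := ((0, Pi.single a 1), 0)) (e₂ := (0, v))
      a3.self_of_nhds.1 (a3.mono fun y hy => by rw [hy.2 _ rfl]; simp [Pi.single_apply])
      (a3.mono fun y hy => by rw [hy.2 _ rfl]; simp)
    rwa [(pa a x a2).fderiv] at this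
  obtain ⟨c2, c3⟩ := a1 (0, v) rfl
  refine Prod.ext ?_ (Prod.ext c1 c2)
  simpa [c1] using c3

/-- With `c = c s`, `g = Gs (c, star c)`: `yy (star c, z) = c`, `Ω (z, g, star t₀) = star c`, so for `ω = Ω (z, g, star z.t)`
`yy (ω, z) = c`, `Gs (c, ω) = g`, i.e. `Gm (star ω, star c) = Gm (c, star c)`; `IsZf.left` gives `star ω = z`. -/
theorem OK.fol_loc (h : L.OK) : ∀ᶠ y : Vt A × Amb A B in 𝓝 (L.s0, L.p), L.rho y.1 = 0 →
    L.Gm (y.2, star (L.c y.1)) = L.Gm (L.c y.1, star (L.c y.1)) → L.Rr y.2 = 0 := by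
  obtain ⟨Ω, Ωa, Ωr, Ωl⟩ := h.exists_Om
  obtain ⟨ya, y0, yr, -⟩ := h.yy_spec
  have Ω0 : Ω (L.p, L.Gs L.ph, star L.p.2.2) = star L.p := by
    have := Ωl.self_of_nhds
    rw [y0] at this
    exact this
  have hY := h.Y_const Ωa Ω0 Ωr
  have hs := zf_spec h.p_mem
  have hg1 : L.Gs L.ph = (0, (L.Gs L.ph).2) := Prod.ext ((L.Gs_fst h.Ds_ph).2 h.RR_ph) rfl
  set y₀ : Vt A × Amb A B := (L.s0, L.p) with hy₀
  have tc : Tendsto (fun y : Vt A × Amb A B => L.c y.1) (𝓝 y₀) (𝓝 L.p) :=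
    ((L.c_an L.s0).continuousAt.comp_of_eq continuousAt_fst rfl).tendsto
  have tcs : Tendsto (fun y : Vt A × Amb A B => star (L.c y.1)) (𝓝 y₀) (𝓝 (star L.p)) := tc.star
  have tz : Tendsto (fun y : Vt A × Amb A B => y.2) (𝓝 y₀) (𝓝 L.p) := continuousAt_snd.tendsto
  have tt : Tendsto (fun y : Vt A × Amb A B => star y.2.2.2) (𝓝 y₀) (𝓝 (star L.p.2.2)) :=
    (continuous_snd.snd.snd.continuousAt.tendsto).star
  have tg : Tendsto (fun y : Vt A × Amb A B => (L.Gs (L.c y.1, star (L.c y.1))).2) (𝓝 y₀) (𝓝 (L.Gs L.ph).2) :=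
    ((L.Gs_an h.Ds_ph).continuousAt.tendsto.comp (tc.prodMk_nhds tcs)).snd_nhds
  have ti : Tendsto (fun y : Vt A × Amb A B =>
      ((y.2, (0, (L.Gs (L.c y.1, star (L.c y.1))).2), star y.2.2.2) : Amb A B × Vt A × (B → ℂ))) (𝓝 y₀)
      (𝓝 (L.p, L.Gs L.ph, star L.p.2.2)) := by
    rw [hg1]
    exact tz.prodMk_nhds ((tendsto_const_nhds.prodMk_nhds tg).prodMk_nhds tt)
  have tω : Tendsto (fun y : Vt A × Amb A B => Ω (y.2, (0, (L.Gs (L.c y.1, star (L.c y.1))).2), star y.2.2.2))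
      (𝓝 y₀) (𝓝 (star L.p)) := Ω0 ▸ Ωa.continuousAt.tendsto.comp ti
  have tωs : Tendsto (fun y : Vt A × Amb A B => star (Ω (y.2, (0, (L.Gs (L.c y.1, star (L.c y.1))).2), star y.2.2.2)))
      (𝓝 y₀) (𝓝 L.p) := by simpa only [star_star] using tω.star
  have hDn := (L.D_an L.ph).continuousAt.eventually_ne h.hD
  have hDsn := (L.Ds_an L.ph).continuousAt.eventually_ne h.Ds_ph
  filter_upwards [(tc.prodMk_nhds tcs).eventually hs.left, (tz.prodMk_nhds tcs).eventually hs.left,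
    (tωs.prodMk_nhds tcs).eventually hs.left, (tcs.prodMk_nhds tz).eventually Ωl, ti.eventually Ωr,
    ((tz.prodMk_nhds tg).prodMk_nhds (tendsto_const_nhds.prodMk_nhds tt)).eventually hY,
    (tω.prodMk_nhds tz).eventually yr, (tc.prodMk_nhds tcs).eventually hDsn, (tc.prodMk_nhds tω).eventually hDsn,
    (tc.prodMk_nhds tω).eventually hDn, (tz.prodMk_nhds tω).eventually hDn]
    with y a1 a2 a3 a4 a5 a6 a7 a8 a9 a10 a11 hρ hG
  obtain ⟨s, z⟩ := y
  simp only at *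
  set c := L.c s with hc
  set ω := Ω (z, (0, (L.Gs (c, star c)).2), star z.2.2) with hω
  have b0 : L.RR (c, star c) = 0 := by
    rw [L.RR_diag]
    exact_mod_cast hρ
  have b1 : L.Gs (c, star c) = (0, (L.Gs (c, star c)).2) := Prod.ext ((L.Gs_fst a8).2 b0) rfl
  have b2 : L.yy (star c, z) = c := by
    simp only [yy, hG]
    exact a1
  have b3 : Ω (z, (0, (L.Gs (c, star c)).2), star L.p.2.2) = star c := by
    rw [b2, b1] at a4
    exact a4
  have b4 : L.yy (ω, z) = c := by rw [← a6, b3, b2]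
  rw [b4] at a5 a7
  have b5 : L.Gm (star ω, star c) = L.Gm (c, star c) := by
    have e1 := L.Gs_sym (star ω) (star c)
    have e2 := L.Gs_sym c (star c)
    simp only [star_star] at e1 e2
    rw [← star_inj, ← e1, ← e2, a5.1, ← b1]
  have b6 : star ω = z := by
    have e : (star ω).2.2 = z.2.2 := by
      change star ω.2.2 = _
      rw [a5.2, star_star]
    rw [← a3, b5, e, ← hG, a2]
  have b7 : L.RR (z, ω) = 0 := by
    refine (L.Gm_fst a11).1 ?_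
    rw [← a7.1]
    exact (L.Gm_fst a10).2 ((L.Gs_fst a9).1 (by rw [a5.1]))
  have b8 : ω = star z := by rw [← b6, star_star]
  rw [b8, L.RR_diag] at b7
  exact_mod_cast b7

/-- `retr`, `propagate` for `f z x = Rr (Fm z (χ x.1, x.2))` -/
theorem OK.fol (h : L.OK) (hz : z ∈ L.Zs) : ∀ᶠ x in 𝓝 (L.s0, z.2.2), L.rho x.1 = 0 → L.Rr (L.Fm z x) = 0 := by
  obtain ⟨χ, χa, χ0, χ1, χ2⟩ := retr (L.rho_an L.s0) h.rho_s0 h.drho_ne
  have hg : ∀ τ : B → ℂ, AnalyticAt ℝ (fun x : Vt A × (B → ℂ) => (χ x.1, x.2)) (L.s0, τ) := fun τ =>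
    (χa.comp_of_eq analyticAt_fst rfl).prod analyticAt_snd
  have tg : ∀ τ : B → ℂ, Tendsto (fun x : Vt A × (B → ℂ) => (χ x.1, x.2)) (𝓝 (L.s0, τ)) (𝓝 (L.s0, τ)) := fun τ => by
    simpa only [χ0] using (hg τ).continuousAt.tendsto
  have key := h.propagate (f := fun z x => L.Rr (L.Fm z (χ x.1, x.2))) (x₀ := L.s0)
    (fun z hz => (L.Rr_an _).comp ((h.Fm_an hz).comp_of_eq (hg _) (by rw [χ0])))
    (fun z hz => (h.Fm_germ hz).mono fun τ hτ => ((tg τ).eventually hτ).mono fun x hx => by simp only [hx]) ?_ z hz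
  · filter_upwards [key, continuousAt_fst.tendsto.eventually χ2] with x h1 h2 h3
    simp only [h2 h3] at h1
    exact h1
  · have tF : Tendsto (fun x : Vt A × (B → ℂ) => L.Fm L.p (χ x.1, x.2)) (𝓝 (L.s0, L.p.2.2)) (𝓝 L.p) := by
      have := (h.Fm_an h.p_mem).continuousAt.tendsto.comp (tg _)
      rwa [Fm_self h.p_mem] at this
    filter_upwards [((tg L.p.2.2).fst_nhds.prodMk_nhds tF).eventually h.fol_loc,
      (tg L.p.2.2).eventually (h.Fm_eq h.p_mem), continuousAt_fst.tendsto.eventually χ1] with x h1 h2 h3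
    exact h1 h3 h2.1

end Lv

end Crest.Agent.R264.Fol
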