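import Crest.Agent.R264.Fol.Alg

/-! Block Fol (owner helper79): assembly. -/

set_option autoImplicit false
set_option linter.unusedSectionVars false
set_option linter.unusedVariables false
open Set Filter Topology MvPolynomial Complex

namespace Crest.Agent.R264.Fol

variable {A B : Type} [Fintype A] [Fintype B] [DecidableEq A] [DecidableEq B] {𝕜 : Subfield ℝ}

namespace Lv

variable {L : Lv 𝕜 A B}

theorem core_freq {g : MvPolynomial B ℂ} (hg : g ≠ 0) (t : B → ℂ) : ∃ᶠ τ in 𝓝 t, eval τ g ≠ 0 := by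
  intro h
  apply hg
  have h1 : (fun τ : B → ℂ => eval τ g) =ᶠ[𝓝 t] 0 := h.mono fun τ hτ => not_not.1 hτ
  have h2 := AnalyticOnNhd.eqOn_zero_of_preconnected_of_eventuallyEq_zero
    (fun τ _ => (fderiv_eval g τ 0).1) isPreconnected_univ (mem_univ t) h1
  exact MvPolynomial.funext fun τ => by simpa using h2 (mem_univ τ)

theorem OK.core [Countable 𝕜] (h : L.OK) {W : Set (Amb A B)} (hW : W ∈ 𝓝 L.p) :
    ∃ (G : Geo A B) (𝕜₁ : Subfield ℝ), G.OK L.Rr ∧ G.AlgOK 𝕜 𝕜₁ ∧ G.nd G.p ∧ G.p ∈ W ∧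
      ∀ᶠ q in 𝓝 G.p, (0 < G.r G.p q ↔ 0 < L.Rr q) := by
  obtain ⟨g, hg0, hg⟩ := h.exists_h0
  have hp := h.p_mem
  have hnp : L.Nd L.p := fun x hx => by rwa [h.dF_p] at hx
  have hbc : Tendsto (L.b L.p) (𝓝 L.p.2.2) (𝓝 L.p) := by
    simpa only [b_self hp] using (b_an hp).continuousAt.tendsto
  obtain ⟨τ, hτg, hτZ, hτt, hτW, hτr, hτs⟩ : ∃ τ, eval τ g ≠ 0 ∧ L.b L.p τ ∈ L.Zs ∧ (L.b L.p τ).2.2 = τ ∧
      L.b L.p τ ∈ W ∧ (L.Nd (L.b L.p τ) ∧ L.r L.p =ᶠ[𝓝 (L.b L.p τ)] L.r (L.b L.p τ)) ∧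
      ∀ᶠ q in 𝓝 (L.b L.p τ), (0 < L.r L.p q ↔ 0 < L.Rr q) :=
    ((core_freq hg0 L.p.2.2).and_eventually ((b_Zs h.p_Zs).and (((b_mem hp).mono fun τ hτ => hτ.1).and
      ((hbc.eventually hW).and ((h.r_germ hp hnp).and (hbc.eventually h.r_sign.eventually_nhds)))))).exists
  set q₀ := L.b L.p τ with hq₀
  set G := L.geo g q₀ with hG
  set F : Set (Amb A B) := {z | (∀ f ∈ G.Eqs, f z = 0) ∧ G.h0 z.2.2 ≠ 0} with hF
  have hFS : F ⊆ L.S := fun q hq => hg q (fun f h1 h2 => hq.1 f ⟨h1, h2⟩) hq.2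
  have hZF : ∀ q ∈ L.Zs, eval q.2.2 g ≠ 0 → q ∈ F := fun q hq h0 => ⟨fun f hf => hf.2 q hq, h0⟩
  have hq₀F : q₀ ∈ F := hZF q₀ hτZ (by rwa [hτt])
  have hZdef : G.Z = connectedComponentIn F q₀ := rfl
  have hZs : G.Z ⊆ L.Zs := by
    rw [hZdef, Zs, connectedComponentIn_eq hτZ]
    exact connectedComponentIn_mono _ hFS
  have hZS : G.Z ⊆ L.S := hZs.trans Zs_sub
  have hnd : ∀ z ∈ G.Z, G.nd z ↔ L.Nd z := fun z hz => h.nd_iff (hZS hz)
  have hEq : ∀ j, (fun q => fv (L.Eh (L.p, q)) j) ∈ G.Eqs := by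
    intro j
    refine ⟨fun q _ => ?_, fun z hz => by simp only [h.Eh_S (Zs_sub hz)]; cases j <;> rfl⟩
    have h1 := L.Eh_pol' (𝕜' := ⊤) le_top (x := fun i (q : Amb A B) => fu q i) (φ := fun _ => L.p) (ψ := fun q => q)
      (fun i => Pol.const (cx_top _)) (fun i => Pol.const (cx_top _)) (fun i => Pol.coord _ i) j
    obtain ⟨T, hT⟩ := exists_fuL A B
    exact (Pol.fderiv (𝕃 := ℂ) (fun i => ⟨(ContinuousLinearMap.proj (φ := fun _ => ℂ) i).comp
      (T : Amb A B →L[ℂ] (Option A ⊕ B → ℂ)), fun e => by simp [hT]⟩) h1).1 q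
  refine ⟨G, adj 𝕜 (ra L.p), ?_, ?_, (h.nd_iff (Zs_sub hτZ)).2 hτr.1, hτW, ?_⟩
  · exact
      { anE := fun f hf => hf.1
        anh := fun τ _ => (fderiv_eval g τ 0).1
        pZ := mem_connectedComponentIn hq₀F
        anb := fun z hz => b_an (hZS hz)
        bz := fun z hz => b_self (hZS hz)
        bt := fun z hz => by
          have h1 := b_mem (hZS hz)
          have h2 : ∀ᶠ τ in 𝓝 z.2.2, eval τ g ≠ 0 :=
            (fderiv_eval g z.2.2 0).1.continuousAt.eventually_ne (connectedComponentIn_subset _ _ hz).2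
          have h3 : ∀ᶠ τ in 𝓝 z.2.2, ContinuousAt (L.b z) τ ∧ L.b z τ ∈ F := by
            filter_upwards [h1, h2, b_Zs (hZs hz), (b_an (hZS hz)).eventually_analyticAt] with τ a1 a2 a3 a4
            exact ⟨a4.continuousAt, hZF _ a3 (by rwa [a1.1])⟩
          have h4 := comp_near (F := F) (x := q₀) (by rw [b_self (hZS hz)]; exact hz) h3
          filter_upwards [h1, h4] with τ a1 a2
          exact ⟨a1.1, a2⟩
        bu := fun z hz => (h.eqs_uniq (hZS hz)).mono fun q hq hf => hq (fv_inj fun j => hf _ (hEq j))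
        anth := fun z hz => h.th_an (hZS hz)
        th0 := fun z hz => h.th_ne (hZS hz)
        anxi := fun z hz => h.xi_an (hZS hz)
        aneta := fun z hz => h.eta_an (hZS hz)
        anbe := fun z hz => h.be_an (hZS hz)
        symm := fun z hz => h.symm (hZS hz)
        rel := fun z hz a a' => by
          change L.be z a (L.xi z a') = 2 * L.eta z a a' + (L.ka a a' : ℂ)
          rw [eta_apply]; ring
        skew := L.skew
        ndeg := h.ndeg
        surj := fun z hz => h.surj (hZS hz)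
        anr := fun z hz hn => h.r_an (hZS hz) ((hnd z hz).1 hn)
        rR := fun z hz hn => h.r_R (hZs hz) ((hnd z hz).1 hn)
        rexp := fun z hz hn => h.r_exp (hZS hz) ((hnd z hz).1 hn) g q₀
        rgerm := fun z hz hn => (h.r_germ (hZS hz) ((hnd z hz).1 hn)).mono fun τ hτ => hτ.2 }
  · exact
      { le := le_adj _ _
        cnt := countable_adj _
        h0 := ⟨g, hg0, fun _ => rfl⟩
        uniq := fun z hz => h.alg_uniq hZS (hZS hz)
        alg := fun z hz => h.alg_alg (hZS hz)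
        deg := by
          obtain ⟨f, hf⟩ := h.alg_deg
          exact ⟨f, fun z hz => (hnd z hz).trans (hf z (hZS hz))⟩
        tsx := fun z hz hn => h.alg_tsx (hZS hz) ((hnd z hz).1 hn)
        trv := fun z hz hn => h.alg_trv (hZS hz) ((hnd z hz).1 hn) }
  · filter_upwards [hτs, hτr.2] with q h1 h2
    change 0 < L.r q₀ q ↔ _
    rw [← h2, h1]

end Lv

theorem exists_Lv_m {ι : Type} [Fintype ι] [DecidableEq ι] {R₀ : MvPolynomial (ι ⊕ ι) 𝕜} {p₀ : ι → ℂ}
    (hd : ∃ i, aeval (rc p₀) (pderiv i R₀) ≠ 0) :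
    ∃ v : ι → ℂ, fderiv ℂ (RRi R₀) (p₀, star p₀) (v, 0) ≠ 0 := by
  obtain ⟨i, hi⟩ := hd
  obtain ⟨T, hT⟩ := exists_rcL ι
  refine ⟨T.symm (Pi.single i 1), fun h => hi ?_⟩
  have h1 := (fderiv_diag (f := RRi R₀) (g := fun z => aeval (rc z) R₀) (RRi_an R₀) (RRi_sym R₀) (RRi_diag R₀) p₀
    (T.symm (Pi.single i 1)) 0).2.1
  rw [h] at h1
  have h2 : (fun z => aeval (rc z) R₀) = (fun q : ι ⊕ ι → ℝ => aeval q R₀) ∘ T := by
    funext z; simp [hT]
  rw [h2, T.comp_right_fderiv] at h1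
  simp only [ContinuousLinearMap.comp_apply, ContinuousLinearEquiv.coe_coe, T.apply_symm_apply, hT p₀] at h1
  rw [fderiv_aeval, Finset.sum_eq_single i] at h1
  · simpa using h1
  · intro j _ hj; simp [hj]
  · simp

theorem exists_Lv_rc {ι κ : Type} (z : ι → ℂ) (e : κ → ι) : rc z ∘ Sum.map e e = rc (z ∘ e) := by
  funext i; rcases i with i | i <;> rfl

theorem exists_Lv_chain {E F : Type} [NormedAddCommGroup E] [NormedSpace ℂ E] [NormedAddCommGroup F]
    [NormedSpace ℂ F] [CompleteSpace F] {f : F → ℂ} (hf : ∀ x, AnalyticAt ℂ f x) (T : E →L[ℂ] F) (x a a' : E) :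
    fderiv ℂ (fun y => f (T y)) x a = fderiv ℂ f (T x) (T a) ∧
      fderiv ℂ (fderiv ℂ (fun y => f (T y))) x a a' = fderiv ℂ (fderiv ℂ f) (T x) (T a) (T a') := by
  constructor
  · have := ((hf (T x)).differentiableAt.hasFDerivAt.comp x T.hasFDerivAt).fderiv
    exact congrArg (fun φ => φ a) this
  · have h0 := fderiv2_clm T 0 x a a'
    simp only [add_zero] at h0
    rw [chain2 (hf (T x)) (T.analyticAt x), T.fderiv]
    erw [h0]
    simp

/-- choice of coordinates -/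
theorem exists_Lv {ι : Type} [Fintype ι] [DecidableEq ι] {R₀ : MvPolynomial (ι ⊕ ι) 𝕜} {p₀ : ι → ℂ}
    (h0 : aeval (rc p₀) R₀ = 0) (hI : ∀ f : MvPolynomial (ι ⊕ ι) 𝕜, aeval (rc p₀) f = 0 → R₀ ∣ f)
    (hd : ∃ i, aeval (rc p₀) (pderiv i R₀) ≠ 0) (htd : td 𝕜 (rc p₀) + 1 = 2 * Fintype.card ι) :
    ∃ (A B : Type) (_ : Fintype A) (_ : Fintype B) (_ : DecidableEq A) (_ : DecidableEq B) (e : Option A ⊕ B ≃ ι)
      (L : Lv 𝕜 A B), L.OK ∧ fu L.p ∘ e.symm = p₀ ∧ ∀ z, L.Rr z = aeval (rc (fu z ∘ e.symm)) R₀ := by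
  set F := RRi R₀ with hF
  have hFa : ∀ x, AnalyticAt ℂ F x := RRi_an R₀
  let m : (ι → ℂ) →ₗ[ℂ] ℂ := (fderiv ℂ F (p₀, star p₀)).toLinearMap.comp (LinearMap.inl ℂ _ _)
  let n : (ι → ℂ) →ₗ[ℂ] ℂ := (fderiv ℂ F (p₀, star p₀)).toLinearMap.comp (LinearMap.inr ℂ _ _)
  let H : (ι → ℂ) →ₗ[ℂ] (ι → ℂ) →ₗ[ℂ] ℂ := LinearMap.mk₂ ℂ
    (fun v y => fderiv ℂ (fderiv ℂ F) (p₀, star p₀) (v, 0) (0, y))
    (fun a b y => by rw [← add_apply, ← map_add]; simp)
    (fun c a y => by rw [← smul_apply, ← map_smul]; simp)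
    (fun a b y => by rw [← map_add]; simp)
    (fun c a y => by rw [← map_smul]; simp)
  have hm : ∀ v, m v = fderiv ℂ F (p₀, star p₀) (v, 0) := fun v => rfl
  have hn : ∀ v, n v = fderiv ℂ F (p₀, star p₀) (0, v) := fun v => rfl
  have hH : ∀ v y, H v y = fderiv ℂ (fderiv ℂ F) (p₀, star p₀) (v, 0) (0, y) := fun v y => rfl
  have hm0 : m ≠ 0 := by
    obtain ⟨v, hv⟩ := exists_Lv_m hd
    exact fun h => hv (by rw [← hm, h]; rfl)
  have hFd : Differentiable ℂ F := fun x => (hFa x).differentiableAt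
  obtain ⟨A, B, iA, iB, dA, dB, e, hD, hK⟩ := choose_coord (m := m) (n := n) (L := H) hm0
    (fun y => by
      have := fderiv_sym hFd hFd (RRi_sym R₀) p₀ (star p₀) (star y) 0
      rw [star_star, star_star, star_zero] at this
      rw [hn, hm, this])
    (fun v y => by
      have := fderiv2_sym hFa (RRi_sym R₀) p₀ (star p₀) 0 y v 0
      rw [star_star, star_zero] at this
      rw [hH, hH, this, ((hFa _).contDiffAt (n := ⊤)).isSymmSndFDerivAt (by simp) (0, y) (v, 0)])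
  obtain ⟨T, hT⟩ := exists_fuL A B
  let U : Amb A B ≃L[ℂ] (ι → ℂ) := T.trans (ContinuousLinearEquiv.piCongrLeft ℂ (fun _ : ι => ℂ) e)
  have hU : ∀ z, U z = fu z ∘ e.symm := by
    intro z
    funext i
    obtain ⟨j, rfl⟩ := e.surjective i
    simp only [U, hT, ContinuousLinearEquiv.trans_apply, Function.comp_apply, Equiv.symm_apply_apply]
    exact Equiv.piCongrLeft_apply_apply (fun _ : ι => ℂ) e (fu z) j
  let L : Lv 𝕜 A B := ⟨rename (Sum.map e.symm e.symm) R₀, U.symm p₀⟩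
  have hp : fu L.p ∘ e.symm = p₀ := by rw [← hU]; exact U.apply_symm_apply p₀
  have hR : ∀ z, L.Rr z = aeval (rc (fu z ∘ e.symm)) R₀ := by
    intro z
    change aeval (rc (fu z)) (rename _ R₀) = _
    rw [aeval_rename, exists_Lv_rc]
  have hra : ra L.p ∘ Sum.map e.symm e.symm = rc p₀ := by rw [ra, exists_Lv_rc, hp]
  have hra' : rc p₀ ∘ Sum.map e e = ra L.p := by
    rw [← hra]; funext i; rcases i with i | i <;> simp
  let V : Amb A B × Amb A B →L[ℂ] (ι → ℂ) × (ι → ℂ) :=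
    (U : Amb A B →L[ℂ] (ι → ℂ)).prodMap (U : Amb A B →L[ℂ] (ι → ℂ))
  have hV : ∀ v w, V (v, w) = (U v, U w) := fun v w => rfl
  have hRR : L.RR = fun x => F (V x) := by
    funext x
    change aeval (xy (fu x.1, fu x.2)) (rename _ R₀) = aeval (xy (U x.1, U x.2)) R₀
    rw [aeval_rename, hU, hU]
    congr 2
    funext i; rcases i with i | i <;> rfl
  have hUs : ∀ z, U (star z) = star (U z) := by
    intro z; rw [hU, hU, fu_star]; rfl
  have hph : V L.ph = (p₀, star p₀) := by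
    change (U L.p, U (star L.p)) = _
    rw [hUs, hU, hp]
  have hbs : ∀ j, U (bs j) = Pi.single (e j) 1 := by
    intro j
    rw [hU, fu_bs]
    funext i
    obtain ⟨k, rfl⟩ := e.surjective i
    simp [Pi.single_apply]
  have hmm : ∀ v, L.mm L.ph v = m (U v) := by
    intro v
    rw [L.mm_apply, hRR, (exists_Lv_chain hFa V _ _ 0).1, hph, hV, map_zero, hm]
  have hnn : ∀ v, L.nn L.ph v = n (U v) := by
    intro v
    rw [L.nn_apply, hRR, (exists_Lv_chain hFa V _ _ 0).1, hph, hV, map_zero, hn]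
  have hHH : ∀ v y, L.HH L.ph (v, 0) (0, y) = H (U v) (U y) := by
    intro v y
    rw [Lv.HH, hRR, (exists_Lv_chain hFa V _ _ _).2, hph, hV, hV, map_zero, hH]
  have hlm : ∀ j v, L.lm (bs j) L.ph v = n (Pi.single (e (Sum.inl none)) 1) * H (U v) (Pi.single (e j) 1) -
      n (Pi.single (e j) 1) * H (U v) (Pi.single (e (Sum.inl none)) 1) := by
    intro j v
    change L.nn L.ph (bs (Sum.inl none)) * L.HH L.ph (v, 0) (0, bs j) -
      L.nn L.ph (bs j) * L.HH L.ph (v, 0) (0, bs (Sum.inl none)) = _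
    rw [hnn, hnn, hHH, hHH, hbs, hbs]
  refine ⟨A, B, iA, iB, dA, dB, e, L, ⟨?_, ?_, ?_, ?_, ?_⟩, hp, hR⟩
  · exact (hR L.p).trans (by rw [hp, h0])
  · intro f hf
    have h1 := hI (rename (Sum.map e e) f) (by rw [aeval_rename, hra', hf])
    have h2 := map_dvd (rename (Sum.map e.symm e.symm) : MvPolynomial (ι ⊕ ι) 𝕜 →ₐ[𝕜] _) h1
    rw [rename_rename] at h2
    have h3 : Sum.map e.symm e.symm ∘ Sum.map e e = id := by
      funext i; rcases i with i | i <;> simp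
    rwa [h3, rename_id, AlgHom.id_apply] at h2
  · have h1 := td_comp_le (𝕜 := 𝕜) (ra L.p) (Sum.map e.symm e.symm)
    have h2 := td_comp_le (𝕜 := 𝕜) (rc p₀) (Sum.map e e)
    rw [hra] at h1
    rw [hra'] at h2
    rw [Fintype.card_congr e, ← htd, le_antisymm h1 h2]
  · change L.nn L.ph (bs (Sum.inl none)) ≠ 0
    rwa [hnn, hbs]
  · intro v hv ha
    obtain ⟨k1, k2⟩ := hK (U v) (by rw [← hmm, hv]) (fun a => by rw [← hlm]; exact ha a)
    refine ⟨fun ht => ?_, fun b => (hlm (Sum.inr b) v).trans (k2 b)⟩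
    have := k1 fun b => by
      rw [hU]
      simp only [Function.comp_apply, Equiv.symm_apply_apply]
      exact congrFun ht b
    exact U.injective (by rw [this, map_zero])

end Crest.Agent.R264.Fol
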