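import Crest.Agent.R264.Fol.Jet
import Crest.Agent.R264.Fol.Leaf

/-! Block Fol (owner helper79): the defining function. -/

set_option autoImplicit false
set_option linter.unusedSectionVars false
set_option linter.unusedVariables false
open Set Filter Topology MvPolynomial Complex

namespace Crest.Agent.R264.Fol

variable {A B : Type} [Fintype A] [Fintype B] [DecidableEq A] [DecidableEq B] {𝕜 : Subfield ℝ}

namespace Lv

variable {L : Lv 𝕜 A B} {z : Amb A B}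

theorem OK.sg_spec (h : L.OK) (hz : z ∈ L.S) (hn : L.Nd z) : L.IsInv z (L.sg z) := by
  have hd : Module.finrank ℝ (Vt A × (B → ℂ)) = Module.finrank ℝ (Amb A B) := by
    simp only [Module.finrank_prod, add_assoc]
  obtain ⟨g, h1, h2, h3⟩ := an_inv hd (h.Fm_an hz) (h.DF_bij hz hn).1
  rw [Fm_self hz] at h1 h3
  exact Classical.epsilon_spec (p := L.IsInv z) ⟨g, h1, h2, h3⟩

theorem OK.sg_self (h : L.OK) (hz : z ∈ L.S) (hn : L.Nd z) : L.sg z z = (L.s0, z.2.2) := by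
  have := (h.sg_spec hz hn).left.self_of_nhds
  rwa [Fm_self hz] at this

theorem OK.r_an (h : L.OK) (hz : z ∈ L.S) (hn : L.Nd z) : AnalyticAt ℝ (L.r z) z := by
  exact (L.rho_an _).comp (f := fun q => (L.sg z q).1) (analyticAt_fst.comp (h.sg_spec hz hn).an)

theorem OK.r_Fm (h : L.OK) (hz : z ∈ L.S) (hn : L.Nd z) : ∀ᶠ x in 𝓝 (L.s0, z.2.2), L.r z (L.Fm z x) = L.rho x.1 := by
  filter_upwards [(h.sg_spec hz hn).left] with x hx
  rw [r, hx]

theorem OK.r_self (h : L.OK) (hz : z ∈ L.S) (hn : L.Nd z) : L.r z z = 0 := by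
  rw [r, h.sg_self hz hn]
  exact h.rho_s0

theorem OK.r_DF (h : L.OK) (hz : z ∈ L.S) (hn : L.Nd z) (y : Vt A × (B → ℂ)) :
    fderiv ℝ (L.r z) z (L.DF z y) = fderiv ℝ L.rho L.s0 y.1 := by
  have h1 : HasFDerivAt (L.r z) (fderiv ℝ (L.r z) z) (L.Fm z (L.s0, z.2.2)) := by
    rw [Fm_self hz]; exact (h.r_an hz hn).differentiableAt.hasFDerivAt
  have h2 := h1.comp _ (h.Fm_an hz).differentiableAt.hasFDerivAt
  have h3 : HasFDerivAt (fun x : Vt A × (B → ℂ) => L.rho x.1) _ (L.s0, z.2.2) :=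
    HasFDerivAt.comp (g := L.rho) (f := Prod.fst) (L.s0, z.2.2) (L.rho_an L.s0).differentiableAt.hasFDerivAt
      hasFDerivAt_fst
  have h4 := h2.unique (h3.congr_of_eventuallyEq (h.r_Fm hz hn))
  exact congrArg (fun T : Vt A × (B → ℂ) →L[ℝ] ℝ => T y) h4

theorem OK.r_d1 (h : L.OK) (hz : z ∈ L.S) (hn : L.Nd z) (v : Vt A) : fderiv ℝ (L.r z) z (iv v) = (L.th z v).im := by
  obtain ⟨x, rfl⟩ := (h.DF_bij hz hn).2.2 v
  rw [← h.DF_inl hz, h.r_DF hz hn, h.drho, h.th_dF hz]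

theorem mm_d2_clm {E F G : Type} [NormedAddCommGroup E] [NormedSpace ℝ E] [NormedAddCommGroup F]
    [NormedSpace ℝ F] [CompleteSpace F] [NormedAddCommGroup G] [NormedSpace ℝ G] [CompleteSpace G]
    (T : F →L[ℝ] G) {Φ : E → F} {x : E} (hΦ : AnalyticAt ℝ Φ x) (a a' : E) :
    fderiv ℝ (fderiv ℝ (fun y => T (Φ y))) x a a' = T (fderiv ℝ (fderiv ℝ Φ) x a a') := by
  have := fderiv2_clm T 0 (Φ x) (fderiv ℝ Φ x a) (fderiv ℝ Φ x a')
  simp only [add_zero] at this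
  rw [chain2 (T.analyticAt _) hΦ, T.fderiv]
  exact (congrArg (· + _) this).trans (zero_add _)

theorem OK.mm_d2_F (h : L.OK) (hz : z ∈ L.S) : AnalyticAt ℝ (fun s => L.Fm z (s, z.2.2)) L.s0 ∧
    (∀ x, fderiv ℝ (fun s => L.Fm z (s, z.2.2)) L.s0 x = iv (L.dF z x)) ∧
    Tendsto (fun s : Vt A => (s, z.2.2)) (𝓝 L.s0) (𝓝 (L.s0, z.2.2)) := by
  refine ⟨(h.Fm_an hz).comp_of_eq (analyticAt_id.prod analyticAt_const) rfl, fun x => ?_,
    (Continuous.prodMk_left _).tendsto _⟩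
  have := (HasFDerivAt.comp L.s0 (f := fun s : Vt A => (s, z.2.2)) (h.Fm_an hz).differentiableAt.hasFDerivAt
    (hasFDerivAt_prodMk_left L.s0 z.2.2)).fderiv
  rw [← h.DF_inl hz]
  exact congrArg (fun T : Vt A →L[ℝ] Amb A B => T x) this

/-- `F s = Fm z (s, z.t)`.  `chain2` for `RR (F s, star (c s)) = μ s * rho s`, `μ s = D (F s, star (c s)) / D (c s, star (c s))`
(first component of `Fm_eq`), `fderiv2_mul`. -/
theorem OK.mm_d2 (h : L.OK) (hz : z ∈ L.S) (a : A → ℂ) :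
    L.HH (z, star L.p) (L.up z (L.lf L.p a)) (L.up z (L.lf L.p a)) +
      L.mm (z, star L.p) (fderiv ℝ (fderiv ℝ fun s => L.Fm z (s, z.2.2)) L.s0 (L.lf L.p a) (L.lf L.p a)) =
    L.mu z * (fderiv ℝ (fderiv ℝ L.rho) L.s0 (L.lf L.p a) (L.lf L.p a) : ℝ) := by
  obtain ⟨f1, f2, f3⟩ := OK.mm_d2_F h hz
  obtain ⟨T, hT, hT'⟩ := L.hasFDerivAt_diag L.s0
  set F : Vt A → Amb A B := fun s => L.Fm z (s, z.2.2) with hF
  set x := L.lf L.p a with hx
  let T₂ : Vt A →L[ℝ] Amb A B := (ContinuousLinearMap.snd ℝ _ _).comp T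
  have hc : (fun s => star (L.c s)) = fun s => T₂ s + star (0, 0, L.p.2.2) := funext fun s => congrArg Prod.snd (hT' s)
  have c1 : AnalyticAt ℝ (fun s => star (L.c s)) L.s0 := by
    rw [hc]; exact (T₂.analyticAt _).add analyticAt_const
  have c2 : fderiv ℝ (fun s => star (L.c s)) L.s0 x = iv (star x) := by
    rw [hc, fderiv_add_const, T₂.fderiv]
    exact congrArg Prod.snd (hT x)
  have c3 : fderiv ℝ (fderiv ℝ fun s => star (L.c s)) L.s0 x x = 0 := by rw [hc, fderiv2_clm]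
  have hF0 : F L.s0 = z := Fm_self hz
  have hΦ : AnalyticAt ℝ (fun s => (F s, star (L.c s))) L.s0 := f1.prod c1
  have hΦ0 : (F L.s0, star (L.c L.s0)) = (z, star L.p) := by rw [hF0, c_s0]
  have d1 : fderiv ℝ (fun s => (F s, star (L.c s))) L.s0 x = L.up z x := by
    rw [f1.differentiableAt.fderiv_prodMk c1.differentiableAt, ContinuousLinearMap.prod_apply, f2, c2, up]
  have d2 : fderiv ℝ (fderiv ℝ fun s => (F s, star (L.c s))) L.s0 x x = (fderiv ℝ (fderiv ℝ F) L.s0 x x, 0) :=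
    Prod.ext (mm_d2_clm (ContinuousLinearMap.fst ℝ _ _) hΦ x x).symm
      ((mm_d2_clm (ContinuousLinearMap.snd ℝ _ _) hΦ x x).symm.trans c3)
  have e1 := chain2 (f := L.RR) (L.RR_an _).restrictScalars hΦ x x
  rw [d1, d2, hΦ0, (fderiv_real (L.RR_an _) (L.up z x) (L.up z x)).2, (fderiv_real (L.RR_an _) _ 0).1] at e1
  have hD : AnalyticAt ℝ (fun s => L.D (F s, star (L.c s))) L.s0 := (L.D_an _).restrictScalars.comp hΦ
  have hD' : AnalyticAt ℝ (fun s => L.D (L.c s, star (L.c s))) L.s0 :=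
    (L.D_an _).restrictScalars.comp ((L.c_an _).prod c1)
  have e2 : (fun s => L.RR (F s, star (L.c s))) =ᶠ[𝓝 L.s0]
      fun s => L.D (F s, star (L.c s)) / L.D (L.c s, star (L.c s)) * Complex.ofRealCLM (L.rho s) := by
    filter_upwards [f3.eventually (h.Fm_eq hz), hD.continuousAt.eventually_ne (by rw [hΦ0]; exact hz.2.1)]
      with s h1 h2
    have h3 : (L.D (F s, star (L.c s)))⁻¹ * L.RR (F s, star (L.c s)) =
        (L.D (L.c s, star (L.c s)))⁻¹ * L.RR (L.c s, star (L.c s)) := congrArg Prod.fst h1.1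
    rw [RR_diag] at h3
    rw [div_eq_mul_inv, mul_assoc, Complex.ofRealCLM_apply, rho, ← h3, mul_inv_cancel_left₀ h2]
  have r1 : AnalyticAt ℝ (fun s => Complex.ofRealCLM (L.rho s)) L.s0 := (Complex.ofRealCLM.analyticAt _).comp (L.rho_an _)
  have r2 : fderiv ℝ (fun s => Complex.ofRealCLM (L.rho s)) L.s0 x = 0 := by
    have := (Complex.ofRealCLM.hasFDerivAt.comp L.s0 (L.rho_an _).differentiableAt.hasFDerivAt).fderiv
    rw [show fderiv ℝ (fun s => Complex.ofRealCLM (L.rho s)) L.s0 = _ from this, ContinuousLinearMap.comp_apply,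
      h.drho, hx, h.th_lf h.p_mem, zero_im, map_zero]
  rw [e2.fderiv.fderiv_eq, fderiv2_mul (hD.fun_div hD' h.hD) r1 (by rw [h.rho_s0, map_zero]) r2 r2,
    mm_d2_clm _ (L.rho_an _), hΦ0] at e1
  exact e1.symm

/-- `chain2` for `r z (F s) = rho s`; the second derivative of `F` is vertical; `mm_d2`, `im_eta` -/
theorem OK.r_d2 (h : L.OK) (hz : z ∈ L.S) (hn : L.Nd z) (a : A → ℂ) :
    fderiv ℝ (fderiv ℝ (L.r z)) z (iv (L.lf z (L.xi z a))) (iv (L.lf z (L.xi z a))) = -2 * (L.eta z a a).im := by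
  obtain ⟨f1, f2, f3⟩ := OK.mm_d2_F h hz
  have e0 := h.mm_d2 hz a
  set F : Vt A → Amb A B := fun s => L.Fm z (s, z.2.2) with hF
  set x := L.lf L.p a with hx
  have hF0 : F L.s0 = z := Fm_self hz
  have e1 := chain2 (f := L.r z) (by rw [hF0]; exact h.r_an hz hn) f1 x x
  have e2 : (fun s => L.r z (F s)) =ᶠ[𝓝 L.s0] L.rho := f3.eventually (h.r_Fm hz hn)
  have e3 : (fderiv ℝ (fderiv ℝ F) L.s0 x x).2.2 = 0 := by
    have g1 := mm_d2_clm ((ContinuousLinearMap.snd ℝ _ _).comp (ContinuousLinearMap.snd ℝ _ _)) f1 x x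
    have g2 : (fun s => ((ContinuousLinearMap.snd ℝ _ _).comp (ContinuousLinearMap.snd ℝ _ _)) (F s)) =ᶠ[𝓝 L.s0]
        fun s => (0 : Vt A →L[ℝ] B → ℂ) s + z.2.2 := by
      filter_upwards [f3.eventually (h.Fm_eq hz)] with s h1
      rw [zero_apply, zero_add]
      exact h1.2
    rw [g2.fderiv.fderiv_eq, fderiv2_clm] at g1
    exact g1.symm
  rw [e2.fderiv.fderiv_eq, f2, hF0, ← iv_vt e3, h.r_d1 hz hn, th_apply, iv_vt e3, eq_sub_of_add_eq' e0, hx,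
    h.dF_lf hz, ← hx] at e1
  have e4 := h.im_eta hz a
  rw [← hx] at e4
  have e5 : (2 * I / L.mu z * (L.mu z * (fderiv ℝ (fderiv ℝ L.rho) L.s0 x x : ℝ) -
      L.HH (z, star L.p) (L.up z x) (L.up z x))).im = 2 * fderiv ℝ (fderiv ℝ L.rho) L.s0 x x +
      (-(2 * I / L.mu z) * L.HH (z, star L.p) (L.up z x) (L.up z x)).im := by
    rw [mul_sub, ← mul_assoc, div_mul_cancel₀ _ (h.mu_ne hz), sub_im, neg_mul, neg_im]
    simp
    ring
  linarith

theorem OK.r_germ (h : L.OK) (hz : z ∈ L.S) (hn : L.Nd z) :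
    ∀ᶠ τ in 𝓝 z.2.2, L.Nd (L.b z τ) ∧ L.r z =ᶠ[𝓝 (L.b z τ)] L.r (L.b z τ) := by
  have hs := h.sg_spec hz hn
  have hc : Tendsto (fun τ : B → ℂ => (L.s0, τ)) (𝓝 z.2.2) (𝓝 (L.s0, z.2.2)) :=
    (continuous_const.prodMk continuous_id).tendsto _
  have hF : Tendsto (L.Fm z) (𝓝 (L.s0, z.2.2)) (𝓝 z) := by
    have := (h.Fm_an hz).continuousAt.tendsto
    rwa [Fm_self hz] at this
  filter_upwards [b_mem hz, h.Fm_germ hz, hc.eventually (hs.left.eventually_nhds.and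
    ((h.Fm_an hz).eventually_analyticAt.and (hF.eventually hs.an.eventually_analyticAt)))] with τ h1 h2 h3
  have hn' : L.Nd (L.b z τ) := by
    intro x hx
    have e1 : L.DF (L.b z τ) (x, 0) = 0 := by rw [h.DF_inl h1.2, hx, map_zero]
    rw [DF, h1.1, h2.fderiv_eq] at e1
    have e2 := (h3.2.2.differentiableAt.hasFDerivAt.comp _ h3.2.1.differentiableAt.hasFDerivAt).unique
      ((hasFDerivAt_id _).congr_of_eventuallyEq h3.1)
    have e3 := congrArg (fun T : Vt A × (B → ℂ) →L[ℝ] Vt A × (B → ℂ) => T (x, 0)) e2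
    simp only [ContinuousLinearMap.comp_apply, e1, map_zero, ContinuousLinearMap.id_apply] at e3
    exact (congrArg Prod.fst e3).symm
  refine ⟨hn', ?_⟩
  have hs' := h.sg_spec h1.2 hn'
  have ht : Tendsto (L.sg (L.b z τ)) (𝓝 (L.b z τ)) (𝓝 (L.s0, τ)) := by
    have := hs'.an.continuousAt.tendsto
    rwa [h.sg_self h1.2 hn', h1.1] at this
  filter_upwards [hs'.right, ht.eventually (h3.1.and h2)] with q a1 a2
  rw [a2.2] at a1
  rw [r, r, ← a2.1, a1]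

theorem OK.r_R (h : L.OK) (hz : z ∈ L.Zs) (hn : L.Nd z) : ∀ᶠ q in 𝓝 z, L.r z q = 0 → L.Rr q = 0 := by
  have hs := h.sg_spec (Zs_sub hz) hn
  have ht : Tendsto (L.sg z) (𝓝 z) (𝓝 (L.s0, z.2.2)) := by
    have := hs.an.continuousAt.tendsto
    rwa [h.sg_self (Zs_sub hz) hn] at this
  filter_upwards [hs.right, ht.eventually (h.fol hz)] with q a1 a2 a3
  rw [← a1]
  exact a2 a3

theorem OK.r_exp (h : L.OK) (hz : z ∈ L.S) (hn : L.Nd z) (g : MvPolynomial B ℂ) (q₀ : Amb A B) : ∀ ε > 0, ∀ᶠ q in 𝓝 z,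
    |L.r z q - (((L.geo g q₀).co z q).1.im - (L.geo g q₀).Q (L.b z q.2.2) ((L.geo g q₀).co z q).2.1)| ≤
      ε * (‖((L.geo g q₀).co z q).1‖ + ‖((L.geo g q₀).co z q).2.1‖ ^ 2) := by
  refine taylor (L.geo g q₀) (h.r_an hz hn) (b_an hz).continuousAt (b_self hz) (h.th_an hz).continuousAt
    (h.th_ne hz) ?_
  filter_upwards [b_mem hz, h.r_germ hz hn] with τ h1 h2
  change (L.b z τ).2.2 = τ ∧ L.r z (L.b z τ) = 0 ∧
    (∀ v : Vt A, fderiv ℝ (L.r z) (L.b z τ) (iv v) = (L.th (L.b z τ) v).im) ∧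
    ∀ v : Vt A, L.th (L.b z τ) v = 0 → fderiv ℝ (fderiv ℝ (L.r z)) (L.b z τ) (iv v) (iv v) =
      -2 * (L.eta (L.b z τ) ((L.xi (L.b z τ)).inverse v.2) ((L.xi (L.b z τ)).inverse v.2)).im
  refine ⟨h1.1, h2.2.eq_of_nhds.trans (h.r_self h1.2 h2.1), fun v => ?_, fun v hv => ?_⟩
  · rw [h2.2.fderiv_eq, h.r_d1 h1.2 h2.1]
  · rw [h2.2.fderiv.fderiv_eq, ← h.r_d2 h1.2 h2.1, ((h.nd_iff h1.2).2 h2.1).self_apply_inverse, h.lf_eq h1.2 hv]

/-- `sign_swap`; the constant is `1` because both derivatives are `v ↦ (th p v).im` on vertical vectors -/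
theorem OK.r_sign (h : L.OK) : ∀ᶠ q in 𝓝 L.p, (0 < L.r L.p q ↔ 0 < L.Rr q) := by
  have hn : L.Nd L.p := fun x hx => (h.dF_p x).symm.trans hx
  obtain ⟨x, hx⟩ : ∃ x, fderiv ℝ L.rho L.s0 x ≠ 0 := by
    by_contra hne
    exact h.drho_ne (ContinuousLinearMap.ext fun x => by_contra fun h' => hne ⟨x, h'⟩)
  have e1 : fderiv ℝ (L.r L.p) L.p (iv x) = fderiv ℝ L.rho L.s0 x := by rw [h.r_d1 h.p_mem hn, h.drho]
  have e2 : fderiv ℝ L.Rr L.p (iv x) = fderiv ℝ L.rho L.s0 x := by rw [L.fderiv_Rr, L.fderiv_rho]; rfl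
  obtain ⟨c, -, hc, hs⟩ := sign_swap (h.r_an h.p_mem hn) (L.Rr_an _) (h.r_self h.p_mem hn)
    (fun h0 => hx (by rw [← e1, h0]; rfl)) (fun h0 => hx (by rw [← e2, h0]; rfl)) (h.r_R h.p_Zs hn)
  have e3 : c = 1 := by
    rw [hc, smul_apply, e1, smul_eq_mul] at e2
    exact mul_right_cancel₀ hx (e2.trans (one_mul _).symm)
  filter_upwards [hs] with q hq
  rw [hq.2.1, e3, one_mul]

end Lv

end Crest.Agent.R264.Fol
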